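/-
P063: expectations under the p-biased product measure on subsets of a finite set, by direct sums.
-/
import Mathlib

open Finset

namespace Vale.Agent.P063X

variable {α : Type*} [DecidableEq α]

/-- Expectation of `F` under the `p`-biased product measure on subsets of `U`. -/
noncomputable def Ex (p : ℝ) (U : Finset α) (F : Finset α → ℝ) : ℝ :=
  ∑ x ∈ U.powerset, p ^ x.card * (1 - p) ^ (U \ x).card * F x

@[simp] lemma Ex_empty (p : ℝ) (F : Finset α → ℝ) : Ex p (∅ : Finset α) F = F ∅ := by
  simp [Ex]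

lemma Ex_insert (p : ℝ) {a : α} {U : Finset α} (ha : a ∉ U) (F : Finset α → ℝ) :
    Ex p (insert a U) F = (1 - p) * Ex p U F + p * Ex p U (fun x => F (insert a x)) := by
  unfold Ex
  rw [Finset.sum_powerset_insert ha, Finset.mul_sum, Finset.mul_sum]
  congr 1
  · apply Finset.sum_congr rfl
    intro x hx
    have hxU : x ⊆ U := Finset.mem_powerset.mp hx
    have hax : a ∉ x := fun h => ha (hxU h)
    have h1 : insert a U \ x = insert a (U \ x) := Finset.insert_sdiff_of_notMem U hax
    have h2 : a ∉ U \ x := fun h => ha (Finset.mem_sdiff.mp h).1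
    rw [h1, Finset.card_insert_of_notMem h2]
    ring
  · apply Finset.sum_congr rfl
    intro x hx
    have hxU : x ⊆ U := Finset.mem_powerset.mp hx
    have hax : a ∉ x := fun h => ha (hxU h)
    have h1 : insert a U \ insert a x = U \ x := by
      ext b
      simp only [Finset.mem_sdiff, Finset.mem_insert, not_or]
      constructor
      · rintro ⟨h | h, h2, h3⟩
        · exact absurd h h2
        · exact ⟨h, h3⟩
      · rintro ⟨h, h3⟩
        refine ⟨Or.inr h, ?_, h3⟩
        rintro rfl
        exact ha h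
    rw [h1, Finset.card_insert_of_notMem hax]
    ring

lemma Ex_congr (p : ℝ) (U : Finset α) {F G : Finset α → ℝ} (h : ∀ x, x ⊆ U → F x = G x) :
    Ex p U F = Ex p U G := by
  unfold Ex
  apply Finset.sum_congr rfl
  intro x hx
  rw [h x (Finset.mem_powerset.mp hx)]

lemma Ex_add (p : ℝ) (U : Finset α) (F G : Finset α → ℝ) :
    Ex p U (fun x => F x + G x) = Ex p U F + Ex p U G := by
  unfold Ex
  rw [← Finset.sum_add_distrib]
  apply Finset.sum_congr rfl
  intro x _
  ring

lemma Ex_sub (p : ℝ) (U : Finset α) (F G : Finset α → ℝ) :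
    Ex p U (fun x => F x - G x) = Ex p U F - Ex p U G := by
  unfold Ex
  rw [← Finset.sum_sub_distrib]
  apply Finset.sum_congr rfl
  intro x _
  ring

lemma Ex_mul_left (p : ℝ) (U : Finset α) (c : ℝ) (F : Finset α → ℝ) :
    Ex p U (fun x => c * F x) = c * Ex p U F := by
  unfold Ex
  rw [Finset.mul_sum]
  apply Finset.sum_congr rfl
  intro x _
  ring

lemma Ex_mul_right (p : ℝ) (U : Finset α) (c : ℝ) (F : Finset α → ℝ) :
    Ex p U (fun x => F x * c) = Ex p U F * c := by
  unfold Ex
  rw [Finset.sum_mul]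
  apply Finset.sum_congr rfl
  intro x _
  ring

lemma Ex_sum {ι : Type*} (p : ℝ) (U : Finset α) (s : Finset ι) (F : ι → Finset α → ℝ) :
    Ex p U (fun x => ∑ i ∈ s, F i x) = ∑ i ∈ s, Ex p U (F i) := by
  unfold Ex
  simp only [Finset.mul_sum]
  rw [Finset.sum_comm]

lemma Ex_const (p : ℝ) (U : Finset α) (c : ℝ) : Ex p U (fun _ => c) = c := by
  induction U using Finset.induction_on with
  | empty => simp
  | insert a U ha ih =>
    rw [Ex_insert p ha, ih]
    ring

lemma wt_nonneg {p : ℝ} (hp : 0 ≤ p) (hp1 : p ≤ 1) (U x : Finset α) :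
    0 ≤ p ^ x.card * (1 - p) ^ (U \ x).card :=
  mul_nonneg (pow_nonneg hp _) (pow_nonneg (by linarith) _)

lemma Ex_mono {p : ℝ} (hp : 0 ≤ p) (hp1 : p ≤ 1) (U : Finset α) {F G : Finset α → ℝ}
    (h : ∀ x, x ⊆ U → F x ≤ G x) : Ex p U F ≤ Ex p U G := by
  unfold Ex
  apply Finset.sum_le_sum
  intro x hx
  exact mul_le_mul_of_nonneg_left (h x (Finset.mem_powerset.mp hx)) (wt_nonneg hp hp1 U x)

lemma Ex_nonneg {p : ℝ} (hp : 0 ≤ p) (hp1 : p ≤ 1) (U : Finset α) {F : Finset α → ℝ}
    (h : ∀ x, x ⊆ U → 0 ≤ F x) : 0 ≤ Ex p U F := by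
  have := Ex_mono hp hp1 U (F := fun _ => 0) h
  rwa [Ex_const] at this

lemma Ex_le_const {p : ℝ} (hp : 0 ≤ p) (hp1 : p ≤ 1) (U : Finset α) {F : Finset α → ℝ} {c : ℝ}
    (h : ∀ x, x ⊆ U → F x ≤ c) : Ex p U F ≤ c := by
  have := Ex_mono hp hp1 U (G := fun _ => c) h
  rwa [Ex_const] at this

/-- Fubini for disjoint index sets. -/
lemma Ex_union (p : ℝ) {U V : Finset α} (h : Disjoint U V) (F : Finset α → ℝ) :
    Ex p (U ∪ V) F = Ex p U (fun y => Ex p V (fun z => F (y ∪ z))) := by
  induction U using Finset.induction_on generalizing F with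
  | empty => simp
  | insert a U ha ih =>
    have hd : Disjoint U V := Finset.disjoint_of_subset_left (Finset.subset_insert a U) h
    have haV : a ∉ V := fun hh => (Finset.disjoint_left.mp h) (Finset.mem_insert_self a U) hh
    have haUV : a ∉ U ∪ V := by
      simp [ha, haV]
    rw [Finset.insert_union, Ex_insert p haUV, Ex_insert p ha, ih hd F, ih hd]
    congr 2
    apply Ex_congr
    intro y _
    apply Ex_congr
    intro z _
    rw [Finset.insert_union]

/-- There is a point where the value is at most the mean. -/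
lemma exists_le_Ex {p : ℝ} (hp : 0 ≤ p) (hp1 : p ≤ 1) (U : Finset α) (F : Finset α → ℝ) :
    ∃ x, x ⊆ U ∧ F x ≤ Ex p U F := by
  obtain ⟨x, hx, hmin⟩ := Finset.exists_min_image U.powerset F ⟨∅, by simp⟩
  refine ⟨x, Finset.mem_powerset.mp hx, ?_⟩
  have h := Ex_mono hp hp1 U (F := fun _ => F x) (G := F)
    (fun y hy => hmin y (Finset.mem_powerset.mpr hy))
  rwa [Ex_const] at h

/-- Cauchy-Schwarz for `Ex`. -/
lemma Ex_cs {p : ℝ} (hp : 0 ≤ p) (hp1 : p ≤ 1) (U : Finset α) (F G : Finset α → ℝ) :
    Ex p U (fun x => F x * G x) ^ 2 ≤ Ex p U (fun x => F x ^ 2) * Ex p U (fun x => G x ^ 2) := by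
  unfold Ex
  apply Finset.sum_sq_le_sum_mul_sum_of_sq_le_mul
  · intro x _
    exact mul_nonneg (wt_nonneg hp hp1 U x) (sq_nonneg _)
  · intro x _
    exact mul_nonneg (wt_nonneg hp hp1 U x) (sq_nonneg _)
  · intro x _
    apply le_of_eq
    ring

/-- Product formula. -/
lemma Ex_prod (p : ℝ) (U : Finset α) (a b : α → ℝ) :
    Ex p U (fun x => ∏ e ∈ U, if e ∈ x then a e else b e) = ∏ e ∈ U, (p * a e + (1 - p) * b e) := by
  induction U using Finset.induction_on with
  | empty => simp
  | insert c U hc ih =>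
    rw [Ex_insert p hc, Finset.prod_insert hc]
    have h1 : Ex p U (fun x => ∏ e ∈ insert c U, if e ∈ x then a e else b e)
        = b c * ∏ e ∈ U, (p * a e + (1 - p) * b e) := by
      rw [← ih, ← Ex_mul_left]
      apply Ex_congr
      intro x hx
      have hcx : c ∉ x := fun h => hc (hx h)
      rw [Finset.prod_insert hc, if_neg hcx]
    have h2 : Ex p U (fun x => ∏ e ∈ insert c U, if e ∈ insert c x then a e else b e)
        = a c * ∏ e ∈ U, (p * a e + (1 - p) * b e) := by
      rw [← ih, ← Ex_mul_left]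
      apply Ex_congr
      intro x _
      rw [Finset.prod_insert hc, if_pos (Finset.mem_insert_self c x)]
      congr 1
      apply Finset.prod_congr rfl
      intro e he
      have hne : e ≠ c := fun h => hc (h ▸ he)
      simp only [Finset.mem_insert, hne, false_or]
    rw [h1, h2]
    ring

/-- The probability that a random subset avoids `A`. -/
lemma Ex_avoid (p : ℝ) {U A : Finset α} (hA : A ⊆ U) :
    Ex p U (fun x => if Disjoint A x then 1 else 0) = (1 - p) ^ A.card := by
  have h := Ex_prod p U (fun e => if e ∈ A then 0 else 1) (fun _ => 1)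
  have h2 : (∏ e ∈ U, (p * (if e ∈ A then (0:ℝ) else 1) + (1 - p) * 1)) = (1 - p) ^ A.card := by
    have : ∀ e ∈ U, (p * (if e ∈ A then (0:ℝ) else 1) + (1 - p) * 1) = if e ∈ A then 1 - p else 1 := by
      intro e _
      split_ifs <;> ring
    rw [Finset.prod_congr rfl this, Finset.prod_ite_mem, Finset.inter_eq_right.mpr hA,
      Finset.prod_const]
  rw [← h2, ← h]
  apply Ex_congr
  intro x _
  by_cases hd : Disjoint A x
  · rw [if_pos hd]
    symm
    apply Finset.prod_eq_one
    intro e _
    by_cases hex : e ∈ x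
    · rw [if_pos hex, if_neg (fun hA' => (Finset.disjoint_left.mp hd) hA' hex)]
    · rw [if_neg hex]
  · rw [if_neg hd]
    symm
    obtain ⟨e, heA, hex⟩ := Finset.not_disjoint_iff.mp hd
    apply Finset.prod_eq_zero (hA heA)
    rw [if_pos hex, if_pos heA]

/-- The probability that a given element is present. -/
lemma Ex_mem (p : ℝ) {U : Finset α} {e : α} (he : e ∈ U) :
    Ex p U (fun x => if e ∈ x then 1 else 0) = p := by
  have h := Ex_avoid p (U := U) (A := {e}) (Finset.singleton_subset_iff.mpr he)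
  have h2 : ∀ x : Finset α, (if e ∈ x then (1:ℝ) else 0) = 1 - if Disjoint {e} x then 1 else 0 := by
    intro x
    by_cases hx : e ∈ x
    · rw [if_pos hx, if_neg]
      · ring
      · rw [Finset.disjoint_singleton_left]
        exact not_not.mpr hx
    · rw [if_neg hx, if_pos]
      · ring
      · rwa [Finset.disjoint_singleton_left]
  simp only [h2]
  rw [Ex_sub, Ex_const, h]
  simp

end Vale.Agent.P063X
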