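/-
P063: the biased Fourier basis: orthonormality, Parseval, influences.
-/
import Vale.Agent.P063X.Ex

open Finset

namespace Vale.Agent.P063X

variable {α : Type*} [DecidableEq α]

noncomputable def sg (p : ℝ) : ℝ := Real.sqrt (p * (1 - p))

noncomputable def phi (p : ℝ) (e : α) (x : Finset α) : ℝ :=
  if e ∈ x then (1 - p) / sg p else -p / sg p

noncomputable def chi (p : ℝ) (S x : Finset α) : ℝ := ∏ e ∈ S, phi p e x

noncomputable def fc (p : ℝ) (U : Finset α) (F : Finset α → ℝ) (S : Finset α) : ℝ :=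
  Ex p U (fun x => F x * chi p S x)

noncomputable def bB (p : ℝ) : ℝ := 2 / sg p

section basics
variable {p : ℝ}

lemma sg_pos (hp : 0 < p) (hp1 : p < 1) : 0 < sg p :=
  Real.sqrt_pos.mpr (mul_pos hp (by linarith))

lemma sg_sq (hp : 0 < p) (hp1 : p < 1) : sg p ^ 2 = p * (1 - p) :=
  Real.sq_sqrt (mul_nonneg hp.le (by linarith))

lemma sg_le_half (hp : 0 < p) (hp1 : p < 1) : sg p ≤ 1 / 2 := by
  have h := sg_sq hp hp1
  have h0 := sg_pos hp hp1
  by_contra hc
  push Not at hc
  nlinarith [sq_nonneg (p - 1 / 2)]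

lemma four_le_bB (hp : 0 < p) (hp1 : p < 1) : 4 ≤ bB p := by
  unfold bB
  have h0 := sg_pos hp hp1
  rw [le_div_iff₀ h0]
  linarith [sg_le_half hp hp1]

lemma bB_pos (hp : 0 < p) (hp1 : p < 1) : 0 < bB p := by
  linarith [four_le_bB hp hp1]

lemma one_le_bB (hp : 0 < p) (hp1 : p < 1) : 1 ≤ bB p := by
  linarith [four_le_bB hp hp1]

lemma sg_sq_le_one (hp : 0 < p) (hp1 : p < 1) : sg p ^ 2 ≤ 1 := by
  rw [sg_sq hp hp1]
  nlinarith

@[simp] lemma chi_empty (x : Finset α) : chi p ∅ x = 1 := by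
  simp [chi]

lemma chi_insert {a : α} {S : Finset α} (ha : a ∉ S) (x : Finset α) :
    chi p (insert a S) x = phi p a x * chi p S x :=
  Finset.prod_insert ha

lemma phi_insert_ne {a e : α} (h : e ≠ a) (x : Finset α) : phi p e (insert a x) = phi p e x := by
  unfold phi
  simp [h]

lemma phi_insert_self (a : α) (x : Finset α) : phi p a (insert a x) = (1 - p) / sg p := by
  unfold phi
  simp

lemma phi_of_notMem {a : α} {x : Finset α} (h : a ∉ x) : phi p a x = -p / sg p := by
  unfold phi
  simp [h]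

lemma chi_insert_of_notMem {a : α} {S : Finset α} (ha : a ∉ S) (x : Finset α) :
    chi p S (insert a x) = chi p S x := by
  unfold chi
  apply Finset.prod_congr rfl
  intro e he
  exact phi_insert_ne (fun h => ha (by rw [← h]; exact he)) x

lemma chi_eq_prod {S U : Finset α} (h : S ⊆ U) (x : Finset α) :
    chi p S x = ∏ e ∈ U, if e ∈ S then phi p e x else 1 := by
  rw [Finset.prod_ite_mem, Finset.inter_eq_right.mpr h]
  rfl

/-- The part of `F` not depending on `a`. -/
lemma fc_insert_a {a : α} {V S : Finset α} (ha : a ∉ V) (haS : a ∉ S) (g : Finset α → ℝ) :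
    fc p (insert a V) g S = fc p V (fun x => (1 - p) * g x + p * g (insert a x)) S := by
  unfold fc
  rw [Ex_insert p ha, ← Ex_mul_left, ← Ex_mul_left, ← Ex_add]
  apply Ex_congr
  intro x _
  rw [chi_insert_of_notMem haS]
  ring

/-- The part of `F` depending on `a`. -/
lemma fc_insert_b (hp : 0 < p) (hp1 : p < 1) {a : α} {V S : Finset α} (ha : a ∉ V) (haS : a ∉ S)
    (g : Finset α → ℝ) :
    fc p (insert a V) g (insert a S) = fc p V (fun x => sg p * (g (insert a x) - g x)) S := by
  unfold fc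
  rw [Ex_insert p ha, ← Ex_mul_left, ← Ex_mul_left, ← Ex_add]
  apply Ex_congr
  intro x hx
  have hax : a ∉ x := fun h => ha (hx h)
  rw [chi_insert haS, chi_insert haS, chi_insert_of_notMem haS, phi_of_notMem hax, phi_insert_self]
  have h0 := sg_pos hp hp1
  have h2 := sg_sq hp hp1
  have h3 : p * (1 - p) / sg p = sg p := by
    rw [← h2]
    field_simp
  have h4 : (1 - p) * (g x * (-p / sg p * chi p S x))
      + p * (g (insert a x) * ((1 - p) / sg p * chi p S x))
      = (p * (1 - p) / sg p) * ((g (insert a x) - g x) * chi p S x) := by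
    ring
  rw [h4, h3]
  ring

/-- Parseval. -/
lemma parseval (hp : 0 < p) (hp1 : p < 1) (U : Finset α) (F : Finset α → ℝ) :
    ∑ S ∈ U.powerset, fc p U F S ^ 2 = Ex p U (fun x => F x ^ 2) := by
  induction U using Finset.induction_on generalizing F with
  | empty => simp [fc]
  | insert a V ha ih =>
    rw [Finset.sum_powerset_insert ha]
    have h1 : ∑ S ∈ V.powerset, fc p (insert a V) F S ^ 2
        = Ex p V (fun x => ((1 - p) * F x + p * F (insert a x)) ^ 2) := by
      rw [← ih]
      apply Finset.sum_congr rfl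
      intro S hS
      rw [fc_insert_a ha (fun h => ha (Finset.mem_powerset.mp hS h))]
    have h2 : ∑ S ∈ V.powerset, fc p (insert a V) F (insert a S) ^ 2
        = Ex p V (fun x => (sg p * (F (insert a x) - F x)) ^ 2) := by
      rw [← ih]
      apply Finset.sum_congr rfl
      intro S hS
      rw [fc_insert_b hp hp1 ha (fun h => ha (Finset.mem_powerset.mp hS h))]
    rw [h1, h2, ← Ex_add, Ex_insert p ha, ← Ex_mul_left, ← Ex_mul_left, ← Ex_add]
    apply Ex_congr
    intro x _
    have h := sg_sq hp hp1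
    rw [mul_pow (sg p), h]
    ring

/-- Orthonormality. -/
lemma orth (hp : 0 < p) (hp1 : p < 1) {U S S' : Finset α} (hS : S ⊆ U) (hS' : S' ⊆ U) :
    Ex p U (fun x => chi p S x * chi p S' x) = if S = S' then 1 else 0 := by
  have h0 := sg_pos hp hp1
  have h2 := sg_sq hp hp1
  have hq : 0 < 1 - p := by linarith
  set c1 : ℝ := (1 - p) / sg p with hc1
  set c0 : ℝ := -p / sg p with hc0
  have e1 : p * (c1 * c1) + (1 - p) * (c0 * c0) = 1 := by
    rw [hc1, hc0]
    field_simp
    rw [h2]
    ring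
  have e2 : p * c1 + (1 - p) * c0 = 0 := by
    rw [hc1, hc0]
    field_simp
    ring
  have key : (fun x => chi p S x * chi p S' x)
      = fun x => ∏ e ∈ U, if e ∈ x then ((if e ∈ S then c1 else 1) * (if e ∈ S' then c1 else 1))
          else ((if e ∈ S then c0 else 1) * (if e ∈ S' then c0 else 1)) := by
    funext x
    rw [chi_eq_prod hS, chi_eq_prod hS', ← Finset.prod_mul_distrib]
    apply Finset.prod_congr rfl
    intro e _
    by_cases hx : e ∈ x
    · rw [if_pos hx]
      simp only [phi, if_pos hx, hc1]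
    · rw [if_neg hx]
      simp only [phi, if_neg hx, hc0]
  rw [key, Ex_prod]
  by_cases hSS : S = S'
  · subst hSS
    rw [if_pos rfl]
    apply Finset.prod_eq_one
    intro e _
    by_cases he : e ∈ S
    · simp only [if_pos he]
      exact e1
    · simp only [if_neg he]
      ring
  · rw [if_neg hSS]
    have hex : ∃ e, (e ∈ S ∧ e ∉ S') ∨ (e ∈ S' ∧ e ∉ S) := by
      by_contra hc
      push Not at hc
      apply hSS
      ext e
      exact ⟨(hc e).1, (hc e).2⟩
    obtain ⟨e, he⟩ := hex
    rcases he with ⟨h3, h4⟩ | ⟨h3, h4⟩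
    · apply Finset.prod_eq_zero (hS h3)
      simp only [if_pos h3, if_neg h4, mul_one]
      exact e2
    · apply Finset.prod_eq_zero (hS' h3)
      simp only [if_pos h3, if_neg h4, one_mul]
      exact e2

/-- A polynomial in the characters and its coefficients. -/
noncomputable def poly (p : ℝ) (𝔉 : Finset (Finset α)) (c : Finset α → ℝ) (x : Finset α) : ℝ :=
  ∑ S ∈ 𝔉, c S * chi p S x

lemma fc_poly (hp : 0 < p) (hp1 : p < 1) {U : Finset α} {𝔉 : Finset (Finset α)}
    (h𝔉 : 𝔉 ⊆ U.powerset) (c : Finset α → ℝ) {S' : Finset α} (hS' : S' ⊆ U) :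
    fc p U (poly p 𝔉 c) S' = if S' ∈ 𝔉 then c S' else 0 := by
  unfold fc poly
  simp only [Finset.sum_mul, mul_assoc]
  rw [Ex_sum]
  simp only [Ex_mul_left]
  have : ∀ S ∈ 𝔉, c S * Ex p U (fun x => chi p S x * chi p S' x) = if S = S' then c S else 0 := by
    intro S hS
    rw [orth hp hp1 (Finset.mem_powerset.mp (h𝔉 hS)) hS']
    split_ifs <;> simp
  rw [Finset.sum_congr rfl this, Finset.sum_ite_eq']

lemma poly_sq (hp : 0 < p) (hp1 : p < 1) {U : Finset α} {𝔉 : Finset (Finset α)}
    (h𝔉 : 𝔉 ⊆ U.powerset) (c : Finset α → ℝ) :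
    Ex p U (fun x => poly p 𝔉 c x ^ 2) = ∑ S ∈ 𝔉, c S ^ 2 := by
  rw [← parseval hp hp1]
  have : ∀ S' ∈ U.powerset, fc p U (poly p 𝔉 c) S' ^ 2 = if S' ∈ 𝔉 then c S' ^ 2 else 0 := by
    intro S' hS'
    rw [fc_poly hp hp1 h𝔉 c (Finset.mem_powerset.mp hS')]
    split_ifs <;> simp
  rw [Finset.sum_congr rfl this, Finset.sum_ite_mem, Finset.inter_eq_right.mpr h𝔉]

end basics

/-! ### Boolean functions and influences -/

/-- Values in `{0,1}` on subsets of `U`. -/
def IsBoolOn (U : Finset α) (f : Finset α → ℝ) : Prop := ∀ x, x ⊆ U → f x = 0 ∨ f x = 1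

/-- Monotone on subsets of `U`. -/
def IsMonoOn (U : Finset α) (f : Finset α → ℝ) : Prop := ∀ x y, x ⊆ y → y ⊆ U → f x ≤ f y

/-- The discrete derivative. -/
def dd (f : Finset α → ℝ) (e : α) (x : Finset α) : ℝ := f (insert e x) - f x

/-- The influence of `e` on `f`. -/
noncomputable def infl (p : ℝ) (U : Finset α) (f : Finset α → ℝ) (e : α) : ℝ :=
  Ex p (U.erase e) (dd f e)

/-- The total influence of `f`. -/
noncomputable def inflTotal (p : ℝ) (U : Finset α) (f : Finset α → ℝ) : ℝ :=
  ∑ e ∈ U, infl p U f e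

section influences
variable {p : ℝ} {U : Finset α} {f : Finset α → ℝ}

lemma dd_bool (hB : IsBoolOn U f) (hM : IsMonoOn U f) {e : α} (he : e ∈ U) :
    IsBoolOn (U.erase e) (dd f e) := by
  intro x hx
  have hxU : x ⊆ U := fun a ha => Finset.mem_of_mem_erase (hx ha)
  have hiU : insert e x ⊆ U := Finset.insert_subset he hxU
  have hle := hM x (insert e x) (Finset.subset_insert e x) hiU
  unfold dd
  rcases hB x hxU with h1 | h1
  · rcases hB _ hiU with h2 | h2
    · left; rw [h1, h2]; norm_num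
    · right; rw [h1, h2]; norm_num
  · rcases hB _ hiU with h2 | h2
    · rw [h1, h2] at hle; norm_num at hle
    · left; rw [h1, h2]; norm_num

lemma infl_nonneg (hp : 0 < p) (hp1 : p < 1) (hB : IsBoolOn U f) (hM : IsMonoOn U f) {e : α}
    (he : e ∈ U) : 0 ≤ infl p U f e := by
  apply Ex_nonneg hp.le hp1.le
  intro x hx
  rcases dd_bool hB hM he x hx with h | h <;> rw [h] <;> norm_num

lemma inflTotal_nonneg (hp : 0 < p) (hp1 : p < 1) (hB : IsBoolOn U f) (hM : IsMonoOn U f) :
    0 ≤ inflTotal p U f :=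
  Finset.sum_nonneg fun _ he => infl_nonneg hp hp1 hB hM he

lemma fc_insert_erase (hp : 0 < p) (hp1 : p < 1) {e : α} (he : e ∈ U) {T : Finset α}
    (hT : T ⊆ U.erase e) (g : Finset α → ℝ) :
    fc p U g (insert e T) = sg p * fc p (U.erase e) (dd g e) T := by
  have hn : e ∉ U.erase e := Finset.notMem_erase e U
  have h1 := fc_insert_b (p := p) hp hp1 hn (fun h => hn (hT h)) g
  rw [Finset.insert_erase he] at h1
  rw [h1]
  unfold fc dd
  rw [← Ex_mul_left]
  apply Ex_congr
  intro x _
  ring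

/-- Splitting a sum over subsets according to membership of `e`. -/
lemma sum_powerset_mem {e : α} (he : e ∈ U) (G : Finset α → ℝ) :
    ∑ S ∈ U.powerset, (if e ∈ S then G S else 0) = ∑ T ∈ (U.erase e).powerset, G (insert e T) := by
  have hn : e ∉ U.erase e := Finset.notMem_erase e U
  conv_lhs => rw [← Finset.insert_erase he]
  rw [Finset.sum_powerset_insert hn]
  have h1 : ∑ S ∈ (U.erase e).powerset, (if e ∈ S then G S else 0) = 0 := by
    apply Finset.sum_eq_zero
    intro S hS
    rw [if_neg (fun h => hn (Finset.mem_powerset.mp hS h))]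
  rw [h1, zero_add]
  apply Finset.sum_congr rfl
  intro T _
  rw [if_pos (Finset.mem_insert_self e T)]

/-- Total mass of the sets containing `e`. -/
lemma mass_star (hp : 0 < p) (hp1 : p < 1) (hB : IsBoolOn U f) (hM : IsMonoOn U f) {e : α}
    (he : e ∈ U) :
    ∑ S ∈ U.powerset, (if e ∈ S then fc p U f S ^ 2 else 0) = sg p ^ 2 * infl p U f e := by
  rw [sum_powerset_mem he]
  have h1 : ∀ T ∈ (U.erase e).powerset, fc p U f (insert e T) ^ 2
      = sg p ^ 2 * fc p (U.erase e) (dd f e) T ^ 2 := by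
    intro T hT
    rw [fc_insert_erase hp hp1 he (Finset.mem_powerset.mp hT)]
    ring
  rw [Finset.sum_congr rfl h1, ← Finset.mul_sum, parseval hp hp1]
  congr 1
  unfold infl
  apply Ex_congr
  intro x hx
  rcases dd_bool hB hM he x hx with h | h <;> rw [h] <;> norm_num

/-- The spectral formula for the total influence. -/
lemma spectral_sum (hp : 0 < p) (hp1 : p < 1) (hB : IsBoolOn U f) (hM : IsMonoOn U f) :
    ∑ S ∈ U.powerset, (S.card : ℝ) * fc p U f S ^ 2 = sg p ^ 2 * inflTotal p U f := by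
  unfold inflTotal
  rw [Finset.mul_sum, ← Finset.sum_congr rfl (fun e he => mass_star hp hp1 hB hM he),
    Finset.sum_comm]
  apply Finset.sum_congr rfl
  intro S hS
  have hSU := Finset.mem_powerset.mp hS
  have : ∑ e ∈ U, (if e ∈ S then fc p U f S ^ 2 else 0) = ∑ _e ∈ S, fc p U f S ^ 2 := by
    rw [Finset.sum_ite_mem, Finset.inter_eq_right.mpr hSU]
  rw [this, Finset.sum_const, nsmul_eq_mul]

/-- Boolean functions have Fourier mass at most one. -/
lemma sum_fc_sq_le_one (hp : 0 < p) (hp1 : p < 1) (hB : IsBoolOn U f) :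
    ∑ S ∈ U.powerset, fc p U f S ^ 2 ≤ 1 := by
  rw [parseval hp hp1]
  apply Ex_le_const hp.le hp1.le
  intro x hx
  rcases hB x hx with h | h <;> rw [h] <;> norm_num

/-- Variance as the mass on nonempty sets. -/
lemma sum_fc_sq_nonempty (hp : 0 < p) (hp1 : p < 1) (hB : IsBoolOn U f) :
    ∑ S ∈ U.powerset.erase ∅, fc p U f S ^ 2 = Ex p U f - Ex p U f ^ 2 := by
  have h1 : fc p U f ∅ = Ex p U f := by
    unfold fc
    apply Ex_congr
    intro x _
    simp
  have h2 := Finset.add_sum_erase U.powerset (fun S => fc p U f S ^ 2)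
    (Finset.empty_mem_powerset U)
  rw [parseval hp hp1, h1] at h2
  have h3 : Ex p U (fun x => f x ^ 2) = Ex p U f := by
    apply Ex_congr
    intro x hx
    rcases hB x hx with h | h <;> rw [h] <;> norm_num
  rw [h3] at h2
  linarith

end influences

end Vale.Agent.P063X
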