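/-
P063: the biased Bonami lemma, level bounds for Boolean functions.
-/
import Vale.Agent.P063X.Fourier

open Finset

namespace Vale.Agent.P063X

variable {α : Type*} [DecidableEq α]
variable {p : ℝ}

lemma le_of_sq_le' {x y : ℝ} (hy : 0 ≤ y) (h : x ^ 2 ≤ y ^ 2) : x ≤ y := by
  by_contra hc
  push Not at hc
  nlinarith

lemma bonami_pt (hp : 0 < p) (hp1 : p < 1) (a b : ℝ) :
    (1 - p) * (a + (-p / sg p) * b) ^ 4 + p * (a + ((1 - p) / sg p) * b) ^ 4
      ≤ a ^ 4 + 8 * (a ^ 2 * b ^ 2) + bB p ^ 2 * b ^ 4 := by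
  have hs := sg_pos hp hp1
  have h2 := sg_sq hp hp1
  obtain ⟨r, rfl⟩ : ∃ r, b = sg p * r := ⟨b / sg p, by field_simp⟩
  have e1 : (-p / sg p) * (sg p * r) = -p * r := by field_simp
  have e2 : ((1 - p) / sg p) * (sg p * r) = (1 - p) * r := by field_simp
  have e3 : bB p ^ 2 * (sg p * r) ^ 4 = 4 * (p * (1 - p)) * r ^ 4 := by
    unfold bB
    rw [← h2]
    field_simp
    ring
  have e4 : a ^ 2 * (sg p * r) ^ 2 = a ^ 2 * ((p * (1 - p)) * r ^ 2) := by
    rw [mul_pow, h2]
  rw [e1, e2, e3, e4]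
  have hw : 0 < p * (1 - p) := mul_pos hp (by linarith)
  have key : a ^ 4 + 8 * (a ^ 2 * ((p * (1 - p)) * r ^ 2)) + 4 * (p * (1 - p)) * r ^ 4
      - ((1 - p) * (a + -p * r) ^ 4 + p * (a + (1 - p) * r) ^ 4)
      = (p * (1 - p)) * r ^ 2 * (2 * (a - (1 - 2 * p) * r) ^ 2 + (1 + 11 * (p * (1 - p))) * r ^ 2) := by
    ring
  have hnn : 0 ≤ (p * (1 - p)) * r ^ 2 * (2 * (a - (1 - 2 * p) * r) ^ 2 + (1 + 11 * (p * (1 - p))) * r ^ 2) := by
    positivity
  linarith

/-- The biased Bonami lemma (hypercontractive form). -/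
theorem bonami (hp : 0 < p) (hp1 : p < 1) (V : Finset α) (g : Finset α → ℝ) :
    Ex p V (fun x => g x ^ 4) ≤ (∑ S ∈ V.powerset, bB p ^ S.card * fc p V g S ^ 2) ^ 2 := by
  induction V using Finset.induction_on generalizing g with
  | empty =>
    simp only [Ex_empty, Finset.powerset_empty, Finset.sum_singleton, Finset.card_empty, pow_zero,
      one_mul, fc, chi_empty, mul_one]
    apply le_of_eq
    ring
  | insert a V ha ih =>
    set A : Finset α → ℝ := fun x => (1 - p) * g x + p * g (insert a x) with hA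
    set C : Finset α → ℝ := fun x => sg p * (g (insert a x) - g x) with hC
    have hs := sg_pos hp hp1
    have hB4 := four_le_bB hp hp1
    have ptw : ∀ x, x ⊆ V → (1 - p) * g x ^ 4 + p * g (insert a x) ^ 4
        ≤ A x ^ 4 + 8 * (A x ^ 2 * C x ^ 2) + bB p ^ 2 * C x ^ 4 := by
      intro x _
      have h := bonami_pt hp hp1 (A x) (C x)
      have e1 : A x + (-p / sg p) * C x = g x := by
        simp only [hA, hC]
        field_simp
        ring
      have e2 : A x + ((1 - p) / sg p) * C x = g (insert a x) := by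
        simp only [hA, hC]
        field_simp
        ring
      rwa [e1, e2] at h
    have h1 : Ex p (insert a V) (fun x => g x ^ 4)
        ≤ Ex p V (fun x => A x ^ 4) + 8 * Ex p V (fun x => A x ^ 2 * C x ^ 2)
          + bB p ^ 2 * Ex p V (fun x => C x ^ 4) := by
      rw [Ex_insert p ha, ← Ex_mul_left, ← Ex_mul_left, ← Ex_add, ← Ex_mul_left, ← Ex_mul_left,
        ← Ex_add, ← Ex_add]
      exact Ex_mono hp.le hp1.le V ptw
    set Aa := ∑ S ∈ V.powerset, bB p ^ S.card * fc p V A S ^ 2 with hAa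
    set Cc := ∑ S ∈ V.powerset, bB p ^ S.card * fc p V C S ^ 2 with hCc
    have hBpos := bB_pos hp hp1
    have hAa0 : 0 ≤ Aa := Finset.sum_nonneg fun S _ => by positivity
    have hCc0 : 0 ≤ Cc := Finset.sum_nonneg fun S _ => by positivity
    have iA := ih A
    have iC := ih C
    have h2 : Ex p V (fun x => A x ^ 2 * C x ^ 2) ≤ Aa * Cc := by
      apply le_of_sq_le' (mul_nonneg hAa0 hCc0)
      have hcs := Ex_cs hp.le hp1.le V (fun x => A x ^ 2) (fun x => C x ^ 2)
      have e1 : Ex p V (fun x => (A x ^ 2) ^ 2) = Ex p V (fun x => A x ^ 4) := by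
        apply Ex_congr; intro x _; ring
      have e2 : Ex p V (fun x => (C x ^ 2) ^ 2) = Ex p V (fun x => C x ^ 4) := by
        apply Ex_congr; intro x _; ring
      rw [e1, e2] at hcs
      have n1 : 0 ≤ Ex p V (fun x => A x ^ 4) :=
        Ex_nonneg hp.le hp1.le V fun x _ => by positivity
      have n2 : 0 ≤ Ex p V (fun x => C x ^ 4) :=
        Ex_nonneg hp.le hp1.le V fun x _ => by positivity
      calc _ ≤ Ex p V (fun x => A x ^ 4) * Ex p V (fun x => C x ^ 4) := hcs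
        _ ≤ Aa ^ 2 * Cc ^ 2 := mul_le_mul iA iC n2 (sq_nonneg _)
        _ = (Aa * Cc) ^ 2 := by ring
    have h3 : ∑ S ∈ (insert a V).powerset, bB p ^ S.card * fc p (insert a V) g S ^ 2
        = Aa + bB p * Cc := by
      rw [Finset.sum_powerset_insert ha, hAa, hCc, Finset.mul_sum]
      congr 1
      · apply Finset.sum_congr rfl
        intro S hS
        rw [fc_insert_a ha (fun h => ha (Finset.mem_powerset.mp hS h))]
      · apply Finset.sum_congr rfl
        intro S hS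
        have haS : a ∉ S := fun h => ha (Finset.mem_powerset.mp hS h)
        rw [fc_insert_b hp hp1 ha haS, Finset.card_insert_of_notMem haS]
        ring
    rw [h3]
    have hBCc : 0 ≤ bB p * Cc := mul_nonneg hBpos.le hCc0
    have hfin : 8 * (Aa * Cc) ≤ 2 * Aa * (bB p * Cc) := by
      have : 0 ≤ Aa * Cc := mul_nonneg hAa0 hCc0
      nlinarith
    have hBsq : 0 ≤ bB p ^ 2 := sq_nonneg _
    calc _ ≤ _ := h1
      _ ≤ Aa ^ 2 + 8 * (Aa * Cc) + bB p ^ 2 * Cc ^ 2 := by
        have := mul_le_mul_of_nonneg_left iC hBsq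
        linarith
      _ ≤ _ := by nlinarith

/-- The fourth moment of a polynomial of bounded degree. -/
lemma poly_four (hp : 0 < p) (hp1 : p < 1) {U : Finset α} {𝔉 : Finset (Finset α)}
    (h𝔉 : 𝔉 ⊆ U.powerset) (c : Finset α → ℝ) {d : ℕ} (hd : ∀ S ∈ 𝔉, S.card ≤ d) :
    Ex p U (fun x => poly p 𝔉 c x ^ 4) ≤ bB p ^ (2 * d) * (∑ S ∈ 𝔉, c S ^ 2) ^ 2 := by
  have h1 := bonami hp hp1 U (poly p 𝔉 c)
  have hB1 := one_le_bB hp hp1
  have h2 : ∑ S ∈ U.powerset, bB p ^ S.card * fc p U (poly p 𝔉 c) S ^ 2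
      ≤ bB p ^ d * ∑ S ∈ 𝔉, c S ^ 2 := by
    have h3 : ∀ S ∈ U.powerset, bB p ^ S.card * fc p U (poly p 𝔉 c) S ^ 2
        = if S ∈ 𝔉 then bB p ^ S.card * c S ^ 2 else 0 := by
      intro S hS
      rw [fc_poly hp hp1 h𝔉 c (Finset.mem_powerset.mp hS)]
      split_ifs <;> simp
    rw [Finset.sum_congr rfl h3, Finset.sum_ite_mem, Finset.inter_eq_right.mpr h𝔉, Finset.mul_sum]
    apply Finset.sum_le_sum
    intro S hS
    apply mul_le_mul_of_nonneg_right _ (sq_nonneg _)
    exact pow_le_pow_right₀ hB1 (hd S hS)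
  have h0 : 0 ≤ ∑ S ∈ U.powerset, bB p ^ S.card * fc p U (poly p 𝔉 c) S ^ 2 :=
    Finset.sum_nonneg fun S _ => by positivity
  calc _ ≤ _ := h1
    _ ≤ (bB p ^ d * ∑ S ∈ 𝔉, c S ^ 2) ^ 2 := pow_le_pow_left₀ h0 h2 2
    _ = _ := by rw [mul_pow, ← pow_mul, mul_comm d 2]

/-- The level bound for Boolean functions. -/
lemma level_sq (hp : 0 < p) (hp1 : p < 1) {V : Finset α} {u : Finset α → ℝ} (hu : IsBoolOn V u)
    (d : ℕ) :
    (∑ T ∈ V.powerset.filter (fun T => T.card ≤ d), fc p V u T ^ 2) ^ 2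
      ≤ Ex p V u ^ 3 * bB p ^ (2 * d) := by
  set 𝒯 := V.powerset.filter (fun T => T.card ≤ d) with h𝒯
  set s := ∑ T ∈ 𝒯, fc p V u T ^ 2 with hs
  set π := Ex p V u with hπ
  set v := poly p 𝒯 (fc p V u) with hv
  have huu : ∀ x, x ⊆ V → u x ^ 2 = u x := by
    intro x hx
    rcases hu x hx with h | h <;> rw [h] <;> norm_num
  have hπ0 : 0 ≤ π := Ex_nonneg hp.le hp1.le V fun x hx => by
    rcases hu x hx with h | h <;> rw [h] <;> norm_num
  have hs0 : 0 ≤ s := Finset.sum_nonneg fun T _ => sq_nonneg _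
  have hB0 : 0 ≤ bB p ^ (2 * d) := pow_nonneg (bB_pos hp hp1).le _
  have h1 : Ex p V (fun x => u x * v x) = s := by
    have : (fun x => u x * v x) = fun x => ∑ T ∈ 𝒯, fc p V u T * (u x * chi p T x) := by
      funext x
      simp only [hv, poly]
      rw [Finset.mul_sum]
      apply Finset.sum_congr rfl
      intro T _
      ring
    rw [this, Ex_sum]
    apply Finset.sum_congr rfl
    intro T _
    rw [Ex_mul_left, sq]
    rfl
  have h2 : Ex p V (fun x => u x ^ 2) = π := by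
    apply Ex_congr
    exact huu
  have h3 : s ^ 2 ≤ π * Ex p V (fun x => u x * v x ^ 2) := by
    have hcs := Ex_cs hp.le hp1.le V u (fun x => u x * v x)
    have e1 : Ex p V (fun x => u x * (u x * v x)) = s := by
      rw [← h1]
      apply Ex_congr
      intro x hx
      rw [← mul_assoc, ← sq, huu x hx]
    have e2 : Ex p V (fun x => (u x * v x) ^ 2) = Ex p V (fun x => u x * v x ^ 2) := by
      apply Ex_congr
      intro x hx
      rw [mul_pow, huu x hx]
    rwa [e1, e2, h2] at hcs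
  set X := Ex p V (fun x => u x * v x ^ 2) with hX
  have hX0 : 0 ≤ X := Ex_nonneg hp.le hp1.le V fun x hx => by
    rcases hu x hx with h | h <;> rw [h] <;> positivity
  have h4 : X ^ 2 ≤ π * Ex p V (fun x => v x ^ 4) := by
    have hcs := Ex_cs hp.le hp1.le V u (fun x => v x ^ 2)
    have e2 : Ex p V (fun x => (v x ^ 2) ^ 2) = Ex p V (fun x => v x ^ 4) := by
      apply Ex_congr
      intro x _
      ring
    rwa [e2, h2] at hcs
  have h𝒯sub : 𝒯 ⊆ V.powerset := Finset.filter_subset _ _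
  have h5 : Ex p V (fun x => v x ^ 4) ≤ bB p ^ (2 * d) * s ^ 2 :=
    poly_four hp hp1 h𝒯sub _ (fun S hS => (Finset.mem_filter.mp hS).2)
  have h6 : (s ^ 2) ^ 2 ≤ π ^ 3 * bB p ^ (2 * d) * s ^ 2 := by
    have h7 : (s ^ 2) ^ 2 ≤ (π * X) ^ 2 := pow_le_pow_left₀ (sq_nonneg _) h3 2
    have h8 : (π * X) ^ 2 ≤ π ^ 2 * (π * (bB p ^ (2 * d) * s ^ 2)) := by
      rw [mul_pow]
      apply mul_le_mul_of_nonneg_left _ (sq_nonneg _)
      exact h4.trans (mul_le_mul_of_nonneg_left h5 hπ0)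
    calc _ ≤ _ := h7
      _ ≤ _ := h8
      _ = _ := by ring
  by_cases hs00 : s = 0
  · rw [hs00]
    have : 0 ≤ π ^ 3 * bB p ^ (2 * d) := mul_nonneg (pow_nonneg hπ0 _) hB0
    simpa using this
  · have hsq : 0 < s ^ 2 := by positivity
    have : s ^ 2 * s ^ 2 ≤ (π ^ 3 * bB p ^ (2 * d)) * s ^ 2 := by
      calc s ^ 2 * s ^ 2 = (s ^ 2) ^ 2 := by ring
        _ ≤ _ := h6
    exact le_of_mul_le_mul_right this hsq

/-- The level bound in linear form. -/
lemma level_le (hp : 0 < p) (hp1 : p < 1) {V : Finset α} {u : Finset α → ℝ} (hu : IsBoolOn V u)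
    (d : ℕ) {κ : ℝ} (hκ : 0 ≤ κ) (hπ : Ex p V u ≤ κ ^ 2) :
    ∑ T ∈ V.powerset.filter (fun T => T.card ≤ d), fc p V u T ^ 2
      ≤ Ex p V u * κ * bB p ^ d := by
  have hπ0 : 0 ≤ Ex p V u := Ex_nonneg hp.le hp1.le V fun x hx => by
    rcases hu x hx with h | h <;> rw [h] <;> norm_num
  have hB0 : 0 ≤ bB p ^ d := pow_nonneg (bB_pos hp hp1).le _
  apply le_of_sq_le' (mul_nonneg (mul_nonneg hπ0 hκ) hB0)
  refine (level_sq hp hp1 hu d).trans ?_
  have e : (Ex p V u * κ * bB p ^ d) ^ 2 = Ex p V u ^ 2 * κ ^ 2 * bB p ^ (2 * d) := by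
    rw [mul_pow, mul_pow, ← pow_mul, mul_comm d 2]
  rw [e]
  have : Ex p V u ^ 3 = Ex p V u ^ 2 * Ex p V u := by ring
  rw [this]
  apply mul_le_mul_of_nonneg_right _ (pow_nonneg (bB_pos hp hp1).le _)
  exact mul_le_mul_of_nonneg_left hπ (sq_nonneg _)

/-- The star of `e` at low levels. -/
lemma star_level (hp : 0 < p) (hp1 : p < 1) {J : Finset α} {g : Finset α → ℝ} (hB : IsBoolOn J g)
    (hM : IsMonoOn J g) {e : α} (he : e ∈ J) (D : ℕ) {κ : ℝ} (hκ : 0 ≤ κ)
    (hπ : infl p J g e ≤ κ ^ 2) :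
    ∑ T ∈ J.powerset, (if e ∈ T then (if T.card ≤ D then fc p J g T ^ 2 else 0) else 0)
      ≤ infl p J g e * κ * bB p ^ D := by
  rw [sum_powerset_mem he]
  have hu := dd_bool hB hM he
  have hlev := level_le hp hp1 hu D hκ hπ
  refine le_trans ?_ hlev
  rw [Finset.sum_filter]
  apply Finset.sum_le_sum
  intro T hT
  have hT' : T ⊆ J.erase e := Finset.mem_powerset.mp hT
  have hn : e ∉ T := fun h => Finset.notMem_erase e J (hT' h)
  rw [Finset.card_insert_of_notMem hn]
  by_cases h1 : T.card + 1 ≤ D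
  · rw [if_pos h1, if_pos (by omega), fc_insert_erase hp hp1 he hT', mul_pow]
    have h2 := sg_sq_le_one hp hp1
    have h3 : 0 ≤ fc p (J.erase e) (dd g e) T ^ 2 := sq_nonneg _
    nlinarith
  · rw [if_neg h1]
    split_ifs
    · exact sq_nonneg _
    · exact le_rfl

/-- Low-level mass outside a set `R`. -/
lemma mass_out (hp : 0 < p) (hp1 : p < 1) {J : Finset α} {g : Finset α → ℝ} (hB : IsBoolOn J g)
    (hM : IsMonoOn J g) (R : Finset α) (D : ℕ) {κ : ℝ} (hκ : 0 ≤ κ)
    (hπ : ∀ e ∈ J, e ∉ R → infl p J g e ≤ κ ^ 2) :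
    ∑ T ∈ J.powerset, (if T.card ≤ D ∧ ¬ T ⊆ R then fc p J g T ^ 2 else 0)
      ≤ (∑ e ∈ J \ R, infl p J g e) * κ * bB p ^ D := by
  have h1 : ∀ T ∈ J.powerset, (if T.card ≤ D ∧ ¬ T ⊆ R then fc p J g T ^ 2 else 0)
      ≤ ∑ e ∈ J \ R, (if e ∈ T then (if T.card ≤ D then fc p J g T ^ 2 else 0) else 0) := by
    intro T hT
    have hTJ := Finset.mem_powerset.mp hT
    have hnn : ∀ e ∈ J \ R, 0 ≤ (if e ∈ T then (if T.card ≤ D then fc p J g T ^ 2 else 0) else 0) := by
      intro e _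
      split_ifs
      · exact sq_nonneg _
      · exact le_rfl
      · exact le_rfl
    by_cases h : T.card ≤ D ∧ ¬ T ⊆ R
    · rw [if_pos h]
      obtain ⟨e, heT, heR⟩ := Finset.not_subset.mp h.2
      have hem : e ∈ J \ R := Finset.mem_sdiff.mpr ⟨hTJ heT, heR⟩
      calc fc p J g T ^ 2
          = (if e ∈ T then (if T.card ≤ D then fc p J g T ^ 2 else 0) else 0) := by
            rw [if_pos heT, if_pos h.1]
        _ ≤ _ := Finset.single_le_sum hnn hem
    · rw [if_neg h]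
      exact Finset.sum_nonneg hnn
  refine (Finset.sum_le_sum h1).trans ?_
  rw [Finset.sum_comm, Finset.sum_mul, Finset.sum_mul]
  apply Finset.sum_le_sum
  intro e he
  have he' := Finset.mem_sdiff.mp he
  exact star_level hp hp1 hB hM he'.1 D hκ (hπ e he'.1 he'.2)

/-- The number of subsets of bounded size of a finite set. -/
lemma card_small_subsets (R : Finset α) (D : ℕ) :
    ((R.powerset.filter (fun T => T.card ≤ D)).card : ℝ) ≤ (1 + (R.card : ℝ)) ^ D := by
  have h1 : (R.powerset.filter (fun T => T.card ≤ D)).card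
      = ∑ k ∈ Finset.range (D + 1), R.card.choose k := by
    have : R.powerset.filter (fun T => T.card ≤ D)
        = (Finset.range (D + 1)).biUnion (fun k => R.powersetCard k) := by
      ext T
      simp only [Finset.mem_filter, Finset.mem_powerset, Finset.mem_biUnion, Finset.mem_range,
        Finset.mem_powersetCard]
      constructor
      · rintro ⟨h1, h2⟩
        exact ⟨T.card, by omega, h1, rfl⟩
      · rintro ⟨k, h1, h2, rfl⟩
        exact ⟨h2, by omega⟩
    rw [this, Finset.card_biUnion]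
    · apply Finset.sum_congr rfl
      intro k _
      exact Finset.card_powersetCard k R
    · intro i _ j _ hij
      exact Finset.pairwise_disjoint_powersetCard R hij
  rw [h1, add_comm (1 : ℝ), add_pow]
  push_cast
  apply Finset.sum_le_sum
  intro k hk
  have hk' : k ≤ D := by
    have := Finset.mem_range.mp hk
    omega
  have h2 : ((R.card.choose k : ℕ) : ℝ) ≤ (R.card : ℝ) ^ k := by
    exact_mod_cast Nat.choose_le_pow R.card k
  have h3 : (1 : ℝ) ≤ ((D.choose k : ℕ) : ℝ) := by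
    exact_mod_cast Nat.choose_pos hk'
  simp only [one_pow, mul_one]
  have h4 : (0 : ℝ) ≤ (R.card : ℝ) ^ k := by positivity
  nlinarith

end Vale.Agent.P063X
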