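/-
P063: the band inequality for a fixed restriction set `J`.
-/
import Vale.Agent.P063X.Bonami

open Finset

namespace Vale.Agent.P063X

variable {α : Type*} [DecidableEq α]
variable {p : ℝ}

section restrict
variable {U J : Finset α} {f : Finset α → ℝ}

lemma restrict_bool (hB : IsBoolOn U f) (hJ : J ⊆ U) {z : Finset α} (hz : z ⊆ U \ J) :
    IsBoolOn J (fun y => f (y ∪ z)) := by
  intro y hy
  apply hB
  exact Finset.union_subset (hy.trans hJ) (hz.trans Finset.sdiff_subset)

lemma restrict_mono (hM : IsMonoOn U f) (hJ : J ⊆ U) {z : Finset α} (hz : z ⊆ U \ J) :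
    IsMonoOn J (fun y => f (y ∪ z)) := by
  intro x y hxy hy
  apply hM
  · exact Finset.union_subset_union hxy (Finset.Subset.refl z)
  · exact Finset.union_subset (hy.trans hJ) (hz.trans Finset.sdiff_subset)

lemma union_sdiff_eq (hJ : J ⊆ U) : (U \ J) ∪ J = U := Finset.sdiff_union_of_subset hJ

lemma chi_split {J y z : Finset α} (hy : y ⊆ J) (hz : Disjoint z J) (S : Finset α) :
    chi p S (y ∪ z) = chi p (S ∩ J) y * chi p (S \ J) z := by
  unfold chi
  rw [← Finset.prod_inter_mul_prod_sdiff S J]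
  congr 1
  · apply Finset.prod_congr rfl
    intro e he
    have heJ := (Finset.mem_inter.mp he).2
    have hez : e ∉ z := fun h => (Finset.disjoint_left.mp hz) h heJ
    unfold phi
    simp [hez]
  · apply Finset.prod_congr rfl
    intro e he
    have heJ := (Finset.mem_sdiff.mp he).2
    have hey : e ∉ y := fun h => heJ (hy h)
    unfold phi
    simp [hey]

/-- The coefficient of `f` as an average of coefficients of restrictions. -/
lemma fc_split (hJ : J ⊆ U) (S : Finset α) :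
    fc p U f S = Ex p (U \ J) (fun z => fc p J (fun y => f (y ∪ z)) (S ∩ J) * chi p (S \ J) z) := by
  unfold fc
  conv_lhs => rw [← union_sdiff_eq hJ]
  rw [Ex_union p Finset.sdiff_disjoint]
  apply Ex_congr
  intro z hz
  rw [← Ex_mul_right]
  apply Ex_congr
  intro y hy
  have hd : Disjoint z J := Finset.disjoint_of_subset_left hz Finset.sdiff_disjoint
  rw [Finset.union_comm z y, chi_split hy hd]
  ring

/-- The influences as averages. -/
lemma infl_split (hJ : J ⊆ U) {e : α} (he : e ∈ J) :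
    Ex p (U \ J) (fun z => infl p J (fun y => f (y ∪ z)) e) = infl p U f e := by
  unfold infl
  have h1 : U.erase e = (U \ J) ∪ J.erase e := by
    ext a
    simp only [Finset.mem_erase, Finset.mem_union, Finset.mem_sdiff]
    constructor
    · rintro ⟨h1, h2⟩
      by_cases h3 : a ∈ J
      · exact Or.inr ⟨h1, h3⟩
      · exact Or.inl ⟨h2, h3⟩
    · rintro (⟨h1, h2⟩ | ⟨h1, h2⟩)
      · exact ⟨fun h => h2 (h ▸ he), h1⟩
      · exact ⟨h1, hJ h2⟩
  have hd : Disjoint (U \ J) (J.erase e) :=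
    Finset.disjoint_of_subset_right (Finset.erase_subset e J) Finset.sdiff_disjoint
  rw [h1, Ex_union p hd]
  apply Ex_congr
  intro z _
  apply Ex_congr
  intro y _
  simp only [dd]
  rw [Finset.union_comm z y, Finset.insert_union]

end restrict

/-- A pointwise inequality: the three regimes. -/
lemma pointwise_band {τ : Type*} (𝒯 : Finset τ) (c h : τ → ℝ) (Good : τ → Prop)
    [DecidablePred Good] (hc : ∑ T ∈ 𝒯, c T ^ 2 ≤ 1) {a b β Λ : ℝ} (ha : 0 < a) (hb : 0 < b)
    (hβ : 0 < β) (hΛ : 0 < Λ) :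
    ∑ T ∈ 𝒯, c T * h T
      ≤ a / 2 + (1 / (2 * a)) * ∑ T ∈ 𝒯, (if Good T then 0 else h T ^ 2)
        + (b / 2) * ∑ T ∈ 𝒯, (if Good T ∧ |c T| < β then c T ^ 2 else 0)
        + (1 / (2 * b)) * ∑ T ∈ 𝒯, (if Good T then h T ^ 2 else 0)
        + (1 / β) * ((∑ T ∈ 𝒯, (if Good T then h T ^ 4 else 0)) / (4 * Λ ^ 3) + 3 * Λ / 4) := by
  set Q := ∑ T ∈ 𝒯, (if Good T then h T ^ 4 else 0) with hQ
  have hQ0 : 0 ≤ Q := Finset.sum_nonneg fun T _ => by
    split_ifs
    · positivity
    · exact le_rfl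
  have hΛ3 : 0 < 4 * Λ ^ 3 := by positivity
  set M := Q / (4 * Λ ^ 3) + 3 * Λ / 4 with hM
  have hM0 : 0 ≤ M := by positivity
  have term : ∀ T ∈ 𝒯, c T * h T
      ≤ (a / 2 + (1 / β) * M) * c T ^ 2 + (1 / (2 * a)) * (if Good T then 0 else h T ^ 2)
        + (b / 2) * (if Good T ∧ |c T| < β then c T ^ 2 else 0)
        + (1 / (2 * b)) * (if Good T then h T ^ 2 else 0) := by
    intro T hT
    have hy : ∀ κ : ℝ, 0 < κ → c T * h T ≤ (κ / 2) * c T ^ 2 + (1 / (2 * κ)) * h T ^ 2 := by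
      intro κ hκ
      have e : (κ / 2) * c T ^ 2 + (1 / (2 * κ)) * h T ^ 2 - c T * h T
          = (κ * c T - h T) ^ 2 / (2 * κ) := by
        field_simp
        ring
      have : 0 ≤ (κ * c T - h T) ^ 2 / (2 * κ) := by positivity
      linarith
    have hcc : 0 ≤ c T ^ 2 := sq_nonneg _
    have hhh : 0 ≤ h T ^ 2 := sq_nonneg _
    have hMb : 0 ≤ (1 / β) * M := by positivity
    by_cases hG : Good T
    · by_cases hs : |c T| < β
      · rw [if_pos hG, if_pos ⟨hG, hs⟩, if_pos hG]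
        have := hy b hb
        have : 0 ≤ (a / 2 + (1 / β) * M) * c T ^ 2 := by positivity
        have h0 : (1 / (2 * a)) * (0 : ℝ) = 0 := by ring
        linarith
      · rw [if_pos hG, if_neg (fun h => hs h.2), if_pos hG]
        push Not at hs
        have h1 : |h T| ≤ M := by
          have h2 : h T ^ 4 ≤ Q := by
            have hnn : ∀ T' ∈ 𝒯, 0 ≤ (if Good T' then h T' ^ 4 else 0) := fun T' _ => by
              split_ifs
              · positivity
              · exact le_rfl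
            calc h T ^ 4 = (if Good T then h T ^ 4 else 0) := by rw [if_pos hG]
              _ ≤ Q := Finset.single_le_sum hnn hT
          have h3 : h T ^ 4 = |h T| ^ 4 := by
            rw [← abs_pow, abs_of_nonneg (by positivity)]
          have h4 : 4 * Λ ^ 3 * |h T| ≤ |h T| ^ 4 + 3 * Λ ^ 4 := by
            have ha0 := abs_nonneg (h T)
            nlinarith [mul_nonneg (sq_nonneg (|h T| - Λ))
              (by positivity : 0 ≤ |h T| ^ 2 + 2 * |h T| * Λ + 3 * Λ ^ 2)]
          have h5 : |h T| ≤ (|h T| ^ 4 + 3 * Λ ^ 4) / (4 * Λ ^ 3) := by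
            rw [le_div_iff₀ hΛ3]
            linarith
          have h6 : (|h T| ^ 4 + 3 * Λ ^ 4) / (4 * Λ ^ 3) = |h T| ^ 4 / (4 * Λ ^ 3) + 3 * Λ / 4 := by
            field_simp
          rw [h6] at h5
          have h7 : |h T| ^ 4 / (4 * Λ ^ 3) ≤ Q / (4 * Λ ^ 3) := by
            apply div_le_div_of_nonneg_right _ hΛ3.le
            rw [← h3]
            exact h2
          simp only [hM]
          linarith
        have h2 : c T * h T ≤ |c T| * |h T| := by
          rw [← abs_mul]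
          exact le_abs_self _
        have h3 : |c T| * |h T| ≤ (c T ^ 2 / β) * M := by
          have h4 : |c T| ≤ c T ^ 2 / β := by
            rw [le_div_iff₀ hβ, ← sq_abs (c T)]
            nlinarith [abs_nonneg (c T)]
          exact mul_le_mul h4 h1 (abs_nonneg _) (by positivity)
        have h5 : (c T ^ 2 / β) * M = (1 / β) * M * c T ^ 2 := by
          field_simp
        have h6 : 0 ≤ (a / 2) * c T ^ 2 := by positivity
        have h7 : 0 ≤ (1 / (2 * b)) * h T ^ 2 := by positivity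
        have h8 : (a / 2 + (1 / β) * M) * c T ^ 2 = (a / 2) * c T ^ 2 + (1 / β) * M * c T ^ 2 := by
          ring
        have h9 : (1 / (2 * a)) * (0 : ℝ) = 0 := by ring
        have h10 : (b / 2) * (0 : ℝ) = 0 := by ring
        rw [h8, h9, h10]
        linarith
    · rw [if_neg hG, if_neg (fun h => hG h.1), if_neg hG]
      have := hy a ha
      have h1 : 0 ≤ (1 / β) * M * c T ^ 2 := by positivity
      have h8 : (a / 2 + (1 / β) * M) * c T ^ 2 = (a / 2) * c T ^ 2 + (1 / β) * M * c T ^ 2 := by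
        ring
      have h10 : (b / 2) * (0 : ℝ) = 0 := by ring
      have h11 : (1 / (2 * b)) * (0 : ℝ) = 0 := by ring
      rw [h8, h10, h11]
      linarith
  refine (Finset.sum_le_sum term).trans ?_
  rw [Finset.sum_add_distrib, Finset.sum_add_distrib, Finset.sum_add_distrib, ← Finset.mul_sum,
    ← Finset.mul_sum, ← Finset.mul_sum, ← Finset.mul_sum]
  have h1 : (a / 2 + (1 / β) * M) * ∑ T ∈ 𝒯, c T ^ 2 ≤ (a / 2 + (1 / β) * M) * 1 :=
    mul_le_mul_of_nonneg_left hc (by positivity)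
  have e : (1 / β) * (Q / (4 * Λ ^ 3) + 3 * Λ / 4) = (1 / β) * M := rfl
  rw [e]
  linarith

/-- The mass of the low level coefficients that are small. -/
lemma small_mass (hp : 0 < p) (hp1 : p < 1) {J : Finset α} {g : Finset α → ℝ} (hB : IsBoolOn J g)
    (hM : IsMonoOn J g) (Good : Finset α → Prop) [DecidablePred Good] (D : ℕ)
    (hGood : ∀ T, Good T → T.card ≤ D) {β κ A₀ : ℝ} (hβ : 0 < β) (hκ : 0 < κ) (hA₀ : 0 < A₀) :
    ∑ T ∈ J.powerset, (if Good T ∧ |fc p J g T| < β then fc p J g T ^ 2 else 0)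
      ≤ (∑ e ∈ J, infl p J g e) * κ * bB p ^ D + (1 + A₀ / κ ^ 2) ^ D * β ^ 2
        + (∑ e ∈ J, infl p J g e) / A₀ := by
  set A := ∑ e ∈ J, infl p J g e with hA
  have hinfl : ∀ e ∈ J, 0 ≤ infl p J g e := fun e he => infl_nonneg hp hp1 hB hM he
  have hA0 : 0 ≤ A := Finset.sum_nonneg hinfl
  have hBp := bB_pos hp hp1
  have hG0 : 0 ≤ (1 + A₀ / κ ^ 2) ^ D * β ^ 2 := by positivity
  have hT1 : 0 ≤ A * κ * bB p ^ D := by positivity
  by_cases hAA : A₀ ≤ A
  · have h1 : ∑ T ∈ J.powerset, (if Good T ∧ |fc p J g T| < β then fc p J g T ^ 2 else 0) ≤ 1 := by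
      refine le_trans ?_ (sum_fc_sq_le_one hp hp1 hB)
      apply Finset.sum_le_sum
      intro T _
      split_ifs
      · exact le_rfl
      · exact sq_nonneg _
    have h2 : 1 ≤ A / A₀ := by
      rw [le_div_iff₀ hA₀]
      linarith
    linarith
  · push Not at hAA
    set R := J.filter (fun e => κ ^ 2 ≤ infl p J g e) with hR
    have hRJ : R ⊆ J := Finset.filter_subset _ _
    have hRcard : (R.card : ℝ) ≤ A₀ / κ ^ 2 := by
      rw [le_div_iff₀ (by positivity)]
      have h1 : (R.card : ℝ) * κ ^ 2 ≤ ∑ e ∈ R, infl p J g e := by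
        rw [← nsmul_eq_mul]
        apply Finset.card_nsmul_le_sum
        intro e he
        exact (Finset.mem_filter.mp he).2
      have h2 : ∑ e ∈ R, infl p J g e ≤ A := Finset.sum_le_sum_of_subset_of_nonneg hRJ
        (fun e he _ => hinfl e he)
      linarith
    have hout := mass_out hp hp1 hB hM R D hκ.le (fun e he heR => by
      have : ¬ κ ^ 2 ≤ infl p J g e := fun h => heR (Finset.mem_filter.mpr ⟨he, h⟩)
      push Not at this
      exact this.le)
    have hout2 : (∑ e ∈ J \ R, infl p J g e) * κ * bB p ^ D ≤ A * κ * bB p ^ D := by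
      apply mul_le_mul_of_nonneg_right _ (by positivity)
      apply mul_le_mul_of_nonneg_right _ hκ.le
      exact Finset.sum_le_sum_of_subset_of_nonneg Finset.sdiff_subset (fun e he _ => hinfl e he)
    have hin : ∑ T ∈ J.powerset, (if T ⊆ R ∧ T.card ≤ D then β ^ 2 else 0)
        ≤ (1 + A₀ / κ ^ 2) ^ D * β ^ 2 := by
      rw [← Finset.sum_filter, Finset.sum_const, nsmul_eq_mul]
      apply mul_le_mul_of_nonneg_right _ (sq_nonneg _)
      have h1 : J.powerset.filter (fun T => T ⊆ R ∧ T.card ≤ D)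
          = R.powerset.filter (fun T => T.card ≤ D) := by
        ext T
        simp only [Finset.mem_filter, Finset.mem_powerset]
        constructor
        · rintro ⟨_, h2, h3⟩
          exact ⟨h2, h3⟩
        · rintro ⟨h2, h3⟩
          exact ⟨h2.trans hRJ, h2, h3⟩
      rw [h1]
      refine (card_small_subsets R D).trans ?_
      apply pow_le_pow_left₀ (by positivity)
      linarith
    have hterm : ∀ T ∈ J.powerset, (if Good T ∧ |fc p J g T| < β then fc p J g T ^ 2 else 0)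
        ≤ (if T.card ≤ D ∧ ¬ T ⊆ R then fc p J g T ^ 2 else 0)
          + (if T ⊆ R ∧ T.card ≤ D then β ^ 2 else 0) := by
      intro T _
      by_cases h : Good T ∧ |fc p J g T| < β
      · rw [if_pos h]
        have hD := hGood T h.1
        by_cases hTR : T ⊆ R
        · rw [if_neg (fun h' => h'.2 hTR), if_pos ⟨hTR, hD⟩, zero_add]
          rw [← sq_abs (fc p J g T)]
          exact pow_le_pow_left₀ (abs_nonneg _) h.2.le 2
        · rw [if_pos ⟨hD, hTR⟩, if_neg (fun h' => hTR h'.1), add_zero]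
      · rw [if_neg h]
        apply add_nonneg
        · split_ifs
          · exact sq_nonneg _
          · exact le_rfl
        · split_ifs
          · exact sq_nonneg _
          · exact le_rfl
    have hsum := Finset.sum_le_sum hterm
    rw [Finset.sum_add_distrib] at hsum
    have hAdiv : 0 ≤ A / A₀ := by positivity
    linarith

section band
variable {U J : Finset α} {f : Finset α → ℝ} {𝔅 : Finset (Finset α)}

/-- The fibre of `𝔅` over `T`. -/
def fib (J : Finset α) (𝔅 : Finset (Finset α)) (T : Finset α) : Finset (Finset α) :=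
  𝔅.filter (fun S => S ∩ J = T)

/-- The partial polynomial over the fibre of `T`. -/
noncomputable def bh (p : ℝ) (U J : Finset α) (f : Finset α → ℝ) (𝔅 : Finset (Finset α))
    (T z : Finset α) : ℝ :=
  ∑ S ∈ fib J 𝔅 T, fc p U f S * chi p (S \ J) z

/-- The mass of the fibre. -/
noncomputable def fibMass (p : ℝ) (U J : Finset α) (f : Finset α → ℝ) (𝔅 : Finset (Finset α))
    (T : Finset α) : ℝ :=
  ∑ S ∈ fib J 𝔅 T, fc p U f S ^ 2

lemma sum_fib (h𝔅 : 𝔅 ⊆ U.powerset) (hJ : J ⊆ U) (G : Finset α → ℝ) :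
    ∑ T ∈ J.powerset, ∑ S ∈ fib J 𝔅 T, G S = ∑ S ∈ 𝔅, G S := by
  apply Finset.sum_fiberwise_of_maps_to
  intro S _
  exact Finset.mem_powerset.mpr Finset.inter_subset_right

lemma bh_eq_poly (h𝔅 : 𝔅 ⊆ U.powerset) (T z : Finset α) :
    bh p U J f 𝔅 T z
      = poly p ((fib J 𝔅 T).image (fun S => S \ J)) (fun S' => fc p U f (S' ∪ T)) z := by
  unfold bh poly
  rw [Finset.sum_image]
  · apply Finset.sum_congr rfl
    intro S hS
    have h1 : S ∩ J = T := (Finset.mem_filter.mp hS).2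
    have h2 : (S \ J) ∪ T = S := by
      rw [← h1, Finset.sdiff_union_inter]
    show fc p U f S * chi p (S \ J) z = fc p U f ((S \ J) ∪ T) * chi p (S \ J) z
    rw [h2]
  · intro S hS S' hS' h
    have h1 : S ∩ J = T := (Finset.mem_filter.mp hS).2
    have h1' : S' ∩ J = T := (Finset.mem_filter.mp hS').2
    have h2 : (S \ J) ∪ T = S := by
      rw [← h1, Finset.sdiff_union_inter]
    have h2' : (S' \ J) ∪ T = S' := by
      rw [← h1', Finset.sdiff_union_inter]
    rw [← h2, ← h2']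
    simp only at h
    rw [h]

lemma fib_image_sub (h𝔅 : 𝔅 ⊆ U.powerset) (T : Finset α) :
    (fib J 𝔅 T).image (fun S => S \ J) ⊆ (U \ J).powerset := by
  intro S' hS'
  obtain ⟨S, hS, rfl⟩ := Finset.mem_image.mp hS'
  have hSU : S ⊆ U := Finset.mem_powerset.mp (h𝔅 (Finset.mem_filter.mp hS).1)
  exact Finset.mem_powerset.mpr (Finset.sdiff_subset_sdiff hSU (Finset.Subset.refl J))

lemma sum_image_fib (h𝔅 : 𝔅 ⊆ U.powerset) (T : Finset α) :
    ∑ S' ∈ (fib J 𝔅 T).image (fun S => S \ J), fc p U f (S' ∪ T) ^ 2 = fibMass p U J f 𝔅 T := by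
  unfold fibMass
  rw [Finset.sum_image]
  · apply Finset.sum_congr rfl
    intro S hS
    have h1 : S ∩ J = T := (Finset.mem_filter.mp hS).2
    have h2 : (S \ J) ∪ T = S := by
      rw [← h1, Finset.sdiff_union_inter]
    rw [h2]
  · intro S hS S' hS' h
    have h1 : S ∩ J = T := (Finset.mem_filter.mp hS).2
    have h1' : S' ∩ J = T := (Finset.mem_filter.mp hS').2
    have h2 : (S \ J) ∪ T = S := by
      rw [← h1, Finset.sdiff_union_inter]
    have h2' : (S' \ J) ∪ T = S' := by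
      rw [← h1', Finset.sdiff_union_inter]
    rw [← h2, ← h2']
    simp only at h
    rw [h]

lemma bh_sq (hp : 0 < p) (hp1 : p < 1) (h𝔅 : 𝔅 ⊆ U.powerset) (T : Finset α) :
    Ex p (U \ J) (fun z => bh p U J f 𝔅 T z ^ 2) = fibMass p U J f 𝔅 T := by
  have : (fun z => bh p U J f 𝔅 T z ^ 2)
      = fun z => poly p ((fib J 𝔅 T).image (fun S => S \ J)) (fun S' => fc p U f (S' ∪ T)) z ^ 2 := by
    funext z
    rw [bh_eq_poly h𝔅]
  rw [this, poly_sq hp hp1 (fib_image_sub h𝔅 T), sum_image_fib h𝔅]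

lemma bh_four (hp : 0 < p) (hp1 : p < 1) (h𝔅 : 𝔅 ⊆ U.powerset) {Δ : ℕ} (hΔ : ∀ S ∈ 𝔅, S.card ≤ Δ)
    (T : Finset α) :
    Ex p (U \ J) (fun z => bh p U J f 𝔅 T z ^ 4) ≤ bB p ^ (2 * Δ) * fibMass p U J f 𝔅 T ^ 2 := by
  have : (fun z => bh p U J f 𝔅 T z ^ 4)
      = fun z => poly p ((fib J 𝔅 T).image (fun S => S \ J)) (fun S' => fc p U f (S' ∪ T)) z ^ 4 := by
    funext z
    rw [bh_eq_poly h𝔅]
  rw [this, ← sum_image_fib h𝔅]
  apply poly_four hp hp1 (fib_image_sub h𝔅 T)
  intro S' hS'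
  obtain ⟨S, hS, rfl⟩ := Finset.mem_image.mp hS'
  exact (Finset.card_le_card Finset.sdiff_subset).trans (hΔ S (Finset.mem_filter.mp hS).1)

/-- The identity expressing the band mass through the restrictions. -/
lemma band_identity (h𝔅 : 𝔅 ⊆ U.powerset) (hJ : J ⊆ U) :
    ∑ S ∈ 𝔅, fc p U f S ^ 2
      = Ex p (U \ J) (fun z => ∑ T ∈ J.powerset,
          fc p J (fun y => f (y ∪ z)) T * bh p U J f 𝔅 T z) := by
  have h1 : ∀ S ∈ 𝔅, fc p U f S ^ 2
      = Ex p (U \ J) (fun z => fc p U f S * (fc p J (fun y => f (y ∪ z)) (S ∩ J) * chi p (S \ J) z)) := by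
    intro S _
    rw [Ex_mul_left, ← fc_split hJ, sq]
  rw [Finset.sum_congr rfl h1, ← Ex_sum]
  apply Ex_congr
  intro z _
  rw [← sum_fib h𝔅 hJ]
  apply Finset.sum_congr rfl
  intro T _
  unfold bh
  rw [Finset.mul_sum]
  apply Finset.sum_congr rfl
  intro S hS
  have h2 : S ∩ J = T := (Finset.mem_filter.mp hS).2
  rw [h2]
  ring

/-- The band inequality for a fixed `J`. -/
theorem band_fixed (hp : 0 < p) (hp1 : p < 1) (hB : IsBoolOn U f) (hM : IsMonoOn U f) (hJ : J ⊆ U)
    (h𝔅 : 𝔅 ⊆ U.powerset) {Δ : ℕ} (hΔ : ∀ S ∈ 𝔅, S.card ≤ Δ) (Good : Finset α → Prop)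
    [DecidablePred Good] (D : ℕ) (hGood : ∀ T, Good T → T.card ≤ D) {mmax : ℝ}
    (hmmax : 0 ≤ mmax) (hm : ∀ T, T ⊆ J → Good T → fibMass p U J f 𝔅 T ≤ mmax)
    {a b β Λ κ A₀ : ℝ} (ha : 0 < a) (hb : 0 < b) (hβ : 0 < β) (hΛ : 0 < Λ) (hκ : 0 < κ)
    (hA₀ : 0 < A₀)
    (hQ : bB p ^ (2 * Δ) * mmax * ∑ S ∈ 𝔅, fc p U f S ^ 2 ≤ Λ ^ 4) :
    ∑ S ∈ 𝔅, fc p U f S ^ 2
      ≤ a / 2 + (1 / (2 * a)) * ∑ S ∈ 𝔅, (if Good (S ∩ J) then 0 else fc p U f S ^ 2)
        + (b / 2) * ((∑ e ∈ J, infl p U f e) * κ * bB p ^ D + (1 + A₀ / κ ^ 2) ^ D * β ^ 2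
            + (∑ e ∈ J, infl p U f e) / A₀)
        + (1 / (2 * b)) * ∑ S ∈ 𝔅, fc p U f S ^ 2
        + Λ / β := by
  set W := ∑ S ∈ 𝔅, fc p U f S ^ 2 with hW
  have h0p := hp.le
  have h1p := hp1.le
  have hmass0 : ∀ T, 0 ≤ fibMass p U J f 𝔅 T := fun T =>
    Finset.sum_nonneg fun _ _ => sq_nonneg _
  have hmassW : ∑ T ∈ J.powerset, fibMass p U J f 𝔅 T = W := by
    unfold fibMass
    rw [sum_fib h𝔅 hJ]
  -- the pointwise inequality
  have hpt : ∀ z, z ⊆ U \ J → ∑ T ∈ J.powerset, fc p J (fun y => f (y ∪ z)) T * bh p U J f 𝔅 T z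
      ≤ a / 2 + (1 / (2 * a)) * ∑ T ∈ J.powerset, (if Good T then 0 else bh p U J f 𝔅 T z ^ 2)
        + (b / 2) * ∑ T ∈ J.powerset,
            (if Good T ∧ |fc p J (fun y => f (y ∪ z)) T| < β
              then fc p J (fun y => f (y ∪ z)) T ^ 2 else 0)
        + (1 / (2 * b)) * ∑ T ∈ J.powerset, (if Good T then bh p U J f 𝔅 T z ^ 2 else 0)
        + (1 / β) * ((∑ T ∈ J.powerset, (if Good T then bh p U J f 𝔅 T z ^ 4 else 0))
            / (4 * Λ ^ 3) + 3 * Λ / 4) := by
    intro z hz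
    exact pointwise_band J.powerset _ _ Good
      (sum_fc_sq_le_one hp hp1 (restrict_bool hB hJ hz)) ha hb hβ hΛ
  -- the first quantity
  have e1 : Ex p (U \ J) (fun z => ∑ T ∈ J.powerset, (if Good T then 0 else bh p U J f 𝔅 T z ^ 2))
      = ∑ S ∈ 𝔅, (if Good (S ∩ J) then 0 else fc p U f S ^ 2) := by
    rw [Ex_sum, ← sum_fib h𝔅 hJ]
    apply Finset.sum_congr rfl
    intro T _
    by_cases hG : Good T
    · have h1 : Ex p (U \ J) (fun z => if Good T then 0 else bh p U J f 𝔅 T z ^ 2) = 0 := by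
        simp only [if_pos hG]
        exact Ex_const p _ 0
      rw [h1]
      symm
      apply Finset.sum_eq_zero
      intro S hS
      rw [(Finset.mem_filter.mp hS).2, if_pos hG]
    · have h1 : Ex p (U \ J) (fun z => if Good T then 0 else bh p U J f 𝔅 T z ^ 2)
          = fibMass p U J f 𝔅 T := by
        simp only [if_neg hG]
        exact bh_sq hp hp1 h𝔅 T
      rw [h1]
      unfold fibMass
      apply Finset.sum_congr rfl
      intro S hS
      rw [(Finset.mem_filter.mp hS).2, if_neg hG]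
  -- the second quantity
  have e2 : Ex p (U \ J) (fun z => ∑ T ∈ J.powerset, (if Good T then bh p U J f 𝔅 T z ^ 2 else 0))
      ≤ W := by
    rw [Ex_sum, ← hmassW]
    apply Finset.sum_le_sum
    intro T _
    by_cases hG : Good T
    · simp only [if_pos hG]
      rw [bh_sq hp hp1 h𝔅 T]
    · simp only [if_neg hG]
      rw [Ex_const]
      exact hmass0 T
  -- the third quantity
  have e3 : Ex p (U \ J) (fun z => ∑ T ∈ J.powerset, (if Good T then bh p U J f 𝔅 T z ^ 4 else 0))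
      ≤ Λ ^ 4 := by
    rw [Ex_sum]
    refine le_trans ?_ hQ
    have hB2 : 0 ≤ bB p ^ (2 * Δ) := pow_nonneg (bB_pos hp hp1).le _
    calc _ ≤ ∑ T ∈ J.powerset, bB p ^ (2 * Δ) * (mmax * fibMass p U J f 𝔅 T) := by
            apply Finset.sum_le_sum
            intro T hT
            by_cases hG : Good T
            · simp only [if_pos hG]
              refine (bh_four hp hp1 h𝔅 hΔ T).trans ?_
              apply mul_le_mul_of_nonneg_left _ hB2
              rw [sq]
              exact mul_le_mul_of_nonneg_right (hm T (Finset.mem_powerset.mp hT) hG) (hmass0 T)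
            · simp only [if_neg hG]
              rw [Ex_const]
              exact mul_nonneg hB2 (mul_nonneg hmmax (hmass0 T))
      _ = _ := by
            rw [← Finset.mul_sum, ← Finset.mul_sum, hmassW]
            ring
  -- the small coefficients
  have e4 : Ex p (U \ J) (fun z => ∑ T ∈ J.powerset,
        (if Good T ∧ |fc p J (fun y => f (y ∪ z)) T| < β
              then fc p J (fun y => f (y ∪ z)) T ^ 2 else 0))
      ≤ (∑ e ∈ J, infl p U f e) * κ * bB p ^ D + (1 + A₀ / κ ^ 2) ^ D * β ^ 2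
            + (∑ e ∈ J, infl p U f e) / A₀ := by
    have h1 : Ex p (U \ J) (fun z => (∑ e ∈ J, infl p J (fun y => f (y ∪ z)) e))
        = ∑ e ∈ J, infl p U f e := by
      rw [Ex_sum]
      exact Finset.sum_congr rfl fun e he => infl_split hJ he
    rw [← h1, ← Ex_const p (U \ J) ((1 + A₀ / κ ^ 2) ^ D * β ^ 2), ← Ex_mul_right, ← Ex_mul_right]
    have h2 : Ex p (U \ J) (fun z => (∑ e ∈ J, infl p J (fun y => f (y ∪ z)) e)) / A₀
        = Ex p (U \ J) (fun z => (∑ e ∈ J, infl p J (fun y => f (y ∪ z)) e) / A₀) := by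
      rw [div_eq_mul_inv, ← Ex_mul_right]
      apply Ex_congr
      intro z _
      rw [div_eq_mul_inv]
    rw [h2, ← Ex_add, ← Ex_add]
    apply Ex_mono h0p h1p
    intro z hz
    exact small_mass hp hp1 (restrict_bool hB hJ hz) (restrict_mono hM hJ hz) Good D hGood hβ hκ hA₀
  -- assemble
  have hE := Ex_mono h0p h1p (U \ J) hpt
  rw [← band_identity h𝔅 hJ] at hE
  refine hE.trans ?_
  rw [Ex_add, Ex_add, Ex_add, Ex_add, Ex_const, Ex_mul_left, Ex_mul_left, Ex_mul_left, Ex_mul_left,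
    e1]
  have hE5 : Ex p (U \ J) (fun z => (∑ T ∈ J.powerset, (if Good T then bh p U J f 𝔅 T z ^ 4 else 0))
      / (4 * Λ ^ 3) + 3 * Λ / 4) ≤ Λ := by
    rw [Ex_add, Ex_const]
    have h1 : Ex p (U \ J) (fun z => (∑ T ∈ J.powerset, (if Good T then bh p U J f 𝔅 T z ^ 4 else 0))
        / (4 * Λ ^ 3))
        = Ex p (U \ J) (fun z => ∑ T ∈ J.powerset, (if Good T then bh p U J f 𝔅 T z ^ 4 else 0))
          / (4 * Λ ^ 3) := by
      rw [div_eq_mul_inv, ← Ex_mul_right]
      apply Ex_congr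
      intro z _
      rw [div_eq_mul_inv]
    rw [h1]
    have h2 : Ex p (U \ J) (fun z => ∑ T ∈ J.powerset, (if Good T then bh p U J f 𝔅 T z ^ 4 else 0))
        / (4 * Λ ^ 3) ≤ Λ ^ 4 / (4 * Λ ^ 3) := by
      apply div_le_div_of_nonneg_right e3
      positivity
    have h3 : Λ ^ 4 / (4 * Λ ^ 3) = Λ / 4 := by
      field_simp
    rw [h3] at h2
    linarith
  have t1 : (b / 2) * Ex p (U \ J) (fun z => ∑ T ∈ J.powerset,
        (if Good T ∧ |fc p J (fun y => f (y ∪ z)) T| < β
              then fc p J (fun y => f (y ∪ z)) T ^ 2 else 0))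
      ≤ (b / 2) * ((∑ e ∈ J, infl p U f e) * κ * bB p ^ D + (1 + A₀ / κ ^ 2) ^ D * β ^ 2
            + (∑ e ∈ J, infl p U f e) / A₀) :=
    mul_le_mul_of_nonneg_left e4 (by positivity)
  have t2 : (1 / (2 * b)) * Ex p (U \ J) (fun z => ∑ T ∈ J.powerset, (if Good T then bh p U J f 𝔅 T z ^ 2 else 0))
      ≤ (1 / (2 * b)) * W := mul_le_mul_of_nonneg_left e2 (by positivity)
  have t3 : (1 / β) * Ex p (U \ J) (fun z => (∑ T ∈ J.powerset, (if Good T then bh p U J f 𝔅 T z ^ 4 else 0))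
      / (4 * Λ ^ 3) + 3 * Λ / 4) ≤ (1 / β) * Λ := mul_le_mul_of_nonneg_left hE5 (by positivity)
  have t4 : (1 / β) * Λ = Λ / β := by ring
  linarith

end band

end Vale.Agent.P063X
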