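/-
P063: second moment for the number of hit sets; random restrictions of a graph are good.
-/
import Vale.Agent.P063X.Ex

open Finset

namespace Vale.Agent.P063X

variable {α : Type*} [DecidableEq α]

lemma second_moment {τ : Type*} [DecidableEq τ] {δ : ℝ} (hδ : 0 < δ) (hδ1 : δ ≤ 1) (U : Finset α)
    (𝒱 : Finset τ) (A : τ → Finset α) (hA : ∀ u ∈ 𝒱, A u ⊆ U)
    (h1 : ∀ u ∈ 𝒱, ∀ w ∈ 𝒱, u ≠ w → (A u ∩ A w).card ≤ 1) :
    Ex δ U (fun J => ((∑ u ∈ 𝒱, if Disjoint (A u) J then (1:ℝ) else 0)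
        - ∑ u ∈ 𝒱, (1 - δ) ^ (A u).card) ^ 2)
      ≤ ∑ u ∈ 𝒱, (1 - (1 - δ) ^ (A u).card)
        + δ * ∑ u ∈ 𝒱, ∑ w ∈ 𝒱, if u ≠ w ∧ ¬ Disjoint (A u) (A w) then (1:ℝ) else 0 := by
  set q := 1 - δ with hq
  have hq0 : 0 ≤ q := by rw [hq]; linarith
  have hq1 : q ≤ 1 := by rw [hq]; linarith
  set m := ∑ u ∈ 𝒱, q ^ (A u).card with hm
  set Y : Finset α → ℝ := fun J => ∑ u ∈ 𝒱, if Disjoint (A u) J then (1:ℝ) else 0 with hY
  have hEY : Ex δ U Y = m := by
    rw [hY, Ex_sum]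
    apply Finset.sum_congr rfl
    intro u hu
    exact Ex_avoid δ (hA u hu)
  have hEYY : Ex δ U (fun J => Y J * Y J) = ∑ u ∈ 𝒱, ∑ w ∈ 𝒱, q ^ (A u ∪ A w).card := by
    have : (fun J => Y J * Y J)
        = fun J => ∑ u ∈ 𝒱, ∑ w ∈ 𝒱, if Disjoint (A u ∪ A w) J then (1:ℝ) else 0 := by
      funext J
      simp only [hY]
      rw [Finset.sum_mul_sum]
      apply Finset.sum_congr rfl
      intro u _
      apply Finset.sum_congr rfl
      intro w _
      by_cases h2 : Disjoint (A u) J <;> by_cases h3 : Disjoint (A w) J <;>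
        simp [Finset.disjoint_union_left, h2, h3]
    rw [this, Ex_sum]
    apply Finset.sum_congr rfl
    intro u hu
    rw [Ex_sum]
    apply Finset.sum_congr rfl
    intro w hw
    exact Ex_avoid δ (Finset.union_subset (hA u hu) (hA w hw))
  have hexp : Ex δ U (fun J => (Y J - m) ^ 2) = Ex δ U (fun J => Y J * Y J) - m * m := by
    have : (fun J => (Y J - m) ^ 2) = fun J => (Y J * Y J - (2 * m) * Y J) + m ^ 2 := by
      funext J
      ring
    rw [this, Ex_add, Ex_sub, Ex_mul_left, Ex_const, hEY]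
    ring
  rw [hexp, hEYY]
  have hmm : m * m = ∑ u ∈ 𝒱, ∑ w ∈ 𝒱, q ^ (A u).card * q ^ (A w).card := by
    rw [hm, Finset.sum_mul_sum]
  rw [hmm, ← Finset.sum_sub_distrib]
  have hrhs : ∑ u ∈ 𝒱, (1 - q ^ (A u).card)
      + δ * ∑ u ∈ 𝒱, ∑ w ∈ 𝒱, (if u ≠ w ∧ ¬ Disjoint (A u) (A w) then (1:ℝ) else 0)
      = ∑ u ∈ 𝒱, ∑ w ∈ 𝒱, ((if u = w then (1 - q ^ (A u).card) else 0)
        + δ * (if u ≠ w ∧ ¬ Disjoint (A u) (A w) then (1:ℝ) else 0)) := by
    rw [Finset.mul_sum, ← Finset.sum_add_distrib]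
    apply Finset.sum_congr rfl
    intro u hu
    rw [Finset.sum_add_distrib, ← Finset.mul_sum, Finset.sum_ite_eq, if_pos hu]
  rw [hrhs]
  apply Finset.sum_le_sum
  intro u hu
  rw [← Finset.sum_sub_distrib]
  apply Finset.sum_le_sum
  intro w hw
  by_cases huw : u = w
  · subst huw
    rw [if_pos rfl, if_neg (fun h => h.1 rfl), Finset.union_self]
    have h2 : q ^ (A u).card ≤ 1 := pow_le_one₀ hq0 hq1
    have h3 : 0 ≤ q ^ (A u).card := pow_nonneg hq0 _
    nlinarith
  · rw [if_neg huw]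
    by_cases hd : Disjoint (A u) (A w)
    · rw [if_neg (fun h => h.2 hd), Finset.card_union_of_disjoint hd, pow_add]
      simp
    · rw [if_pos ⟨huw, hd⟩]
      have h2 : (A u ∩ A w).card = 1 := by
        have h3 := h1 u hu w hw huw
        have h4 : (A u ∩ A w).Nonempty := by
          rw [← Finset.not_disjoint_iff_nonempty_inter]
          exact hd
        have h5 := h4.card_pos
        omega
      have h3 := Finset.card_union_add_card_inter (A u) (A w)
      rw [h2] at h3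
      rw [← pow_add, ← h3, pow_succ]
      have h4 : q ^ (A u ∪ A w).card ≤ 1 := pow_le_one₀ hq0 hq1
      have h5 : 0 ≤ q ^ (A u ∪ A w).card := pow_nonneg hq0 _
      have h6 : 1 - q = δ := by rw [hq]; ring
      nlinarith

lemma pow_mul_one_add_le {δ : ℝ} (hδ : 0 ≤ δ) (hδ1 : δ ≤ 1) (d : ℕ) :
    (1 - δ) ^ d * (1 + δ * d) ≤ 1 := by
  induction d with
  | zero => simp
  | succ d ih =>
    have h0 : 0 ≤ (1 - δ) ^ d := pow_nonneg (by linarith) _
    have h1 : (1 - δ) * (1 + δ * ((d + 1 : ℕ) : ℝ)) ≤ 1 + δ * d := by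
      push_cast
      have : 0 ≤ δ ^ 2 * ((d : ℝ) + 1) := by positivity
      nlinarith
    calc (1 - δ) ^ (d + 1) * (1 + δ * ((d + 1 : ℕ) : ℝ))
        = (1 - δ) ^ d * ((1 - δ) * (1 + δ * ((d + 1 : ℕ) : ℝ))) := by ring
      _ ≤ (1 - δ) ^ d * (1 + δ * d) := mul_le_mul_of_nonneg_left h1 h0
      _ ≤ 1 := ih

lemma half_le_one_sub_pow {δ : ℝ} (hδ : 0 ≤ δ) (hδ1 : δ ≤ 1) {d : ℕ} (h : 1 ≤ δ * d) :
    1 / 2 ≤ 1 - (1 - δ) ^ d := by
  have h1 := pow_mul_one_add_le hδ hδ1 d
  have h0 : 0 ≤ (1 - δ) ^ d := pow_nonneg (by linarith) _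
  nlinarith

lemma mul_half_le_one_sub_pow {δ : ℝ} (hδ : 0 ≤ δ) (hδ1 : δ ≤ 1) {d : ℕ} (h : δ * d ≤ 1) :
    δ * d / 2 ≤ 1 - (1 - δ) ^ d := by
  have h1 := pow_mul_one_add_le hδ hδ1 d
  have h0 : 0 ≤ (1 - δ) ^ d := pow_nonneg (by linarith) _
  have h2 : 0 ≤ δ * d := by positivity
  have h3 : (1 - δ) ^ d ≤ 1 := pow_le_one₀ (by linarith) (by linarith)
  nlinarith

lemma one_sub_pow_le {δ : ℝ} (hδ : 0 ≤ δ) (hδ1 : δ ≤ 1) (d : ℕ) :
    1 - (1 - δ) ^ d ≤ δ * d := by
  have := one_add_mul_le_pow (a := -δ) (by linarith) d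
  have e : (1 + (-δ)) = 1 - δ := by ring
  rw [e] at this
  nlinarith

section graph
variable {β : Type*} [DecidableEq β]

/-- The good restrictions: few edges and many vertices. -/
def goodT (s : ℕ) (T : Finset (Finset β)) : Prop := T.card ≤ 64 * s ∧ s ≤ (T.biUnion id).card

instance (s : ℕ) : DecidablePred (goodT (β := β) s) := fun T => by
  unfold goodT
  infer_instance

/-- The edges at a vertex. -/
def starAt (S : Finset (Finset β)) (u : β) : Finset (Finset β) := S.filter (fun e => u ∈ e)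

lemma star_inter_card {S : Finset (Finset β)} (hS : ∀ e ∈ S, e.card = 2) {u w : β} (h : u ≠ w) :
    (starAt S u ∩ starAt S w).card ≤ 1 := by
  rw [Finset.card_le_one]
  intro e he e' he'
  obtain ⟨h1, h2⟩ := Finset.mem_inter.mp he
  obtain ⟨h3, h4⟩ := Finset.mem_inter.mp he'
  obtain ⟨h1S, h1u⟩ := Finset.mem_filter.mp h1
  obtain ⟨_, h2w⟩ := Finset.mem_filter.mp h2
  obtain ⟨h3S, h3u⟩ := Finset.mem_filter.mp h3
  obtain ⟨_, h4w⟩ := Finset.mem_filter.mp h4
  have e1 : e = {u, w} := by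
    symm
    apply Finset.eq_of_subset_of_card_le
    · intro a ha
      simp only [Finset.mem_insert, Finset.mem_singleton] at ha
      rcases ha with rfl | rfl
      · exact h1u
      · exact h2w
    · rw [hS e h1S, Finset.card_pair h]
  have e2 : e' = {u, w} := by
    symm
    apply Finset.eq_of_subset_of_card_le
    · intro a ha
      simp only [Finset.mem_insert, Finset.mem_singleton] at ha
      rcases ha with rfl | rfl
      · exact h3u
      · exact h4w
    · rw [hS e' h3S, Finset.card_pair h]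
  rw [e1, e2]

lemma sum_star_card (S : Finset (Finset β)) (W : Finset β) (hW : S.biUnion id ⊆ W) :
    ∑ u ∈ W, ((starAt S u).card : ℝ) = ∑ e ∈ S, (e.card : ℝ) := by
  have h1 : ∀ u ∈ W, ((starAt S u).card : ℝ) = ∑ e ∈ S, (if u ∈ e then (1:ℝ) else 0) := by
    intro u _
    unfold starAt
    rw [Finset.sum_boole]
  rw [Finset.sum_congr rfl h1, Finset.sum_comm]
  apply Finset.sum_congr rfl
  intro e he
  rw [Finset.sum_boole]
  congr 1
  congr 1
  ext a
  simp only [Finset.mem_filter]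
  constructor
  · rintro ⟨_, h⟩
    exact h
  · intro h
    exact ⟨hW (Finset.mem_biUnion.mpr ⟨e, he, h⟩), h⟩

/-- The number of ordered pairs of vertices with a common edge. -/
lemma pair_count {S : Finset (Finset β)} (hS : ∀ e ∈ S, e.card = 2) (W : Finset β) :
    ∑ u ∈ W, ∑ w ∈ W, (if u ≠ w ∧ ¬ Disjoint (starAt S u) (starAt S w) then (1:ℝ) else 0)
      ≤ 2 * S.card := by
  have h1 : ∀ u ∈ W, ∀ w ∈ W, (if u ≠ w ∧ ¬ Disjoint (starAt S u) (starAt S w) then (1:ℝ) else 0)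
      ≤ ∑ e ∈ S, (if u ∈ e ∧ w ∈ e ∧ u ≠ w then (1:ℝ) else 0) := by
    intro u _ w _
    have hnn : ∀ e ∈ S, (0:ℝ) ≤ (if u ∈ e ∧ w ∈ e ∧ u ≠ w then (1:ℝ) else 0) := fun e _ => by
      split_ifs <;> norm_num
    by_cases h : u ≠ w ∧ ¬ Disjoint (starAt S u) (starAt S w)
    · rw [if_pos h]
      obtain ⟨e, he1, he2⟩ := Finset.not_disjoint_iff.mp h.2
      obtain ⟨heS, hu⟩ := Finset.mem_filter.mp he1
      obtain ⟨_, hw⟩ := Finset.mem_filter.mp he2
      calc (1:ℝ) = (if u ∈ e ∧ w ∈ e ∧ u ≠ w then (1:ℝ) else 0) := by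
            rw [if_pos ⟨hu, hw, h.1⟩]
        _ ≤ _ := Finset.single_le_sum hnn heS
    · rw [if_neg h]
      exact Finset.sum_nonneg hnn
  calc _ ≤ ∑ u ∈ W, ∑ w ∈ W, ∑ e ∈ S, (if u ∈ e ∧ w ∈ e ∧ u ≠ w then (1:ℝ) else 0) :=
        Finset.sum_le_sum fun u hu => Finset.sum_le_sum fun w hw => h1 u hu w hw
    _ = ∑ u ∈ W, ∑ e ∈ S, ∑ w ∈ W, (if u ∈ e ∧ w ∈ e ∧ u ≠ w then (1:ℝ) else 0) :=
        Finset.sum_congr rfl fun u _ => Finset.sum_comm
    _ = ∑ e ∈ S, ∑ u ∈ W, ∑ w ∈ W, (if u ∈ e ∧ w ∈ e ∧ u ≠ w then (1:ℝ) else 0) :=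
        Finset.sum_comm
    _ ≤ ∑ e ∈ S, (2:ℝ) := by
        apply Finset.sum_le_sum
        intro e he
        rw [← Finset.sum_product' (f := fun u w => if u ∈ e ∧ w ∈ e ∧ u ≠ w then (1:ℝ) else 0),
          Finset.sum_boole]
        have h2 : ((W ×ˢ W).filter (fun x => x.1 ∈ e ∧ x.2 ∈ e ∧ x.1 ≠ x.2)) ⊆ e.offDiag := by
          intro x hx
          have := (Finset.mem_filter.mp hx).2
          exact Finset.mem_offDiag.mpr this
        have h3 := Finset.card_le_card h2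
        rw [Finset.offDiag_card, hS e he] at h3
        have h4 : ((W ×ˢ W).filter (fun x => x.1 ∈ e ∧ x.2 ∈ e ∧ x.1 ≠ x.2)).card ≤ 2 := by
          omega
        exact_mod_cast h4
    _ = _ := by
        rw [Finset.sum_const, nsmul_eq_mul]
        ring

/-- The mean number of covered vertices is large. -/
lemma cover_mean {s : ℕ} (hs : 1 ≤ s) {S : Finset (Finset β)} (hS2 : ∀ e ∈ S, e.card = 2)
    (h1 : 64 * s ^ 2 ≤ S.card) :
    2 * (s : ℝ) ≤ ∑ u ∈ S.biUnion id, (1 - (1 - 1 / (8 * (s : ℝ))) ^ (starAt S u).card) := by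
  have hs0 : (1 : ℝ) ≤ s := by exact_mod_cast hs
  set δ : ℝ := 1 / (8 * (s : ℝ)) with hδ
  have hδ0 : 0 < δ := by positivity
  have hδ1 : δ ≤ 1 := by
    rw [hδ, div_le_one (by positivity)]
    linarith
  set Vt := S.biUnion id with hVt
  have hnn : ∀ u ∈ Vt, 0 ≤ 1 - (1 - δ) ^ (starAt S u).card := by
    intro u _
    have : (1 - δ) ^ (starAt S u).card ≤ 1 := pow_le_one₀ (by linarith) (by linarith)
    linarith
  set H := Vt.filter (fun u => 1 ≤ δ * ((starAt S u).card : ℝ)) with hH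
  by_cases hcase : 4 * s ≤ H.card
  · have h2 : ∑ u ∈ H, (1 / 2 : ℝ) ≤ ∑ u ∈ Vt, (1 - (1 - δ) ^ (starAt S u).card) := by
      calc _ ≤ ∑ u ∈ H, (1 - (1 - δ) ^ (starAt S u).card) := by
            apply Finset.sum_le_sum
            intro u hu
            exact half_le_one_sub_pow hδ0.le hδ1 (Finset.mem_filter.mp hu).2
        _ ≤ _ := Finset.sum_le_sum_of_subset_of_nonneg (Finset.filter_subset _ _)
            (fun u hu _ => hnn u hu)
    rw [Finset.sum_const, nsmul_eq_mul] at h2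
    have h3 : (4 * (s : ℝ)) ≤ H.card := by exact_mod_cast hcase
    linarith
  · push Not at hcase
    have hHc : (H.card : ℝ) ≤ 4 * s := by exact_mod_cast hcase.le
    set S₀ := S.filter (fun e => e ⊆ H) with hS₀
    have hS₀c : (S₀.card : ℝ) ≤ 8 * (s : ℝ) ^ 2 := by
      have h2 : S₀ ⊆ H.powersetCard 2 := by
        intro e he
        obtain ⟨h3, h4⟩ := Finset.mem_filter.mp he
        exact Finset.mem_powersetCard.mpr ⟨h4, hS2 e h3⟩
      have h3 := Finset.card_le_card h2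
      rw [Finset.card_powersetCard] at h3
      have h4 : ((H.card.choose 2 : ℕ) : ℝ) = (H.card : ℝ) * ((H.card : ℝ) - 1) / 2 :=
        Nat.cast_choose_two ℝ H.card
      have h5 : (S₀.card : ℝ) ≤ ((H.card.choose 2 : ℕ) : ℝ) := by exact_mod_cast h3
      rw [h4] at h5
      have h6 : (0:ℝ) ≤ H.card := by positivity
      nlinarith
    have hS₁ : 56 * (s : ℝ) ^ 2 ≤ ∑ e ∈ S, (if e ⊆ H then (0:ℝ) else 1) := by
      have h2 : ∑ e ∈ S, (if e ⊆ H then (0:ℝ) else 1) = (S.card : ℝ) - S₀.card := by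
        have h3 : ∀ e ∈ S, (if e ⊆ H then (0:ℝ) else 1) = 1 - (if e ⊆ H then (1:ℝ) else 0) := by
          intro e _
          split_ifs <;> norm_num
        rw [Finset.sum_congr rfl h3, Finset.sum_sub_distrib, Finset.sum_boole]
        simp [hS₀]
      rw [h2]
      have h3 : (64 * (s : ℝ) ^ 2) ≤ S.card := by exact_mod_cast h1
      linarith
    have hcount : ∑ e ∈ S, (if e ⊆ H then (0:ℝ) else 1)
        ≤ ∑ u ∈ Vt \ H, ((starAt S u).card : ℝ) := by
      have h2 : ∀ u ∈ Vt \ H, ((starAt S u).card : ℝ) = ∑ e ∈ S, (if u ∈ e then (1:ℝ) else 0) := by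
        intro u _
        unfold starAt
        rw [Finset.sum_boole]
      rw [Finset.sum_congr rfl h2, Finset.sum_comm]
      apply Finset.sum_le_sum
      intro e he
      have hnn2 : ∀ u ∈ Vt \ H, (0:ℝ) ≤ (if u ∈ e then (1:ℝ) else 0) := fun u _ => by
        split_ifs <;> norm_num
      by_cases hsub : e ⊆ H
      · rw [if_pos hsub]
        exact Finset.sum_nonneg hnn2
      · rw [if_neg hsub]
        obtain ⟨u, hue, huH⟩ := Finset.not_subset.mp hsub
        have huV : u ∈ Vt \ H :=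
          Finset.mem_sdiff.mpr ⟨Finset.mem_biUnion.mpr ⟨e, he, hue⟩, huH⟩
        calc (1:ℝ) = (if u ∈ e then (1:ℝ) else 0) := by rw [if_pos hue]
          _ ≤ _ := Finset.single_le_sum hnn2 huV
    have h3 : ∑ u ∈ Vt \ H, δ * ((starAt S u).card : ℝ) / 2
        ≤ ∑ u ∈ Vt, (1 - (1 - δ) ^ (starAt S u).card) := by
      calc _ ≤ ∑ u ∈ Vt \ H, (1 - (1 - δ) ^ (starAt S u).card) := by
            apply Finset.sum_le_sum
            intro u hu
            obtain ⟨h4, h5⟩ := Finset.mem_sdiff.mp hu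
            apply mul_half_le_one_sub_pow hδ0.le hδ1
            by_contra hc
            push Not at hc
            exact h5 (Finset.mem_filter.mpr ⟨h4, hc.le⟩)
        _ ≤ _ := Finset.sum_le_sum_of_subset_of_nonneg Finset.sdiff_subset
            (fun u hu _ => hnn u hu)
    have h4 : ∑ u ∈ Vt \ H, δ * ((starAt S u).card : ℝ) / 2
        = (δ / 2) * ∑ u ∈ Vt \ H, ((starAt S u).card : ℝ) := by
      rw [Finset.mul_sum]
      apply Finset.sum_congr rfl
      intro u _
      ring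
    have h5 : (δ / 2) * (56 * (s : ℝ) ^ 2) ≤ (δ / 2) * ∑ u ∈ Vt \ H, ((starAt S u).card : ℝ) :=
      mul_le_mul_of_nonneg_left (hS₁.trans hcount) (by positivity)
    have h6 : (δ / 2) * (56 * (s : ℝ) ^ 2) = 7 / 2 * (s : ℝ) := by
      rw [hδ]
      field_simp
      ring
    have h7 : (0:ℝ) ≤ s := by positivity
    linarith

/-- A random restriction of a graph in the band is good, with high probability. -/
theorem bad_prob {s : ℕ} (hs : 1 ≤ s) {U S : Finset (Finset β)} (hSU : S ⊆ U)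
    (hS2 : ∀ e ∈ S, e.card = 2) (h1 : 64 * s ^ 2 ≤ S.card) (h2 : S.card ≤ 256 * s ^ 2) :
    Ex (1 / (8 * (s : ℝ))) U (fun J => if goodT s (S ∩ J) then 0 else 1) ≤ 129 / (s : ℝ) := by
  have hs0 : (1 : ℝ) ≤ s := by exact_mod_cast hs
  have hs1 : (0 : ℝ) < s := by linarith
  set δ : ℝ := 1 / (8 * (s : ℝ)) with hδ
  have hδ0 : 0 < δ := by positivity
  have hδ1 : δ ≤ 1 := by
    rw [hδ, div_le_one (by positivity)]
    linarith
  have hδs : δ * (8 * (s : ℝ)) = 1 := by
    rw [hδ]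
    field_simp
  have hSc : (S.card : ℝ) ≤ 256 * (s : ℝ) ^ 2 := by exact_mod_cast h2
  have hδS : δ * (S.card : ℝ) ≤ 32 * s := by
    have : δ * (S.card : ℝ) ≤ δ * (256 * (s : ℝ) ^ 2) := mul_le_mul_of_nonneg_left hSc hδ0.le
    have e : δ * (256 * (s : ℝ) ^ 2) = (δ * (8 * (s : ℝ))) * (32 * s) := by ring
    rw [e, hδs] at this
    linarith
  -- first moment computation
  set A₁ : Finset β → Finset (Finset β) := fun e => {e} with hA₁
  set Y₁ : Finset (Finset β) → ℝ := fun J => ∑ e ∈ S, if Disjoint (A₁ e) J then (1:ℝ) else 0 with hY₁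
  set m₁ : ℝ := ∑ e ∈ S, (1 - δ) ^ (A₁ e).card with hm₁
  have hm₁' : m₁ = (S.card : ℝ) * (1 - δ) := by
    rw [hm₁, Finset.sum_congr rfl (fun e _ => by rw [hA₁]; simp : ∀ e ∈ S, (1 - δ) ^ (A₁ e).card = 1 - δ),
      Finset.sum_const, nsmul_eq_mul]
  have hmom₁ := second_moment hδ0 hδ1 U S A₁
    (fun e he => Finset.singleton_subset_iff.mpr (hSU he))
    (fun e _ e' _ hne => by
      have : A₁ e ∩ A₁ e' = ∅ := by
        rw [hA₁]
        simp only
        rw [Finset.singleton_inter_of_notMem]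
        simpa using hne
      rw [this]
      simp)
  have hmom₁' : Ex δ U (fun J => (Y₁ J - m₁) ^ 2) ≤ 32 * s := by
    refine hmom₁.trans ?_
    have h3 : ∑ u ∈ S, ∑ w ∈ S, (if u ≠ w ∧ ¬ Disjoint (A₁ u) (A₁ w) then (1:ℝ) else 0) = 0 := by
      apply Finset.sum_eq_zero
      intro u _
      apply Finset.sum_eq_zero
      intro w _
      rw [if_neg]
      rintro ⟨h4, h5⟩
      apply h5
      rw [hA₁]
      simpa using h4
    rw [h3, mul_zero, add_zero]
    have h4 : ∑ u ∈ S, (1 - (1 - δ) ^ (A₁ u).card) = (S.card : ℝ) * δ := by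
      rw [Finset.sum_congr rfl (fun e _ => by rw [hA₁]; simp : ∀ e ∈ S, 1 - (1 - δ) ^ (A₁ e).card = δ),
        Finset.sum_const, nsmul_eq_mul]
    rw [h4]
    linarith
  -- second moment for the vertices
  set Vt := S.biUnion id with hVt
  set Y₂ : Finset (Finset β) → ℝ := fun J => ∑ u ∈ Vt, if Disjoint (starAt S u) J then (1:ℝ) else 0
    with hY₂
  set m₂ : ℝ := ∑ u ∈ Vt, (1 - δ) ^ (starAt S u).card with hm₂
  set μ : ℝ := ∑ u ∈ Vt, (1 - (1 - δ) ^ (starAt S u).card) with hμ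
  have hμm : μ = (Vt.card : ℝ) - m₂ := by
    rw [hμ, hm₂, Finset.sum_sub_distrib]
    simp
  have hmom₂ := second_moment hδ0 hδ1 U Vt (starAt S)
    (fun u _ => (Finset.filter_subset _ _).trans hSU)
    (fun u _ w _ hne => star_inter_card hS2 hne)
  have hμup : μ ≤ 2 * (δ * (S.card : ℝ)) := by
    have h3 : μ ≤ ∑ u ∈ Vt, δ * ((starAt S u).card : ℝ) :=
      Finset.sum_le_sum fun u _ => one_sub_pow_le hδ0.le hδ1 _
    rw [← Finset.mul_sum, sum_star_card S Vt (Finset.Subset.refl _)] at h3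
    have h4 : ∑ e ∈ S, (e.card : ℝ) = 2 * (S.card : ℝ) := by
      rw [Finset.sum_congr rfl (fun e he => by rw [hS2 e he] : ∀ e ∈ S, (e.card : ℝ) = ((2 : ℕ) : ℝ)),
        Finset.sum_const, nsmul_eq_mul]
      push_cast
      ring
    rw [h4] at h3
    linarith
  have hμlow : 2 * (s : ℝ) ≤ μ := cover_mean hs hS2 h1
  have hmom₂' : Ex δ U (fun J => (Y₂ J - m₂) ^ 2) ≤ 128 * s := by
    refine hmom₂.trans ?_
    have h3 := pair_count hS2 Vt
    have h4 : δ * ∑ u ∈ Vt, ∑ w ∈ Vt, (if u ≠ w ∧ ¬ Disjoint (starAt S u) (starAt S w) then (1:ℝ) else 0)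
        ≤ δ * (2 * S.card) := mul_le_mul_of_nonneg_left h3 hδ0.le
    have h5 : δ * (2 * (S.card : ℝ)) = 2 * (δ * S.card) := by ring
    rw [h5] at h4
    show μ + _ ≤ _
    linarith
  -- the pointwise bound
  have hpt : ∀ J, J ⊆ U → (if goodT s (S ∩ J) then (0:ℝ) else 1)
      ≤ (Y₁ J - m₁) ^ 2 * (1 / (32 * (s : ℝ)) ^ 2) + (Y₂ J - m₂) ^ 2 * (1 / (s : ℝ) ^ 2) := by
    intro J _
    have hn1 : 0 ≤ (Y₁ J - m₁) ^ 2 * (1 / (32 * (s : ℝ)) ^ 2) := by positivity
    have hn2 : 0 ≤ (Y₂ J - m₂) ^ 2 * (1 / (s : ℝ) ^ 2) := by positivity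
    by_cases hg : goodT s (S ∩ J)
    · rw [if_pos hg]
      linarith
    · rw [if_neg hg]
      unfold goodT at hg
      by_cases hc : (S ∩ J).card ≤ 64 * s
      · -- too few vertices
        have hc2 : (((S ∩ J).biUnion id).card : ℝ) + 1 ≤ s := by
          have : ((S ∩ J).biUnion id).card < s := by
            by_contra h3
            push Not at h3
            exact hg ⟨hc, h3⟩
          exact_mod_cast this
        have hX : (((S ∩ J).biUnion id).card : ℝ) + Y₂ J = Vt.card := by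
          have e1 : (S ∩ J).biUnion id = Vt.filter (fun u => ¬ Disjoint (starAt S u) J) := by
            ext u
            constructor
            · intro hu
              obtain ⟨e, he, hue⟩ := Finset.mem_biUnion.mp hu
              obtain ⟨h3, h4⟩ := Finset.mem_inter.mp he
              apply Finset.mem_filter.mpr
              refine ⟨Finset.mem_biUnion.mpr ⟨e, h3, hue⟩, ?_⟩
              apply Finset.not_disjoint_iff.mpr
              exact ⟨e, Finset.mem_filter.mpr ⟨h3, hue⟩, h4⟩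
            · intro hu
              obtain ⟨_, h3⟩ := Finset.mem_filter.mp hu
              obtain ⟨e, h4, h5⟩ := Finset.not_disjoint_iff.mp h3
              obtain ⟨h6, h7⟩ := Finset.mem_filter.mp h4
              exact Finset.mem_biUnion.mpr ⟨e, Finset.mem_inter.mpr ⟨h6, h5⟩, h7⟩
          rw [e1, hY₂]
          simp only
          rw [Finset.sum_boole]
          have := Finset.card_filter_add_card_filter_not (s := Vt) (fun u => ¬ Disjoint (starAt S u) J)
          simp only [not_not] at this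
          exact_mod_cast this
        have h3 : (s : ℝ) ≤ Y₂ J - m₂ := by
          have : Y₂ J - m₂ = μ - (((S ∩ J).biUnion id).card : ℝ) := by
            rw [hμm]
            linarith
          rw [this]
          linarith
        have h4 : (s : ℝ) ^ 2 ≤ (Y₂ J - m₂) ^ 2 := pow_le_pow_left₀ hs1.le h3 2
        have h5 : 1 ≤ (Y₂ J - m₂) ^ 2 * (1 / (s : ℝ) ^ 2) := by
          rw [mul_one_div, le_div_iff₀ (by positivity)]
          linarith
        linarith
      · -- too many edges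
        have hc2 : 64 * (s : ℝ) ≤ (S ∩ J).card := by
          push Not at hc
          exact_mod_cast hc.le
        have hX : ((S ∩ J).card : ℝ) + Y₁ J = S.card := by
          have h3 : ∀ e ∈ S, (if Disjoint (A₁ e) J then (1:ℝ) else 0) = if e ∉ J then 1 else 0 := by
            intro e _
            have : Disjoint (A₁ e) J ↔ e ∉ J := by
              rw [hA₁]
              exact Finset.disjoint_singleton_left
            simp only [this]
          rw [hY₁]
          simp only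
          rw [Finset.sum_congr rfl h3, Finset.sum_boole]
          have := Finset.card_filter_add_card_filter_not (s := S) (fun e => e ∈ J)
          rw [Finset.filter_mem_eq_inter] at this
          exact_mod_cast this
        have h3 : 32 * (s : ℝ) ≤ m₁ - Y₁ J := by
          rw [hm₁']
          nlinarith
        have h4 : (32 * (s : ℝ)) ^ 2 ≤ (Y₁ J - m₁) ^ 2 := by
          have e : (Y₁ J - m₁) ^ 2 = (m₁ - Y₁ J) ^ 2 := by ring
          rw [e]
          exact pow_le_pow_left₀ (by positivity) h3 2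
        have h5 : 1 ≤ (Y₁ J - m₁) ^ 2 * (1 / (32 * (s : ℝ)) ^ 2) := by
          rw [mul_one_div, le_div_iff₀ (by positivity)]
          linarith
        linarith
  have hfin := Ex_mono hδ0.le hδ1 U hpt
  rw [Ex_add, Ex_mul_right, Ex_mul_right] at hfin
  refine hfin.trans ?_
  have t1 : Ex δ U (fun J => (Y₁ J - m₁) ^ 2) * (1 / (32 * (s : ℝ)) ^ 2)
      ≤ (32 * s) * (1 / (32 * (s : ℝ)) ^ 2) :=
    mul_le_mul_of_nonneg_right hmom₁' (by positivity)
  have t2 : Ex δ U (fun J => (Y₂ J - m₂) ^ 2) * (1 / (s : ℝ) ^ 2)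
      ≤ (128 * s) * (1 / (s : ℝ) ^ 2) :=
    mul_le_mul_of_nonneg_right hmom₂' (by positivity)
  have e1 : (32 * (s : ℝ)) * (1 / (32 * (s : ℝ)) ^ 2) = (1 / 32) / s := by
    field_simp
  have e2 : (128 * (s : ℝ)) * (1 / (s : ℝ) ^ 2) = 128 / s := by
    field_simp
  have e3 : 129 / (s : ℝ) = 1 / s + 128 / s := by
    field_simp
    norm_num
  have e4 : (1 / 32) / (s : ℝ) ≤ 1 / s := by
    apply div_le_div_of_nonneg_right _ hs1.le
    norm_num
  rw [e1] at t1
  rw [e2] at t2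
  rw [e3]
  linarith

end graph

end Vale.Agent.P063X
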