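/-
P063: symmetry, orbit bound for the mass above a good set.
-/
import Vale.Agent.P063X.Band
import Vale.Agent.P063X.Moment

open Finset

namespace Vale.Agent.P063X

section maps
variable {α : Type*} [DecidableEq α] {p : ℝ}

lemma Ex_map (ρ : α ≃ α) (V : Finset α) (F : Finset α → ℝ) :
    Ex p (V.map ρ.toEmbedding) F = Ex p V (fun x => F (x.map ρ.toEmbedding)) := by
  unfold Ex
  symm
  apply Finset.sum_nbij' (fun x => x.map ρ.toEmbedding) (fun x => x.map ρ.symm.toEmbedding)
  · intro x hx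
    exact Finset.mem_powerset.mpr (Finset.map_subset_map.mpr (Finset.mem_powerset.mp hx))
  · intro x hx
    apply Finset.mem_powerset.mpr
    intro a ha
    obtain ⟨b, hb, rfl⟩ := Finset.mem_map.mp ha
    obtain ⟨c, hc, rfl⟩ := Finset.mem_map.mp (Finset.mem_powerset.mp hx hb)
    simpa using hc
  · intro x _
    ext a
    simp
  · intro x _
    ext a
    simp
  · intro x _
    rw [← Finset.map_sdiff, Finset.card_map, Finset.card_map]

lemma chi_map (ρ : α ≃ α) (S x : Finset α) :
    chi p (S.map ρ.toEmbedding) (x.map ρ.toEmbedding) = chi p S x := by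
  unfold chi
  rw [Finset.prod_map]
  apply Finset.prod_congr rfl
  intro e _
  unfold phi
  have : ρ.toEmbedding e ∈ x.map ρ.toEmbedding ↔ e ∈ x := Finset.mem_map' _
  simp only [this]

lemma fc_map {U : Finset α} {f : Finset α → ℝ} (ρ : α ≃ α) (hU : U.map ρ.toEmbedding = U)
    (hf : ∀ x, x ⊆ U → f (x.map ρ.toEmbedding) = f x) (S : Finset α) :
    fc p U f (S.map ρ.toEmbedding) = fc p U f S := by
  unfold fc
  conv_lhs => rw [← hU]
  rw [Ex_map]
  apply Ex_congr
  intro x hx
  rw [hf x hx, chi_map]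

lemma infl_map {U : Finset α} {f : Finset α → ℝ} (ρ : α ≃ α) (hU : U.map ρ.toEmbedding = U)
    (hf : ∀ x, x ⊆ U → f (x.map ρ.toEmbedding) = f x) {e : α} (he : e ∈ U) :
    infl p U f (ρ e) = infl p U f e := by
  unfold infl
  have h1 : U.erase (ρ e) = (U.erase e).map ρ.toEmbedding := by
    rw [Finset.map_erase, hU]
    rfl
  rw [h1, Ex_map]
  apply Ex_congr
  intro x hx
  have hxU : x ⊆ U := hx.trans (Finset.erase_subset e U)
  unfold dd
  have h2 : insert (ρ e) (x.map ρ.toEmbedding) = (insert e x).map ρ.toEmbedding := by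
    rw [Finset.map_insert]
    rfl
  rw [h2, hf _ (Finset.insert_subset he hxU), hf _ hxU]

end maps

section graph
variable {β : Type*} [Fintype β] [DecidableEq β] {p : ℝ}

/-- The edges of the complete graph. -/
def edgesOf (β : Type*) [Fintype β] [DecidableEq β] : Finset (Finset β) :=
  (Finset.univ : Finset β).powersetCard 2

/-- The action of a permutation of the vertices on vertex subsets. -/
def rho (π : Equiv.Perm β) : Finset β ≃ Finset β := Equiv.finsetCongr π

@[simp] lemma rho_apply (π : Equiv.Perm β) (e : Finset β) : rho π e = e.map π.toEmbedding := rfl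

lemma rho_toEmbedding_apply (π : Equiv.Perm β) (e : Finset β) :
    (rho π).toEmbedding e = e.map π.toEmbedding := rfl

lemma mem_edgesOf {e : Finset β} : e ∈ edgesOf β ↔ e.card = 2 := by
  simp [edgesOf, Finset.mem_powersetCard]

lemma edges_map (π : Equiv.Perm β) : (edgesOf β).map (rho π).toEmbedding = edgesOf β := by
  ext e
  rw [Finset.mem_map, mem_edgesOf]
  constructor
  · rintro ⟨a, ha, rfl⟩
    rw [rho_toEmbedding_apply, Finset.card_map]
    exact mem_edgesOf.mp ha
  · intro he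
    refine ⟨e.map (π.symm).toEmbedding, ?_, ?_⟩
    · rw [mem_edgesOf, Finset.card_map]
      exact he
    · rw [rho_toEmbedding_apply]
      ext a
      simp

/-- Invariance under permutations of the vertices. -/
def IsSymOn (f : Finset (Finset β) → ℝ) : Prop :=
  ∀ π : Equiv.Perm β, ∀ x, x ⊆ edgesOf β → f (x.map (rho π).toEmbedding) = f x

lemma exists_perm_map (A B : Finset β) (h : A.card = B.card) :
    ∃ π : Equiv.Perm β, A.map π.toEmbedding = B := by
  classical
  let e : {x // x ∈ A} ≃ {x // x ∈ B} := Finset.equivOfCardEq h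
  refine ⟨e.extendSubtype, ?_⟩
  apply Finset.eq_of_subset_of_card_le
  · intro a ha
    obtain ⟨b, hb, rfl⟩ := Finset.mem_map.mp ha
    exact e.extendSubtype_mem b hb
  · rw [Finset.card_map, h]

lemma verts_map (π : Equiv.Perm β) (T : Finset (Finset β)) :
    (T.map (rho π).toEmbedding).biUnion id = (T.biUnion id).map π.toEmbedding := by
  ext u
  simp only [Finset.mem_biUnion, Finset.mem_map, id]
  constructor
  · rintro ⟨e, ⟨a, ha, rfl⟩, hu⟩
    rw [rho_toEmbedding_apply] at hu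
    obtain ⟨b, hb, rfl⟩ := Finset.mem_map.mp hu
    exact ⟨b, ⟨a, ha, hb⟩, rfl⟩
  · rintro ⟨b, ⟨a, ha, hb⟩, rfl⟩
    refine ⟨a.map π.toEmbedding, ⟨a, ha, rfl⟩, ?_⟩
    exact Finset.mem_map_of_mem _ hb

/-- The mass of the sets of a family above `T`. -/
noncomputable def supMass (p : ℝ) (f : Finset (Finset β) → ℝ) (𝔅 : Finset (Finset (Finset β)))
    (T : Finset (Finset β)) : ℝ :=
  ∑ S ∈ 𝔅, if T ⊆ S then fc p (edgesOf β) f S ^ 2 else 0

lemma supMass_nonneg (f : Finset (Finset β) → ℝ) (𝔅 : Finset (Finset (Finset β)))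
    (T : Finset (Finset β)) : 0 ≤ supMass p f 𝔅 T := by
  apply Finset.sum_nonneg
  intro S _
  split_ifs
  · exact sq_nonneg _
  · exact le_rfl

lemma supMass_map {f : Finset (Finset β) → ℝ} (hf : IsSymOn f) {𝔅 : Finset (Finset (Finset β))}
    (h𝔅 : ∀ (π : Equiv.Perm β), ∀ S ∈ 𝔅, S.map (rho π).toEmbedding ∈ 𝔅) (π : Equiv.Perm β)
    (T : Finset (Finset β)) :
    supMass p f 𝔅 (T.map (rho π).toEmbedding) = supMass p f 𝔅 T := by
  unfold supMass
  symm
  apply Finset.sum_nbij' (fun S => S.map (rho π).toEmbedding)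
    (fun S => S.map (rho π.symm).toEmbedding)
  · intro S hS
    exact h𝔅 π S hS
  · intro S hS
    exact h𝔅 π.symm S hS
  · intro S _
    ext a
    simp only [Finset.mem_map, rho_toEmbedding_apply]
    constructor
    · rintro ⟨b, ⟨c, hc, rfl⟩, rfl⟩
      have : (c.map π.toEmbedding).map (π.symm).toEmbedding = c := by
        ext d
        simp
      rwa [this]
    · intro ha
      refine ⟨a.map π.toEmbedding, ⟨a, ha, rfl⟩, ?_⟩
      ext d
      simp
  · intro S _
    ext a
    simp only [Finset.mem_map, rho_toEmbedding_apply]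
    constructor
    · rintro ⟨b, ⟨c, hc, rfl⟩, rfl⟩
      have : (c.map (π.symm).toEmbedding).map π.toEmbedding = c := by
        ext d
        simp
      rwa [this]
    · intro ha
      refine ⟨a.map (π.symm).toEmbedding, ⟨a, ha, rfl⟩, ?_⟩
      ext d
      simp
  · intro S _
    rw [fc_map (rho π) (edges_map π) (hf π)]
    have h : T.map (rho π).toEmbedding ⊆ S.map (rho π).toEmbedding ↔ T ⊆ S := Finset.map_subset_map
    by_cases h1 : T ⊆ S
    · rw [if_pos h1, if_pos (h.mpr h1)]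
    · rw [if_neg h1, if_neg (fun h2 => h1 (h.mp h2))]

/-- The orbit bound. -/
theorem orbit_bound {f : Finset (Finset β) → ℝ} (hf : IsSymOn f) {𝔅 : Finset (Finset (Finset β))}
    (h𝔅 : ∀ (π : Equiv.Perm β), ∀ S ∈ 𝔅, S.map (rho π).toEmbedding ∈ 𝔅) {Δ : ℕ}
    (hΔ : ∀ S ∈ 𝔅, S.card ≤ Δ) {T : Finset (Finset β)} (hT : T ⊆ edgesOf β) :
    (((Fintype.card β).choose (T.biUnion id).card : ℕ) : ℝ) * supMass p f 𝔅 T
      ≤ (∑ S ∈ 𝔅, fc p (edgesOf β) f S ^ 2) * (Δ : ℝ) ^ T.card := by
  classical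
  set v := (T.biUnion id).card with hv
  set P := (Finset.univ : Finset β).powersetCard v with hP
  have hex : ∀ A : Finset β, ∃ π : Equiv.Perm β, A ∈ P → (T.biUnion id).map π.toEmbedding = A := by
    intro A
    by_cases hA : A ∈ P
    · have hc : (T.biUnion id).card = A.card := by
        rw [← hv]
        exact (Finset.mem_powersetCard.mp hA).2.symm
      obtain ⟨π, hπ⟩ := exists_perm_map _ _ hc
      exact ⟨π, fun _ => hπ⟩
    · exact ⟨1, fun h => absurd h hA⟩
  choose π hπ using hex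
  set TA : Finset β → Finset (Finset β) := fun A => T.map (rho (π A)).toEmbedding with hTA
  have hverts : ∀ A ∈ P, (TA A).biUnion id = A := by
    intro A hA
    rw [hTA]
    simp only
    rw [verts_map, hπ A hA]
  have hinj : Set.InjOn TA (P : Set (Finset β)) := by
    intro A hA A' hA' h
    rw [← hverts A hA, ← hverts A' hA', h]
  have hsub : P.image TA ⊆ (edgesOf β).powersetCard T.card := by
    intro T' hT'
    obtain ⟨A, _, rfl⟩ := Finset.mem_image.mp hT'
    apply Finset.mem_powersetCard.mpr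
    constructor
    · have := Finset.map_subset_map (f := (rho (π A)).toEmbedding).mpr hT
      rwa [edges_map] at this
    · rw [hTA]
      simp only
      rw [Finset.card_map]
  have h1 : ((Fintype.card β).choose v : ℝ) * supMass p f 𝔅 T
      = ∑ A ∈ P, supMass p f 𝔅 (TA A) := by
    have : ∀ A ∈ P, supMass p f 𝔅 (TA A) = supMass p f 𝔅 T := fun A _ => supMass_map hf h𝔅 _ _
    rw [Finset.sum_congr rfl this, Finset.sum_const, nsmul_eq_mul, hP, Finset.card_powersetCard,
      Finset.card_univ]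
  rw [h1, ← Finset.sum_image (f := fun T' => supMass p f 𝔅 T') hinj]
  refine (Finset.sum_le_sum_of_subset_of_nonneg hsub
    (fun T' _ _ => supMass_nonneg f 𝔅 T')).trans ?_
  unfold supMass
  rw [Finset.sum_comm, Finset.sum_mul]
  apply Finset.sum_le_sum
  intro S hS
  have h2 : ∑ T' ∈ (edgesOf β).powersetCard T.card, (if T' ⊆ S then fc p (edgesOf β) f S ^ 2 else 0)
      = (((edgesOf β).powersetCard T.card).filter (fun T' => T' ⊆ S)).card
        * fc p (edgesOf β) f S ^ 2 := by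
    rw [← Finset.sum_filter, Finset.sum_const, nsmul_eq_mul]
  rw [h2, mul_comm]
  apply mul_le_mul_of_nonneg_left _ (sq_nonneg _)
  have h3 : ((edgesOf β).powersetCard T.card).filter (fun T' => T' ⊆ S)
      ⊆ S.powersetCard T.card := by
    intro T' hT'
    obtain ⟨h4, h5⟩ := Finset.mem_filter.mp hT'
    exact Finset.mem_powersetCard.mpr ⟨h5, (Finset.mem_powersetCard.mp h4).2⟩
  have h4 := Finset.card_le_card h3
  rw [Finset.card_powersetCard] at h4
  have h5 : S.card.choose T.card ≤ Δ ^ T.card :=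
    (Nat.choose_le_pow _ _).trans (Nat.pow_le_pow_left (hΔ S hS) _)
  exact_mod_cast h4.trans h5

lemma fibMass_le_supMass {f : Finset (Finset β) → ℝ} {𝔅 : Finset (Finset (Finset β))}
    (J T : Finset (Finset β)) :
    fibMass p (edgesOf β) J f 𝔅 T ≤ supMass p f 𝔅 T := by
  unfold fibMass supMass fib
  rw [Finset.sum_filter]
  apply Finset.sum_le_sum
  intro S _
  by_cases h1 : S ∩ J = T
  · rw [if_pos h1, if_pos (by rw [← h1]; exact Finset.inter_subset_left)]
  · rw [if_neg h1]
    split_ifs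
    · exact sq_nonneg _
    · exact le_rfl

/-- A lower bound for binomial coefficients. -/
lemma choose_lower {n v s : ℕ} (hs : 1 ≤ s) (h1 : s ≤ v) (h2 : v ≤ 128 * s) (h3 : 256 * s ≤ n) :
    ((n : ℝ) / (256 * s)) ^ s ≤ (n.choose v : ℝ) := by
  have hs0 : (1 : ℝ) ≤ s := by exact_mod_cast hs
  have hv0 : (1 : ℝ) ≤ v := by exact_mod_cast hs.trans h1
  have hn : (256 * (s : ℝ)) ≤ n := by exact_mod_cast h3
  have hX1 : 1 ≤ (n : ℝ) / (256 * s) := by
    rw [le_div_iff₀ (by positivity)]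
    linarith
  have h4 : ((n : ℝ) / (256 * s)) ^ s ≤ ((n : ℝ) / (256 * s)) ^ v := pow_le_pow_right₀ hX1 h1
  refine h4.trans ?_
  have h5 := Nat.pow_le_choose (α := ℝ) v n
  refine le_trans ?_ h5
  have hfact : ((v.factorial : ℕ) : ℝ) ≤ (v : ℝ) ^ v := by
    exact_mod_cast Nat.factorial_le_pow v
  have hfp : (0 : ℝ) < (v.factorial : ℕ) := by exact_mod_cast Nat.factorial_pos v
  rw [le_div_iff₀ hfp]
  have hnv : (n : ℝ) / 2 ≤ ((n + 1 - v : ℕ) : ℝ) := by
    have : v ≤ n + 1 := by omega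
    rw [Nat.cast_sub this]
    push_cast
    have h6 : (v : ℝ) ≤ 128 * s := by exact_mod_cast h2
    linarith
  have hv2 : (v : ℝ) ≤ 128 * s := by exact_mod_cast h2
  calc ((n : ℝ) / (256 * s)) ^ v * ((v.factorial : ℕ) : ℝ)
      ≤ ((n : ℝ) / (256 * s)) ^ v * (v : ℝ) ^ v :=
        mul_le_mul_of_nonneg_left hfact (by positivity)
    _ = (((n : ℝ) / (256 * s)) * v) ^ v := by rw [mul_pow]
    _ ≤ ((n + 1 - v : ℕ) : ℝ) ^ v := by
        apply pow_le_pow_left₀ (by positivity)
        refine le_trans ?_ hnv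
        have : (n : ℝ) / (256 * s) * v ≤ (n : ℝ) / (256 * s) * (128 * s) :=
          mul_le_mul_of_nonneg_left hv2 (by positivity)
        have e : (n : ℝ) / (256 * s) * (128 * s) = n / 2 := by
          field_simp
          ring
        linarith

/-- The bound on the mass above a good set. -/
theorem good_fib_bound {f : Finset (Finset β) → ℝ} (hf : IsSymOn f)
    {𝔅 : Finset (Finset (Finset β))}
    (h𝔅 : ∀ (π : Equiv.Perm β), ∀ S ∈ 𝔅, S.map (rho π).toEmbedding ∈ 𝔅) {Δ : ℕ} (hΔ1 : 1 ≤ Δ)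
    (hΔ : ∀ S ∈ 𝔅, S.card ≤ Δ) {s : ℕ} (hs : 1 ≤ s) (hn : 256 * s ≤ Fintype.card β)
    (hW : ∑ S ∈ 𝔅, fc p (edgesOf β) f S ^ 2 ≤ 1) (J : Finset (Finset β)) {T : Finset (Finset β)}
    (hT : T ⊆ edgesOf β) (hG : goodT s T) :
    fibMass p (edgesOf β) J f 𝔅 T
      ≤ (Δ : ℝ) ^ (64 * s) / (((Fintype.card β : ℝ) / (256 * s)) ^ s) := by
  refine (fibMass_le_supMass J T).trans ?_
  have h1 := orbit_bound (p := p) hf h𝔅 hΔ hT
  have hv : (T.biUnion id).card ≤ 128 * s := by
    have h2 : (T.biUnion id).card ≤ ∑ e ∈ T, (id e).card := Finset.card_biUnion_le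
    have h3 : ∑ e ∈ T, (id e).card = 2 * T.card := by
      have h3' : ∀ e ∈ T, (id e).card = 2 := fun e he => mem_edgesOf.mp (hT he)
      rw [Finset.sum_congr rfl h3', Finset.sum_const, smul_eq_mul, mul_comm]
    have h4 := hG.1
    omega
  have hc := choose_lower hs hG.2 hv hn
  have hs0 : (1 : ℝ) ≤ s := by exact_mod_cast hs
  have hn0 : (256 * (s : ℝ)) ≤ Fintype.card β := by exact_mod_cast hn
  have hX : 0 < ((Fintype.card β : ℝ) / (256 * s)) ^ s := by
    apply pow_pos
    apply div_pos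
    · linarith
    · positivity
  rw [le_div_iff₀ hX]
  have hΔR : (1 : ℝ) ≤ Δ := by exact_mod_cast hΔ1
  have h2 : (∑ S ∈ 𝔅, fc p (edgesOf β) f S ^ 2) * (Δ : ℝ) ^ T.card ≤ (Δ : ℝ) ^ (64 * s) := by
    have h3 : (Δ : ℝ) ^ T.card ≤ (Δ : ℝ) ^ (64 * s) := pow_le_pow_right₀ hΔR hG.1
    have h4 : (0 : ℝ) ≤ (Δ : ℝ) ^ T.card := by positivity
    have h5 : 0 ≤ ∑ S ∈ 𝔅, fc p (edgesOf β) f S ^ 2 := Finset.sum_nonneg fun _ _ => sq_nonneg _
    nlinarith
  have hm0 := supMass_nonneg (p := p) f 𝔅 T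
  calc supMass p f 𝔅 T * ((Fintype.card β : ℝ) / (256 * s)) ^ s
      ≤ supMass p f 𝔅 T * (((Fintype.card β).choose (T.biUnion id).card : ℕ) : ℝ) :=
        mul_le_mul_of_nonneg_left hc hm0
    _ = (((Fintype.card β).choose (T.biUnion id).card : ℕ) : ℝ) * supMass p f 𝔅 T := by ring
    _ ≤ _ := h1.trans h2

end graph

end Vale.Agent.P063X
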