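/-
P063: the bound on the Fourier mass in a dyadic band.
-/
import Vale.Agent.P063X.Orbit

open Finset

namespace Vale.Agent.P063X

/-- The polylogarithmic factor in the parameter condition. -/
noncomputable def POLY (s : ℕ) (Y : ℝ) : ℝ :=
  (256 * (s : ℝ) ^ 2) ^ 64 * (192 * (s : ℝ) ^ 2) ^ 4 * 2 ^ 128 * (6 * Y) ^ 384 * (256 * s)

lemma aux_pow (B D T G : ℝ) (s : ℕ) : (B ^ (512 * s) * D ^ 64 * T ^ 4 * G ^ 128) ^ s
    = B ^ (512 * s * s) * D ^ (64 * s) * T ^ (4 * s) * G ^ (128 * s) := by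
  rw [mul_pow, mul_pow, mul_pow, ← pow_mul, ← pow_mul, ← pow_mul, ← pow_mul]

lemma aux_G (K B : ℝ) (hK1 : 1 ≤ K) (hB : 1 ≤ B) (s : ℕ) :
    (1 + K * (K * B ^ (64 * s)) ^ 2) ^ 128 ≤ 2 ^ 128 * K ^ 384 * B ^ (16384 * s) := by
  have hKB : (K * B ^ (64 * s)) ^ 2 = K ^ 2 * B ^ (128 * s) := by
    rw [mul_pow, ← pow_mul]
    congr 2
    ring
  have hGle : 1 + K * (K * B ^ (64 * s)) ^ 2 ≤ 2 * K ^ 3 * B ^ (128 * s) := by
    rw [hKB]
    have h1 : 1 ≤ K ^ 3 * B ^ (128 * s) := one_le_mul_of_one_le_of_one_le (one_le_pow₀ hK1)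
      (one_le_pow₀ hB)
    have h2 : K * (K ^ 2 * B ^ (128 * s)) = K ^ 3 * B ^ (128 * s) := by ring
    rw [h2]
    have h3 : 2 * K ^ 3 * B ^ (128 * s) = 2 * (K ^ 3 * B ^ (128 * s)) := by ring
    rw [h3]
    linarith
  have hG0 : 0 ≤ 1 + K * (K * B ^ (64 * s)) ^ 2 := by positivity
  refine (pow_le_pow_left₀ hG0 hGle 128).trans (le_of_eq ?_)
  rw [mul_pow, mul_pow, ← pow_mul, ← pow_mul]
  congr 2
  ring

/-- The arithmetic behind the choice of parameters. -/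
lemma param_ineq {B Y n : ℝ} {s : ℕ} (hB : 1 ≤ B) (hY : 1 ≤ Y) (hs : 1 ≤ s)
    (hparam : B ^ (16896 * s) * POLY s Y ≤ n) :
    B ^ (2 * (256 * s ^ 2)) * (256 * (s : ℝ) ^ 2) ^ (64 * s) * (192 * (s : ℝ) ^ 2) ^ 4
        * (1 + (6 * Y) * ((6 * Y) * B ^ (64 * s)) ^ 2) ^ (128 * s)
      ≤ (n / (256 * s)) ^ s := by
  have hs0 : (1 : ℝ) ≤ s := by exact_mod_cast hs
  have hss : (1 : ℝ) ≤ (s : ℝ) ^ 2 := one_le_pow₀ hs0
  obtain ⟨K, hK⟩ : ∃ K : ℝ, K = 6 * Y := ⟨_, rfl⟩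
  obtain ⟨Dl, hDl⟩ : ∃ D : ℝ, D = 256 * (s : ℝ) ^ 2 := ⟨_, rfl⟩
  obtain ⟨Tl, hTl⟩ : ∃ T : ℝ, T = 192 * (s : ℝ) ^ 2 := ⟨_, rfl⟩
  unfold POLY at hparam
  rw [← hK, ← hDl, ← hTl] at hparam ⊢
  have hK1 : 1 ≤ K := by rw [hK]; linarith
  have hDl1 : 1 ≤ Dl := by rw [hDl]; linarith
  have hTl1 : 1 ≤ Tl := by rw [hTl]; linarith
  have hB0 : 0 < B := by linarith
  obtain ⟨G, hG⟩ : ∃ G : ℝ, G = 1 + K * (K * B ^ (64 * s)) ^ 2 := ⟨_, rfl⟩
  rw [← hG]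
  have hG128 : G ^ 128 ≤ 2 ^ 128 * K ^ 384 * B ^ (16384 * s) := by
    rw [hG]
    exact aux_G K B hK1 hB s
  have hG0 : 0 ≤ G := by
    rw [hG]
    positivity
  have hL0 : 0 ≤ B ^ (512 * s) * Dl ^ 64 * Tl ^ 4 * G ^ 128 :=
    mul_nonneg (mul_nonneg (mul_nonneg (pow_nonneg hB0.le _) (pow_nonneg (by linarith) _))
      (pow_nonneg (by linarith) _)) (pow_nonneg hG0 _)
  have hLX : B ^ (512 * s) * Dl ^ 64 * Tl ^ 4 * G ^ 128 ≤ n / (256 * s) := by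
    rw [le_div_iff₀ (by positivity)]
    refine le_trans ?_ hparam
    have e : B ^ (16896 * s) = B ^ (512 * s) * B ^ (16384 * s) := by
      rw [← pow_add]
      congr 1
      ring
    rw [e]
    have h1 : 0 ≤ B ^ (512 * s) * Dl ^ 64 * Tl ^ 4 * (256 * (s : ℝ)) := by positivity
    generalize B ^ (512 * s) = x1 at *
    generalize B ^ (16384 * s) = x2 at *
    generalize Dl ^ 64 = x3 at *
    generalize Tl ^ 4 = x4 at *
    generalize G ^ 128 = x5 at *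
    generalize K ^ 384 = x6 at *
    generalize (2 : ℝ) ^ 128 = x7 at *
    have h2 := mul_le_mul_of_nonneg_left hG128 h1
    calc x1 * x3 * x4 * x5 * (256 * (s : ℝ)) = x1 * x3 * x4 * (256 * (s : ℝ)) * x5 := by ring
      _ ≤ _ := h2
      _ = _ := by ring
  refine le_trans ?_ (pow_le_pow_left₀ hL0 hLX s)
  rw [aux_pow]
  have e1 : 2 * (256 * s ^ 2) = 512 * s * s := by ring
  rw [e1]
  have h4 : Tl ^ 4 ≤ Tl ^ (4 * s) := pow_le_pow_right₀ hTl1 (by omega)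
  have hp1 : 0 ≤ B ^ (512 * s * s) * Dl ^ (64 * s) := by positivity
  have hp2 : 0 ≤ G ^ (128 * s) := by positivity
  apply mul_le_mul_of_nonneg_right _ hp2
  exact mul_le_mul_of_nonneg_left h4 hp1

lemma poly_ge {s : ℕ} {Y : ℝ} (hs : 1 ≤ s) (hY : 1 ≤ Y) : 256 * (s : ℝ) ≤ POLY s Y := by
  have hs0 : (1 : ℝ) ≤ s := by exact_mod_cast hs
  have hss : (1 : ℝ) ≤ (s : ℝ) ^ 2 := one_le_pow₀ hs0
  unfold POLY
  have h3 : (1 : ℝ) ≤ (256 * (s : ℝ) ^ 2) ^ 64 := one_le_pow₀ (by linarith)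
  have h4 : (1 : ℝ) ≤ (192 * (s : ℝ) ^ 2) ^ 4 := one_le_pow₀ (by linarith)
  have h5 : (1 : ℝ) ≤ (6 * Y) ^ 384 := one_le_pow₀ (by linarith)
  have h6 : (1 : ℝ) ≤ (2 : ℝ) ^ 128 := one_le_pow₀ (by norm_num)
  have h7 : 1 ≤ (256 * (s : ℝ) ^ 2) ^ 64 * (192 * (s : ℝ) ^ 2) ^ 4 * 2 ^ 128 * (6 * Y) ^ 384 :=
    one_le_mul_of_one_le_of_one_le (one_le_mul_of_one_le_of_one_le
      (one_le_mul_of_one_le_of_one_le h3 h4) h6) h5
  have h8 : (0 : ℝ) ≤ 256 * (s : ℝ) := by positivity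
  exact le_mul_of_one_le_left h8 h7

lemma card_ge {B Y n : ℝ} {s : ℕ} (hB : 1 ≤ B) (hY : 1 ≤ Y) (hs : 1 ≤ s)
    (hparam : B ^ (16896 * s) * POLY s Y ≤ n) : 256 * (s : ℝ) ≤ n := by
  have h1 : 1 ≤ B ^ (16896 * s) := one_le_pow₀ hB
  have h2 := poly_ge hs hY
  have h3 : (0 : ℝ) ≤ 256 * (s : ℝ) := by positivity
  have h4 : 0 ≤ POLY s Y := h3.trans h2
  calc 256 * (s : ℝ) ≤ POLY s Y := h2
    _ ≤ B ^ (16896 * s) * POLY s Y := le_mul_of_one_le_left h4 h1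
    _ ≤ n := hparam

/-- The final arithmetic of the band estimate. -/
lemma band_numeric {W BJv IJv s Y B β' G : ℝ} {D : ℕ} (hs : 1 ≤ s) (hY : 1 ≤ Y) (hB : 1 ≤ B)
    (hW : 0 < W) (hβ' : 0 < β')
    (hBJ : BJv ≤ 2 * (129 / s * W)) (hIJ : IJv ≤ 2 * (1 / (8 * s) * Y))
    (hG : G ^ D * β' ^ 2 = 1 / (3 * (8 * s)) ^ 2)
    (hmain : W ≤ 4 * (129 / s) / 2 + 1 / (2 * (4 * (129 / s))) * BJv
      + 4 / 2 * (IJv * (1 / (6 * Y * B ^ D)) * B ^ D + G ^ D * β' ^ 2 + IJv / (6 * Y))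
      + 1 / (2 * 4) * W + β' / (8 * s) / β') :
    W ≤ 415 / s := by
  have hs0 : 0 < s := by linarith
  have hY0 : 0 < Y := by linarith
  have hB0 : 0 < B := by linarith
  have hBD : 0 < B ^ D := pow_pos hB0 D
  have t1 : 1 / (2 * (4 * (129 / s))) * BJv ≤ W / 4 := by
    have h := mul_le_mul_of_nonneg_left hBJ
      (by positivity : 0 ≤ 1 / (2 * (4 * (129 / s))))
    have e : 1 / (2 * (4 * (129 / s))) * (2 * (129 / s * W)) = W / 4 := by
      field_simp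
    rw [e] at h
    exact h
  have e2 : IJv * (1 / (6 * Y * B ^ D)) * B ^ D = IJv / (6 * Y) := by
    field_simp
  have t3 : IJv / (6 * Y) ≤ 1 / (8 * s) / 3 := by
    rw [div_le_iff₀ (by positivity)]
    have e3 : 1 / (8 * s) / 3 * (6 * Y) = 2 * (1 / (8 * s) * Y) := by
      ring
    rw [e3]
    exact hIJ
  have t4 : G ^ D * β' ^ 2 ≤ 1 / (8 * s) / 3 := by
    rw [hG, div_le_iff₀ (by positivity)]
    have e4 : 1 / (8 * s) / 3 * (3 * (8 * s)) ^ 2 = 3 * (8 * s) := by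
      field_simp
    rw [e4]
    linarith
  have t5 : β' / (8 * s) / β' = 1 / (8 * s) := by
    field_simp
  rw [e2, t5] at hmain
  have h4 : (4 / 2 : ℝ) * (IJv / (6 * Y) + G ^ D * β' ^ 2 + IJv / (6 * Y))
      ≤ (4 / 2) * (1 / (8 * s) / 3 + 1 / (8 * s) / 3 + 1 / (8 * s) / 3) := by
    apply mul_le_mul_of_nonneg_left _ (by norm_num)
    linarith
  have e5 : (4 : ℝ) * (129 / s) / 2 = 258 / s := by ring
  have e6 : (4 / 2 : ℝ) * (1 / (8 * s) / 3 + 1 / (8 * s) / 3 + 1 / (8 * s) / 3) = (1 / 4) / s := by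
    field_simp
    norm_num
  have e7 : 1 / (8 * s) = (1 / 8) / s := by
    field_simp
  have e8 : (1 / (2 * 4) : ℝ) = 1 / 8 := by norm_num
  rw [e6] at h4
  rw [e5, e7] at hmain
  rw [e8] at hmain
  have h6 : W * (5 / 8) ≤ 258 / s + (1 / 4) / s + (1 / 8) / s := by linarith
  have e9 : (258 : ℝ) / s + (1 / 4) / s + (1 / 8) / s = (258 + 1 / 4 + 1 / 8) / s := by ring
  rw [e9] at h6
  have h7 : W ≤ ((258 + 1 / 4 + 1 / 8) / s) * (8 / 5) := by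
    have : W = W * (5 / 8) * (8 / 5) := by ring
    rw [this]
    exact mul_le_mul_of_nonneg_right h6 (by norm_num)
  refine h7.trans ?_
  rw [div_mul_eq_mul_div]
  apply div_le_div_of_nonneg_right _ hs0.le
  norm_num

section graph
variable {β : Type*} [Fintype β] [DecidableEq β] {p : ℝ}

/-- The dyadic band. -/
def bandOf (β : Type*) [Fintype β] [DecidableEq β] (s : ℕ) : Finset (Finset (Finset β)) :=
  (edgesOf β).powerset.filter (fun S => 64 * s ^ 2 ≤ S.card ∧ S.card < 256 * s ^ 2)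

lemma bandOf_map (s : ℕ) (π : Equiv.Perm β) {S : Finset (Finset β)} (hS : S ∈ bandOf β s) :
    S.map (rho π).toEmbedding ∈ bandOf β s := by
  obtain ⟨h1, h2⟩ := Finset.mem_filter.mp hS
  apply Finset.mem_filter.mpr
  constructor
  · apply Finset.mem_powerset.mpr
    have := Finset.map_subset_map (f := (rho π).toEmbedding).mpr (Finset.mem_powerset.mp h1)
    rwa [edges_map] at this
  · rw [Finset.card_map]
    exact h2

/-- The choice of the restriction set. -/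
theorem choose_J (hp : 0 < p) (hp1 : p < 1) {f : Finset (Finset β) → ℝ}
    (hB : IsBoolOn (edgesOf β) f) (hM : IsMonoOn (edgesOf β) f) {s : ℕ}
    (hs : 1 ≤ s) {Y : ℝ} (hY : 1 ≤ Y) (hI : inflTotal p (edgesOf β) f ≤ Y)
    (hW : 0 < ∑ S ∈ bandOf β s, fc p (edgesOf β) f S ^ 2) :
    ∃ J, J ⊆ edgesOf β ∧
      (∑ S ∈ bandOf β s, (if goodT s (S ∩ J) then 0 else fc p (edgesOf β) f S ^ 2))
        ≤ 2 * (129 / (s : ℝ) * ∑ S ∈ bandOf β s, fc p (edgesOf β) f S ^ 2) ∧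
      (∑ e ∈ J, infl p (edgesOf β) f e) ≤ 2 * (1 / (8 * (s : ℝ)) * Y) := by
  obtain ⟨U, hU⟩ : ∃ U, U = edgesOf β := ⟨_, rfl⟩
  rw [← hU] at hB hM hI hW ⊢
  obtain ⟨W, hWd⟩ : ∃ W, W = ∑ S ∈ bandOf β s, fc p U f S ^ 2 := ⟨_, rfl⟩
  rw [← hWd] at hW ⊢
  have hs0 : (1 : ℝ) ≤ s := by exact_mod_cast hs
  have hs1 : (0 : ℝ) < s := by linarith
  obtain ⟨δ, hδ⟩ : ∃ δ : ℝ, δ = 1 / (8 * (s : ℝ)) := ⟨_, rfl⟩
  rw [← hδ]
  have hδ0 : 0 < δ := by rw [hδ]; positivity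
  have hδ1 : δ ≤ 1 := by
    rw [hδ, div_le_one (by positivity)]
    linarith
  obtain ⟨pb, hpb⟩ : ∃ pb : ℝ, pb = 129 / (s : ℝ) := ⟨_, rfl⟩
  rw [← hpb]
  have hpb0 : 0 < pb := by rw [hpb]; positivity
  have hY0 : 0 < Y := by linarith
  have hinfl : ∀ e ∈ U, 0 ≤ infl p U f e := fun e he => infl_nonneg hp hp1 hB hM he
  let BJ : Finset (Finset β) → ℝ := fun J => ∑ S ∈ bandOf β s, (if goodT s (S ∩ J) then 0 else fc p U f S ^ 2)
  let IJ : Finset (Finset β) → ℝ := fun J => ∑ e ∈ U, (if e ∈ J then infl p U f e else 0)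
  have hBJ0 : ∀ J, 0 ≤ BJ J := fun J => Finset.sum_nonneg fun S _ => by
    split_ifs
    · exact le_rfl
    · exact sq_nonneg _
  have hIJ0 : ∀ J, 0 ≤ IJ J := fun J => Finset.sum_nonneg fun e he => by
    split_ifs
    · exact hinfl e he
    · exact le_rfl
  have hEBJ : Ex δ U BJ ≤ pb * W := by
    simp only [BJ]
    rw [Ex_sum, hWd, Finset.mul_sum]
    apply Finset.sum_le_sum
    intro S hS
    have h1 : (fun J => if goodT s (S ∩ J) then 0 else fc p U f S ^ 2)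
        = fun J => fc p U f S ^ 2 * (if goodT s (S ∩ J) then 0 else 1) := by
      funext J
      split_ifs <;> simp
    rw [h1, Ex_mul_left, mul_comm pb]
    apply mul_le_mul_of_nonneg_left _ (sq_nonneg _)
    obtain ⟨h2, h3, h4⟩ := Finset.mem_filter.mp hS
    have hSU : S ⊆ edgesOf β := Finset.mem_powerset.mp h2
    rw [hδ, hpb]
    rw [hU]
    exact bad_prob hs hSU (fun e he => mem_edgesOf.mp (hSU he)) h3 h4.le
  have hEIJ : Ex δ U IJ = δ * inflTotal p U f := by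
    simp only [IJ]
    rw [Ex_sum]
    unfold inflTotal
    rw [Finset.mul_sum]
    apply Finset.sum_congr rfl
    intro e he
    have h1 : (fun J => if e ∈ J then infl p U f e else 0)
        = fun J : Finset (Finset β) => infl p U f e * (if e ∈ J then 1 else 0) := by
      funext J
      split_ifs <;> simp
    rw [h1, Ex_mul_left, Ex_mem δ he]
    ring
  obtain ⟨J, hJU, hJ⟩ := exists_le_Ex hδ0.le hδ1 U
    (fun J => (1 / (pb * W)) * BJ J + (1 / (δ * Y)) * IJ J)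
  have hEF : Ex δ U (fun J => (1 / (pb * W)) * BJ J + (1 / (δ * Y)) * IJ J) ≤ 2 := by
    rw [Ex_add, Ex_mul_left, Ex_mul_left, hEIJ]
    have h1 : (1 / (pb * W)) * Ex δ U BJ ≤ 1 := by
      rw [div_mul_eq_mul_div, one_mul, div_le_one (by positivity)]
      exact hEBJ
    have h2 : (1 / (δ * Y)) * (δ * inflTotal p U f) ≤ 1 := by
      rw [div_mul_eq_mul_div, one_mul, div_le_one (by positivity)]
      exact mul_le_mul_of_nonneg_left hI hδ0.le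
    linarith
  have hJ2 := hJ.trans hEF
  refine ⟨J, hU ▸ hJU, ?_, ?_⟩
  · have h1 : 0 ≤ (1 / (δ * Y)) * IJ J := mul_nonneg (by positivity) (hIJ0 J)
    have h2 : (1 / (pb * W)) * BJ J ≤ 2 := by linarith
    rwa [div_mul_eq_mul_div, one_mul, div_le_iff₀ (by positivity)] at h2
  · have h1 : 0 ≤ (1 / (pb * W)) * BJ J := mul_nonneg (by positivity) (hBJ0 J)
    have h2 : (1 / (δ * Y)) * IJ J ≤ 2 := by linarith
    have h3 : ∑ e ∈ J, infl p U f e = IJ J := by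
      simp only [IJ]
      rw [Finset.sum_ite_mem, Finset.inter_eq_right.mpr hJU]
    rw [h3]
    rwa [div_mul_eq_mul_div, one_mul, div_le_iff₀ (by positivity)] at h2

/-- The main estimate on one band. -/
theorem band_bound (hp : 0 < p) (hp1 : p < 1) {f : Finset (Finset β) → ℝ}
    (hB : IsBoolOn (edgesOf β) f) (hM : IsMonoOn (edgesOf β) f) (hf : IsSymOn f) {s : ℕ}
    (hs : 1 ≤ s) {Y : ℝ} (hY : 1 ≤ Y) (hI : inflTotal p (edgesOf β) f ≤ Y)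
    (hparam : bB p ^ (16896 * s) * POLY s Y ≤ Fintype.card β) :
    ∑ S ∈ bandOf β s, fc p (edgesOf β) f S ^ 2 ≤ 415 / (s : ℝ) := by
  have hs0 : (1 : ℝ) ≤ s := by exact_mod_cast hs
  have hs1 : (0 : ℝ) < s := by linarith
  have hW0 : 0 ≤ ∑ S ∈ bandOf β s, fc p (edgesOf β) f S ^ 2 :=
    Finset.sum_nonneg fun _ _ => sq_nonneg _
  rcases hW0.eq_or_lt with hW00 | hWpos
  · rw [← hW00]
    positivity
  obtain ⟨J, hJU, hJB, hJI⟩ := choose_J hp hp1 hB hM hs hY hI hWpos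
  have hB1 : 1 ≤ bB p := one_le_bB hp hp1
  have h𝔅U : bandOf β s ⊆ (edgesOf β).powerset := Finset.filter_subset _ _
  have hW1 : ∑ S ∈ bandOf β s, fc p (edgesOf β) f S ^ 2 ≤ 1 := by
    refine le_trans ?_ (sum_fc_sq_le_one hp hp1 hB)
    exact Finset.sum_le_sum_of_subset_of_nonneg h𝔅U (fun _ _ _ => sq_nonneg _)
  obtain ⟨B, hBd⟩ : ∃ B, B = bB p := ⟨_, rfl⟩
  have hB1' : 1 ≤ B := by rw [hBd]; exact hB1
  have hB0 : 0 < B := by linarith
  have hY0 : 0 < Y := by linarith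
  obtain ⟨K, hK⟩ : ∃ K : ℝ, K = 6 * Y := ⟨_, rfl⟩
  have hK0 : 0 < K := by rw [hK]; positivity
  have hBD : 0 < B ^ (64 * s) := pow_pos hB0 _
  obtain ⟨G, hG⟩ : ∃ G : ℝ, G = 1 + K * (K * B ^ (64 * s)) ^ 2 := ⟨_, rfl⟩
  have hG0 : 0 < G := by rw [hG]; positivity
  have hG' : 1 + K / (1 / (K * B ^ (64 * s))) ^ 2 = G := by
    rw [hG]
    congr 1
    field_simp
  have ht0 : 0 < 8 * (s : ℝ) := by positivity
  obtain ⟨β', hβ'⟩ : ∃ β' : ℝ, β' = 1 / (3 * (8 * (s : ℝ)) * G ^ (32 * s)) := ⟨_, rfl⟩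
  have hβ'0 : 0 < β' := by rw [hβ']; positivity
  have hnle : (256 * (s : ℝ)) ≤ (Fintype.card β : ℝ) := card_ge hB1 hY hs hparam
  have hnle' : 256 * s ≤ Fintype.card β := by exact_mod_cast hnle
  obtain ⟨X, hX⟩ : ∃ X : ℝ, X = (Fintype.card β : ℝ) / (256 * s) := ⟨_, rfl⟩
  have hX0 : 0 < X := by
    rw [hX]
    apply div_pos
    · linarith
    · positivity
  have hXs : 0 < X ^ s := pow_pos hX0 s
  have hΔ1 : 1 ≤ 256 * s ^ 2 := by
    have : 1 ≤ s ^ 2 := Nat.one_le_pow _ _ hs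
    omega
  have hΔR : (((256 * s ^ 2 : ℕ)) : ℝ) = 256 * (s : ℝ) ^ 2 := by
    push_cast
    ring
  have hmmax0 : 0 ≤ (((256 * s ^ 2 : ℕ)) : ℝ) ^ (64 * s) / X ^ s := by positivity
  have hm : ∀ T, T ⊆ J → goodT s T → fibMass p (edgesOf β) J f (bandOf β s) T
      ≤ (((256 * s ^ 2 : ℕ)) : ℝ) ^ (64 * s) / X ^ s := by
    intro T hT hG
    rw [hX]
    exact good_fib_bound hf (fun π S hS => bandOf_map s π hS) hΔ1
      (fun S hS => (Finset.mem_filter.mp hS).2.2.le) hs hnle' hW1 J (hT.trans hJU) hG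
  have hΛ4 : (β' / (8 * (s : ℝ))) ^ 4 = 1 / ((192 * (s : ℝ) ^ 2) ^ 4 * G ^ (128 * s)) := by
    rw [hβ']
    have e : G ^ (128 * s) = (G ^ (32 * s)) ^ 4 := by
      rw [← pow_mul]
      congr 1
      ring
    rw [e]
    have hG32 : 0 < G ^ (32 * s) := by positivity
    generalize G ^ (32 * s) = x at *
    field_simp
    ring
  have hN := param_ineq hB1 hY hs hparam
  rw [← hBd, ← hK, ← hG, ← hX] at hN
  have hQ : B ^ (2 * (256 * s ^ 2)) * ((((256 * s ^ 2 : ℕ)) : ℝ) ^ (64 * s) / X ^ s)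
      * ∑ S ∈ bandOf β s, fc p (edgesOf β) f S ^ 2 ≤ (β' / (8 * (s : ℝ))) ^ 4 := by
    have h0 : 0 ≤ B ^ (2 * (256 * s ^ 2)) * ((((256 * s ^ 2 : ℕ)) : ℝ) ^ (64 * s) / X ^ s) := by
      positivity
    refine (mul_le_of_le_one_right h0 hW1).trans ?_
    rw [hΛ4, hΔR, le_div_iff₀ (by positivity)]
    generalize B ^ (2 * (256 * s ^ 2)) = x1 at *
    generalize (256 * (s : ℝ) ^ 2) ^ (64 * s) = x2 at *
    generalize (192 * (s : ℝ) ^ 2) ^ 4 = x3 at *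
    generalize G ^ (128 * s) = x4 at *
    have e : x1 * (x2 / X ^ s) * (x3 * x4) = (x1 * x2 * x3 * x4) / X ^ s := by ring
    rw [e, div_le_one hXs]
    exact hN
  have hmain := band_fixed hp hp1 hB hM hJU h𝔅U (Δ := 256 * s ^ 2)
    (fun S hS => (Finset.mem_filter.mp hS).2.2.le) (goodT s) (64 * s) (fun T hT => hT.1) hmmax0 hm
    (a := 4 * (129 / (s : ℝ))) (b := 4) (β := β') (Λ := β' / (8 * (s : ℝ)))
    (κ := 1 / (K * B ^ (64 * s))) (A₀ := K)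
    (by positivity) (by norm_num) hβ'0 (by positivity) (by positivity) hK0 (by rw [← hBd]; exact hQ)
  rw [hG', ← hBd, hK] at hmain
  have hGβ : G ^ (64 * s) * β' ^ 2 = 1 / (3 * (8 * (s : ℝ))) ^ 2 := by
    rw [hβ']
    have e3 : G ^ (64 * s) = (G ^ (32 * s)) ^ 2 := by
      rw [← pow_mul]
      congr 1
      ring
    rw [e3]
    have hG32 : 0 < G ^ (32 * s) := by positivity
    generalize G ^ (32 * s) = x at *
    field_simp
  exact band_numeric hs0 hY hB1' hWpos hβ'0 hJB hJI hGβ hmain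

end graph

end Vale.Agent.P063X
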