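/-
P063: the total influence of a graph property is at least of order the square of `log n`.
-/
import Vale.Agent.P063X.BandBound

open Finset

namespace Vale.Agent.P063X

lemma eventually_poly_le_exp (C : ℝ) (k : ℕ) : ∃ L₀ : ℝ, ∀ L, L₀ ≤ L → C * L ^ k ≤ Real.exp L := by
  by_cases hC : C ≤ 0
  · refine ⟨0, fun L hL => ?_⟩
    have h1 : C * L ^ k ≤ 0 := mul_nonpos_of_nonpos_of_nonneg hC (pow_nonneg hL k)
    exact h1.trans (Real.exp_pos L).le
  · push Not at hC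
    have h := Real.tendsto_pow_mul_exp_neg_atTop_nhds_zero k
    have h2 : ∀ᶠ x in Filter.atTop, x ^ k * Real.exp (-x) < 1 / C :=
      h.eventually (gt_mem_nhds (by positivity))
    obtain ⟨L₀, hL₀⟩ := Filter.eventually_atTop.mp h2
    refine ⟨L₀, fun L hL => ?_⟩
    have h3 := hL₀ L hL
    rw [Real.exp_neg, lt_div_iff₀ hC, ← div_eq_mul_inv, div_mul_eq_mul_div, div_lt_iff₀ (Real.exp_pos L)] at h3
    nlinarith

/-- The constant in the polylogarithmic bound. -/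
noncomputable def C₁ : ℝ := (256 : ℝ) ^ 64 * (192 : ℝ) ^ 4 * (2 : ℝ) ^ 128 * (12 : ℝ) ^ 384 * 256

lemma C₁_pos : 0 < C₁ := by
  unfold C₁
  have h1 : (0 : ℝ) < (256 : ℝ) ^ 64 := pow_pos (by norm_num) _
  have h2 : (0 : ℝ) < (192 : ℝ) ^ 4 := pow_pos (by norm_num) _
  have h3 : (0 : ℝ) < (2 : ℝ) ^ 128 := pow_pos (by norm_num) _
  have h4 : (0 : ℝ) < (12 : ℝ) ^ 384 := pow_pos (by norm_num) _
  generalize (256 : ℝ) ^ 64 = a at *
  generalize (192 : ℝ) ^ 4 = b at *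
  generalize (2 : ℝ) ^ 128 = c at *
  generalize (12 : ℝ) ^ 384 = d at *
  positivity

lemma POLY_le {s : ℕ} {L : ℝ} (hs : 1 ≤ s) (hsL : (s : ℝ) ≤ L) :
    POLY s (L ^ 2 + 1) ≤ C₁ * L ^ 905 := by
  have hs0 : (1 : ℝ) ≤ s := by exact_mod_cast hs
  have hL1 : 1 ≤ L := hs0.trans hsL
  have hL0 : 0 ≤ L := by linarith
  have hss : (s : ℝ) ^ 2 ≤ L ^ 2 := pow_le_pow_left₀ (by linarith) hsL 2
  have hs2 : (0 : ℝ) ≤ (s : ℝ) ^ 2 := by positivity
  have hLL : 1 ≤ L ^ 2 := one_le_pow₀ hL1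
  have h1 : (256 * (s : ℝ) ^ 2) ^ 64 ≤ (256 : ℝ) ^ 64 * L ^ 128 := by
    refine (pow_le_pow_left₀ (by positivity) (by linarith : 256 * (s : ℝ) ^ 2 ≤ 256 * L ^ 2) 64).trans
      (le_of_eq ?_)
    rw [mul_pow, ← pow_mul]
  have h2 : (192 * (s : ℝ) ^ 2) ^ 4 ≤ (192 : ℝ) ^ 4 * L ^ 8 := by
    refine (pow_le_pow_left₀ (by positivity) (by linarith : 192 * (s : ℝ) ^ 2 ≤ 192 * L ^ 2) 4).trans
      (le_of_eq ?_)
    rw [mul_pow, ← pow_mul]
  have h3 : (6 * (L ^ 2 + 1)) ^ 384 ≤ (12 : ℝ) ^ 384 * L ^ 768 := by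
    refine (pow_le_pow_left₀ (by positivity) (by linarith : 6 * (L ^ 2 + 1) ≤ 12 * L ^ 2) 384).trans
      (le_of_eq ?_)
    rw [mul_pow, ← pow_mul]
  have h4 : 256 * (s : ℝ) ≤ 256 * L := by linarith
  unfold POLY C₁
  have p1 : (0 : ℝ) < (256 : ℝ) ^ 64 := pow_pos (by norm_num) _
  have p2 : (0 : ℝ) < (192 : ℝ) ^ 4 := pow_pos (by norm_num) _
  have p3 : (0 : ℝ) < (2 : ℝ) ^ 128 := pow_pos (by norm_num) _
  have p4 : (0 : ℝ) < (12 : ℝ) ^ 384 := pow_pos (by norm_num) _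
  have q1 : 0 ≤ (256 * (s : ℝ) ^ 2) ^ 64 := pow_nonneg (by positivity) _
  have q2 : 0 ≤ (192 * (s : ℝ) ^ 2) ^ 4 := pow_nonneg (by positivity) _
  have q3 : 0 ≤ (6 * (L ^ 2 + 1)) ^ 384 := pow_nonneg (by positivity) _
  have q4 : 0 ≤ 256 * (s : ℝ) := by positivity
  have r1 : 0 ≤ L ^ 128 := pow_nonneg hL0 _
  have r2 : 0 ≤ L ^ 8 := pow_nonneg hL0 _
  have r3 : 0 ≤ L ^ 768 := pow_nonneg hL0 _
  generalize (256 : ℝ) ^ 64 = a at *
  generalize (192 : ℝ) ^ 4 = b at *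
  generalize (2 : ℝ) ^ 128 = c at *
  generalize (12 : ℝ) ^ 384 = d at *
  generalize (256 * (s : ℝ) ^ 2) ^ 64 = x1 at *
  generalize (192 * (s : ℝ) ^ 2) ^ 4 = x2 at *
  generalize (6 * (L ^ 2 + 1)) ^ 384 = x3 at *
  have e : a * b * c * d * 256 * L ^ 905 = (a * L ^ 128) * (b * L ^ 8) * c * (d * L ^ 768) * (256 * L) := by
    ring
  rw [e]
  have s1 : x1 * x2 ≤ (a * L ^ 128) * (b * L ^ 8) := mul_le_mul h1 h2 q2 (by positivity)
  have s2 : x1 * x2 * c ≤ (a * L ^ 128) * (b * L ^ 8) * c := mul_le_mul_of_nonneg_right s1 p3.le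
  have s3 : x1 * x2 * c * x3 ≤ (a * L ^ 128) * (b * L ^ 8) * c * (d * L ^ 768) :=
    mul_le_mul s2 h3 q3 (by positivity)
  exact mul_le_mul s3 h4 q4 (by positivity)

/-- The parameter condition from the size of `s`. -/
lemma hparam_of {B L : ℝ} {s : ℕ} (hs : 1 ≤ s) (hB : 1 ≤ B) (hsL : (s : ℝ) ≤ L)
    (h1 : 33792 * (s : ℝ) * Real.log B ≤ L) (h2 : (C₁ * L ^ 905) ^ 2 ≤ Real.exp L) :
    B ^ (16896 * s) * POLY s (L ^ 2 + 1) ≤ Real.exp L := by
  have hB0 : 0 < B := by linarith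
  have hs0 : (1 : ℝ) ≤ s := by exact_mod_cast hs
  have hx : (B ^ (16896 * s)) ^ 2 ≤ Real.exp L := by
    rw [← pow_mul, ← Real.log_le_iff_le_exp (pow_pos hB0 _), Real.log_pow]
    have e : ((16896 * s * 2 : ℕ) : ℝ) = 33792 * (s : ℝ) := by
      push_cast
      ring
    rw [e]
    exact h1
  have hy0 : 0 ≤ POLY s (L ^ 2 + 1) := by
    have := poly_ge (Y := L ^ 2 + 1) hs (by nlinarith [sq_nonneg L])
    have h3 : (0 : ℝ) ≤ 256 * (s : ℝ) := by positivity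
    linarith
  have hy : POLY s (L ^ 2 + 1) ^ 2 ≤ Real.exp L :=
    (pow_le_pow_left₀ hy0 (POLY_le hs hsL) 2).trans h2
  apply le_of_sq_le' (Real.exp_pos L).le
  rw [mul_pow, sq (Real.exp L)]
  exact mul_le_mul hx hy (by positivity) (Real.exp_pos L).le

section graph
variable (β : Type*) [Fintype β] [DecidableEq β]

/-- The mass below a level. -/
noncomputable def lowMass (p : ℝ) (f : Finset (Finset β) → ℝ) (k : ℕ) : ℝ :=
  ∑ S ∈ (edgesOf β).powerset,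
    if S ≠ ∅ ∧ S.card < 64 * 4 ^ k then fc p (edgesOf β) f S ^ 2 else 0

variable {β}
variable {p : ℝ} {f : Finset (Finset β) → ℝ}

lemma lowMass_nonneg (k : ℕ) : 0 ≤ lowMass β p f k := by
  apply Finset.sum_nonneg
  intro S _
  split_ifs
  · exact sq_nonneg _
  · exact le_rfl

lemma lowMass_step (j : ℕ) :
    lowMass β p f (j + 1)
      ≤ lowMass β p f j + ∑ S ∈ bandOf β (2 ^ j), fc p (edgesOf β) f S ^ 2 := by
  unfold lowMass bandOf
  rw [Finset.sum_filter, ← Finset.sum_add_distrib]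
  apply Finset.sum_le_sum
  intro S _
  have e : ((2 : ℕ) ^ j) ^ 2 = 4 ^ j := by
    rw [← pow_mul, mul_comm, pow_mul]
    norm_num
  rw [e]
  have hnn : 0 ≤ fc p (edgesOf β) f S ^ 2 := sq_nonneg _
  by_cases h : S ≠ ∅ ∧ S.card < 64 * 4 ^ (j + 1)
  · rw [if_pos h]
    by_cases h2 : S.card < 64 * 4 ^ j
    · rw [if_pos ⟨h.1, h2⟩]
      have : 0 ≤ (if 64 * 4 ^ j ≤ S.card ∧ S.card < 256 * 4 ^ j then fc p (edgesOf β) f S ^ 2 else 0) := by
        split_ifs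
        · exact hnn
        · exact le_rfl
      linarith
    · rw [if_neg (fun h3 => h2 h3.2)]
      have h3 : 64 * 4 ^ j ≤ S.card ∧ S.card < 256 * 4 ^ j := by
        refine ⟨by omega, ?_⟩
        have := h.2
        rw [pow_succ] at this
        omega
      rw [if_pos h3, zero_add]
  · rw [if_neg h]
    apply add_nonneg
    · split_ifs
      · exact hnn
      · exact le_rfl
    · split_ifs
      · exact hnn
      · exact le_rfl

lemma lowMass_tele (j₀ r : ℕ)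
    (hband : ∀ j, j₀ ≤ j → j < j₀ + r →
      ∑ S ∈ bandOf β (2 ^ j), fc p (edgesOf β) f S ^ 2 ≤ 415 / ((2 : ℝ) ^ j)) :
    lowMass β p f (j₀ + r) ≤ lowMass β p f j₀ + 830 / (2 : ℝ) ^ j₀ := by
  have key : lowMass β p f (j₀ + r)
      ≤ lowMass β p f j₀ + 830 * (1 / (2 : ℝ) ^ j₀ - 1 / (2 : ℝ) ^ (j₀ + r)) := by
    induction r with
    | zero => simp
    | succ r ih =>
      have h1 := ih (fun j h2 h3 => hband j h2 (by omega))
      have h2 := lowMass_step (β := β) (p := p) (f := f) (j₀ + r)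
      have h3 := hband (j₀ + r) (by omega) (by omega)
      have e : j₀ + (r + 1) = j₀ + r + 1 := rfl
      rw [e]
      have e2 : (2 : ℝ) ^ (j₀ + r + 1) = 2 * (2 : ℝ) ^ (j₀ + r) := by
        rw [pow_succ]
        ring
      rw [e2]
      have hp : (0 : ℝ) < (2 : ℝ) ^ (j₀ + r) := by positivity
      have e3 : 830 * (1 / (2 : ℝ) ^ j₀ - 1 / (2 * (2 : ℝ) ^ (j₀ + r)))
          = 830 * (1 / (2 : ℝ) ^ j₀ - 1 / (2 : ℝ) ^ (j₀ + r)) + 415 / (2 : ℝ) ^ (j₀ + r) := by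
        field_simp
        ring
      rw [e3]
      linarith
  refine key.trans ?_
  have hp : (0 : ℝ) < 1 / (2 : ℝ) ^ (j₀ + r) := by positivity
  have e : (830 : ℝ) / (2 : ℝ) ^ j₀ = 830 * (1 / (2 : ℝ) ^ j₀) := by ring
  rw [e]
  linarith

lemma var_eq_sum (hp : 0 < p) (hp1 : p < 1) (hB : IsBoolOn (edgesOf β) f) :
    Ex p (edgesOf β) f - Ex p (edgesOf β) f ^ 2
      = ∑ S ∈ (edgesOf β).powerset, if S ≠ ∅ then fc p (edgesOf β) f S ^ 2 else 0 := by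
  rw [← sum_fc_sq_nonempty hp hp1 hB, ← Finset.sum_filter, Finset.filter_ne']

lemma high_bound (hp : 0 < p) (hp1 : p < 1) (hB : IsBoolOn (edgesOf β) f)
    (hM : IsMonoOn (edgesOf β) f) (k : ℕ) :
    64 * 4 ^ k * ((Ex p (edgesOf β) f - Ex p (edgesOf β) f ^ 2) - lowMass β p f k)
      ≤ sg p ^ 2 * inflTotal p (edgesOf β) f := by
  rw [← spectral_sum hp hp1 hB hM, var_eq_sum hp hp1 hB]
  unfold lowMass
  rw [← Finset.sum_sub_distrib, Finset.mul_sum]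
  apply Finset.sum_le_sum
  intro S _
  have hnn : 0 ≤ fc p (edgesOf β) f S ^ 2 := sq_nonneg _
  have hc : (0 : ℝ) ≤ S.card := by positivity
  by_cases h1 : S ≠ ∅
  · rw [if_pos h1]
    by_cases h2 : S.card < 64 * 4 ^ k
    · rw [if_pos ⟨h1, h2⟩, sub_self, mul_zero]
      exact mul_nonneg hc hnn
    · rw [if_neg (fun h3 => h2 h3.2), sub_zero]
      apply mul_le_mul_of_nonneg_right _ hnn
      push Not at h2
      exact_mod_cast h2
  · rw [if_neg h1, if_neg (fun h3 => h1 h3.1), sub_zero, mul_zero]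
    exact mul_nonneg hc hnn

lemma var_le (hp : 0 < p) (hp1 : p < 1) (hB : IsBoolOn (edgesOf β) f)
    (hM : IsMonoOn (edgesOf β) f) :
    Ex p (edgesOf β) f - Ex p (edgesOf β) f ^ 2 ≤ sg p ^ 2 * inflTotal p (edgesOf β) f := by
  rw [← spectral_sum hp hp1 hB hM, var_eq_sum hp hp1 hB]
  apply Finset.sum_le_sum
  intro S _
  have hnn : 0 ≤ fc p (edgesOf β) f S ^ 2 := sq_nonneg _
  by_cases h1 : S ≠ ∅
  · rw [if_pos h1]
    have h2 : 1 ≤ S.card := Finset.card_pos.mpr (Finset.nonempty_iff_ne_empty.mpr h1)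
    have h3 : (1 : ℝ) ≤ S.card := by exact_mod_cast h2
    nlinarith
  · rw [if_neg h1]
    positivity

lemma infl_eq (hf : IsSymOn f) {e : Finset β} (he : e ∈ edgesOf β) :
    ((edgesOf β).card : ℝ) * infl p (edgesOf β) f e = inflTotal p (edgesOf β) f := by
  unfold inflTotal
  have h1 : ∀ e' ∈ edgesOf β, infl p (edgesOf β) f e' = infl p (edgesOf β) f e := by
    intro e' he'
    have hc : e.card = e'.card := by
      rw [mem_edgesOf.mp he, mem_edgesOf.mp he']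
    obtain ⟨π, hπ⟩ := exists_perm_map e e' hc
    have h2 := infl_map (p := p) (rho π) (edges_map π) (hf π) he
    have h3 : (rho π) e = e' := hπ
    rwa [h3] at h2
  rw [Finset.sum_congr rfl h1, Finset.sum_const, nsmul_eq_mul]

lemma kkl_low (hp : 0 < p) (hp1 : p < 1) (hB : IsBoolOn (edgesOf β) f)
    (hM : IsMonoOn (edgesOf β) f) (k : ℕ) {κ : ℝ} (hκ : 0 ≤ κ)
    (hκ2 : ∀ e ∈ edgesOf β, infl p (edgesOf β) f e ≤ κ ^ 2) :
    lowMass β p f k ≤ inflTotal p (edgesOf β) f * κ * bB p ^ (64 * 4 ^ k) := by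
  have h := mass_out hp hp1 hB hM ∅ (64 * 4 ^ k) hκ (fun e he _ => hκ2 e he)
  rw [Finset.sdiff_empty] at h
  refine le_trans ?_ h
  unfold lowMass
  apply Finset.sum_le_sum
  intro S _
  by_cases h1 : S ≠ ∅ ∧ S.card < 64 * 4 ^ k
  · rw [if_pos h1, if_pos ⟨h1.2.le, fun h2 => h1.1 (Finset.subset_empty.mp h2)⟩]
  · rw [if_neg h1]
    split_ifs
    · exact sq_nonneg _
    · exact le_rfl

end graph

end Vale.Agent.P063X
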