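/-
P063: the total influence of a graph property is at least of order the square of `log n`.
-/
import Vale.Agent.P063X.Main

open Finset

namespace Vale.Agent.P063X

variable {n : ℕ} {p : ℝ} {f : Finset (Finset (Fin n)) → ℝ}

lemma card_edges_lower (hn : 2 ≤ n) : (n : ℝ) ^ 2 / 4 ≤ ((edgesOf (Fin n)).card : ℝ) := by
  have h1 : (edgesOf (Fin n)).card = n.choose 2 := by
    unfold edgesOf
    rw [Finset.card_powersetCard, Finset.card_univ, Fintype.card_fin]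
  rw [h1, Nat.cast_choose_two]
  have h2 : (2 : ℝ) ≤ n := by exact_mod_cast hn
  nlinarith

lemma infl_le_kappa (hn : 2 ≤ n) (hp : 0 < p) (hp1 : p < 1) (hB : IsBoolOn (edgesOf (Fin n)) f)
    (hM : IsMonoOn (edgesOf (Fin n)) f) (hf : IsSymOn f) {L : ℝ} (hL0 : 0 < L)
    (hI' : inflTotal p (edgesOf (Fin n)) f ≤ L ^ 2 + 1) {e : Finset (Fin n)} (he : e ∈ edgesOf (Fin n)) :
    infl p (edgesOf (Fin n)) f e ≤ (2 * (L + 1) / n) ^ 2 := by
  have hn0 : (0 : ℝ) < n := by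
    have : 0 < n := by omega
    exact_mod_cast this
  have h1 := infl_eq (p := p) hf he
  have h2 := card_edges_lower hn
  have h3 := infl_nonneg hp hp1 hB hM he
  have h5 := mul_le_mul_of_nonneg_right h2 h3
  rw [h1] at h5
  have h6 : L ^ 2 + 1 ≤ (L + 1) ^ 2 := by
    have : 0 ≤ 2 * L := by linarith
    have e1 : (L + 1) ^ 2 = L ^ 2 + 1 + 2 * L := by ring
    rw [e1]
    linarith
  rw [div_pow, le_div_iff₀ (by positivity)]
  have e1 : infl p (edgesOf (Fin n)) f e * (n : ℝ) ^ 2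
      = 4 * ((n : ℝ) ^ 2 / 4 * infl p (edgesOf (Fin n)) f e) := by ring
  have e2 : (2 * (L + 1)) ^ 2 = 4 * (L + 1) ^ 2 := by ring
  rw [e1, e2]
  linarith

lemma low_le (hn : 2 ≤ n) (hp : 0 < p) (hp1 : p < 1) (hB : IsBoolOn (edgesOf (Fin n)) f)
    (hM : IsMonoOn (edgesOf (Fin n)) f) (hf : IsSymOn f) {v : ℝ} {j₀ : ℕ} {L : ℝ}
    (hL : L = Real.log n) (hL0 : 0 < L) (hBlt : bB p ≤ 2 * L)
    (hI' : inflTotal p (edgesOf (Fin n)) f ≤ L ^ 2 + 1)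
    (E2 : (L ^ 2 + 1) * (2 * (L + 1)) * (2 * L) ^ (64 * 4 ^ j₀) ≤ (v / 4) * Real.exp L) :
    lowMass (Fin n) p f j₀ ≤ v / 4 := by
  have hn0 : (0 : ℝ) < n := by
    have : 0 < n := by omega
    exact_mod_cast this
  have hnR : (n : ℝ) = Real.exp L := by
    rw [hL, Real.exp_log hn0]
  have hB0 := bB_pos hp hp1
  have hκ0 : 0 ≤ 2 * (L + 1) / (n : ℝ) := by positivity
  refine (kkl_low hp hp1 hB hM j₀ hκ0
    (fun e he => infl_le_kappa hn hp hp1 hB hM hf hL0 hI' he)).trans ?_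
  have h1 : bB p ^ (64 * 4 ^ j₀) ≤ (2 * L) ^ (64 * 4 ^ j₀) :=
    pow_le_pow_left₀ hB0.le hBlt _
  have h2 : inflTotal p (edgesOf (Fin n)) f * (2 * (L + 1) / (n : ℝ)) ≤ (L ^ 2 + 1) * (2 * (L + 1) / (n : ℝ)) :=
    mul_le_mul_of_nonneg_right hI' hκ0
  have h3 : 0 ≤ (L ^ 2 + 1) * (2 * (L + 1) / (n : ℝ)) := by positivity
  have h4 := mul_le_mul h2 h1 (pow_nonneg hB0.le _) h3
  refine h4.trans ?_
  have h5 : (L ^ 2 + 1) * (2 * (L + 1) / (n : ℝ)) * (2 * L) ^ (64 * 4 ^ j₀)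
      = ((L ^ 2 + 1) * (2 * (L + 1)) * (2 * L) ^ (64 * 4 ^ j₀)) / n := by
    ring
  rw [h5, div_le_iff₀ hn0, hnR]
  exact E2

lemma hard_finish {I σ v x ℓ L jM V lowM : ℝ} (hσ0 : 0 < σ) (hv : 0 < v) (hI : 0 ≤ I)
    (hℓ0 : 0 ≤ ℓ) (hℓ3 : σ * ℓ ≤ 2) (hxL : x * (33792 * ℓ) = L) (hx0 : 0 ≤ x)
    (h4x : x ^ 2 ≤ jM) (hvar2 : v / 2 ≤ V - lowM)
    (hhigh : 64 * jM * (V - lowM) ≤ σ ^ 2 * I) :
    (32 * v / 67584 ^ 2) * L ^ 2 ≤ I := by
  have hjM : 0 ≤ jM := (sq_nonneg x).trans h4x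
  have h5 : 32 * x ^ 2 * v ≤ σ ^ 2 * I := by
    refine le_trans ?_ hhigh
    have h7 : 64 * jM * (v / 2) ≤ 64 * jM * (V - lowM) :=
      mul_le_mul_of_nonneg_left hvar2 (by positivity)
    have h8 : x ^ 2 * v ≤ jM * v := mul_le_mul_of_nonneg_right h4x hv.le
    have e : 64 * jM * (v / 2) = 32 * (jM * v) := by ring
    rw [e] at h7
    have e2 : 32 * x ^ 2 * v = 32 * (x ^ 2 * v) := by ring
    rw [e2]
    linarith
  have hσ2 : 0 < σ ^ 2 := by positivity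
  apply le_of_mul_le_mul_left _ hσ2
  refine le_trans ?_ h5
  have e1 : L = x * (33792 * ℓ) := hxL.symm
  have h6 : (σ * ℓ) ^ 2 ≤ 4 := by
    have h7 : 0 ≤ σ * ℓ := by positivity
    have := pow_le_pow_left₀ h7 hℓ3 2
    norm_num at this
    exact this
  have hxv : 0 ≤ 32 * x ^ 2 * v := by positivity
  calc σ ^ 2 * ((32 * v / 67584 ^ 2) * L ^ 2)
      = (32 * x ^ 2 * v) * ((σ * ℓ) ^ 2 / 4) := by
        rw [e1]
        ring
    _ ≤ (32 * x ^ 2 * v) * 1 := by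
        apply mul_le_mul_of_nonneg_left _ hxv
        linarith
    _ = 32 * x ^ 2 * v := mul_one _

lemma band_of_le (hn : 2 ≤ n) (hp : 0 < p) (hp1 : p < 1) (hB : IsBoolOn (edgesOf (Fin n)) f)
    (hM : IsMonoOn (edgesOf (Fin n)) f) (hf : IsSymOn f) {L x : ℝ} (hL : L = Real.log n)
    (hxL : x * (33792 * Real.log (bB p)) = L) (hx2 : x ≤ L) (hℓp : 0 < 33792 * Real.log (bB p))
    (E1 : (C₁ * L ^ 905) ^ 2 ≤ Real.exp L)
    (hI' : inflTotal p (edgesOf (Fin n)) f ≤ L ^ 2 + 1) {j : ℕ} (hsx : (2 : ℝ) ^ j ≤ x) :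
    ∑ S ∈ bandOf (Fin n) (2 ^ j), fc p (edgesOf (Fin n)) f S ^ 2 ≤ 415 / ((2 : ℝ) ^ j) := by
  have hn0 : (0 : ℝ) < n := by
    have : 0 < n := by omega
    exact_mod_cast this
  have hnR : (n : ℝ) = Real.exp L := by
    rw [hL, Real.exp_log hn0]
  have hY1 : (1 : ℝ) ≤ L ^ 2 + 1 := by
    have := sq_nonneg L
    linarith
  have hB1 := one_le_bB hp hp1
  have hs : 1 ≤ 2 ^ j := Nat.one_le_two_pow
  have hsx' : (((2 ^ j : ℕ)) : ℝ) ≤ x := by
    push_cast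
    exact hsx
  have h1 : 33792 * (((2 ^ j : ℕ)) : ℝ) * Real.log (bB p) ≤ L := by
    rw [← hxL]
    have := mul_le_mul_of_nonneg_right hsx' hℓp.le
    linarith
  have hparam := hparam_of hs hB1 (hsx'.trans hx2) h1 E1
  have hparam' : bB p ^ (16896 * 2 ^ j) * POLY (2 ^ j) (L ^ 2 + 1) ≤ (Fintype.card (Fin n) : ℝ) := by
    rw [Fintype.card_fin, hnR]
    exact hparam
  have h2 := band_bound hp hp1 hB hM hf hs hY1 hI' hparam'
  push_cast at h2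
  exact h2

/-- The bound in the case of polynomially bounded influence and not too small variance of a bit. -/
lemma hard_case (hn : 2 ≤ n) (hp : 0 < p) (hp1 : p < 1) (hB : IsBoolOn (edgesOf (Fin n)) f)
    (hM : IsMonoOn (edgesOf (Fin n)) f) (hf : IsSymOn f) {v : ℝ} (hv : 0 < v)
    (hVar : v ≤ Ex p (edgesOf (Fin n)) f - Ex p (edgesOf (Fin n)) f ^ 2) {j₀ : ℕ}
    (hj₀ : 830 / (2 : ℝ) ^ j₀ ≤ v / 4) {L : ℝ} (hL : L = Real.log n) (hL1 : 1 ≤ L)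
    (E1 : (C₁ * L ^ 905) ^ 2 ≤ Real.exp L)
    (E2 : (L ^ 2 + 1) * (2 * (L + 1)) * (2 * L) ^ (64 * 4 ^ j₀) ≤ (v / 4) * Real.exp L)
    (E3 : (2 : ℝ) ^ j₀ * 33792 * Real.log (2 * L) ≤ L)
    (hσ : 1 / L < sg p) (hI : inflTotal p (edgesOf (Fin n)) f < L ^ 2) :
    (32 * v / 67584 ^ 2) * L ^ 2 ≤ inflTotal p (edgesOf (Fin n)) f := by
  have hL0 : 0 < L := by linarith
  have hσ0 := sg_pos hp hp1
  have hB4 := four_le_bB hp hp1
  have hB0 : 0 < bB p := by linarith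
  have hB1 : 1 ≤ bB p := by linarith
  have hBlt : bB p ≤ 2 * L := by
    unfold bB
    rw [div_le_iff₀ hσ0]
    rw [div_lt_iff₀ hL0] at hσ
    have e : 2 * L * sg p = 2 * (sg p * L) := by ring
    rw [e]
    linarith
  obtain ⟨ℓ, hℓ⟩ : ∃ ℓ, ℓ = Real.log (bB p) := ⟨_, rfl⟩
  have hℓ1 : 1 ≤ ℓ := by
    rw [hℓ, Real.le_log_iff_exp_le hB0]
    have := Real.exp_one_lt_d9
    linarith
  have hℓ2 : ℓ ≤ Real.log (2 * L) := by
    rw [hℓ]
    exact Real.log_le_log hB0 hBlt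
  have hℓ3 : sg p * ℓ ≤ 2 := by
    have h1 : ℓ ≤ bB p := by
      have := Real.log_le_sub_one_of_pos hB0
      rw [hℓ]
      linarith
    have h2 : sg p * bB p = 2 := by
      unfold bB
      field_simp
    have := mul_le_mul_of_nonneg_left h1 hσ0.le
    linarith
  obtain ⟨x, hxd⟩ : ∃ x, x = L / (33792 * ℓ) := ⟨_, rfl⟩
  have hℓp : 0 < 33792 * ℓ := by linarith
  have hxL : x * (33792 * ℓ) = L := by
    rw [hxd]
    field_simp
  have hx1 : (2 : ℝ) ^ j₀ ≤ x := by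
    rw [hxd, le_div_iff₀ hℓp]
    have h1 : (0 : ℝ) < (2 : ℝ) ^ j₀ * 33792 := by positivity
    have h2 := mul_le_mul_of_nonneg_left hℓ2 h1.le
    have e : (2 : ℝ) ^ j₀ * (33792 * ℓ) = (2 : ℝ) ^ j₀ * 33792 * ℓ := by ring
    rw [e]
    linarith
  have hx2 : x ≤ L := by
    rw [hxd]
    apply div_le_self hL0.le
    linarith
  have hx1' : 1 ≤ x := (one_le_pow₀ (by norm_num)).trans hx1
  obtain ⟨jM, hjM1, hjM2⟩ := exists_nat_pow_near hx1' (by norm_num : (1 : ℝ) < 2)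
  have hj₀M : j₀ ≤ jM := by
    by_contra hc
    push Not at hc
    have h1 : (2 : ℝ) ^ (jM + 1) ≤ (2 : ℝ) ^ j₀ := pow_le_pow_right₀ (by norm_num) hc
    linarith
  have hI' : inflTotal p (edgesOf (Fin n)) f ≤ L ^ 2 + 1 := by linarith
  have hI0 := inflTotal_nonneg hp hp1 hB hM
  have hband : ∀ j, j₀ ≤ j → j < j₀ + (jM + 1 - j₀) →
      ∑ S ∈ bandOf (Fin n) (2 ^ j), fc p (edgesOf (Fin n)) f S ^ 2 ≤ 415 / ((2 : ℝ) ^ j) := by
    intro j _ hj2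
    have hj : j ≤ jM := by omega
    apply band_of_le hn hp hp1 hB hM hf hL (x := x) (by rw [← hℓ]; exact hxL) hx2
      (by rw [← hℓ]; exact hℓp) E1 hI'
    exact (pow_le_pow_right₀ (by norm_num) hj).trans hjM1
  have htele := lowMass_tele (β := Fin n) (p := p) (f := f) j₀ (jM + 1 - j₀) hband
  have hjj : j₀ + (jM + 1 - j₀) = jM + 1 := by omega
  rw [hjj] at htele
  have hlow := low_le hn hp hp1 hB hM hf hL hL0 hBlt hI' E2
  have hsum : lowMass (Fin n) p f (jM + 1) ≤ v / 2 := by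
    linarith
  have hhigh := high_bound hp hp1 hB hM (jM + 1)
  have hvar2 : v / 2 ≤ (Ex p (edgesOf (Fin n)) f - Ex p (edgesOf (Fin n)) f ^ 2)
      - lowMass (Fin n) p f (jM + 1) := by linarith
  have h4x : x ^ 2 ≤ (4 : ℝ) ^ (jM + 1) := by
    have e : (4 : ℝ) ^ (jM + 1) = ((2 : ℝ) ^ (jM + 1)) ^ 2 := by
      rw [← pow_mul, mul_comm, pow_mul]
      norm_num
    rw [e]
    exact pow_le_pow_left₀ (by linarith) hjM2.le 2
  exact hard_finish hσ0 hv hI0 (by linarith) hℓ3 hxL (by linarith) h4x hvar2 hhigh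

/-- The main theorem on total influence. -/
theorem main_influence {v : ℝ} (hv : 0 < v) (hv1 : v ≤ 1) :
    ∃ n₀ : ℕ, ∀ n : ℕ, n₀ ≤ n → ∀ p : ℝ, 0 < p → p < 1 →
      ∀ f : Finset (Finset (Fin n)) → ℝ, IsBoolOn (edgesOf (Fin n)) f →
        IsMonoOn (edgesOf (Fin n)) f → IsSymOn f →
        v ≤ Ex p (edgesOf (Fin n)) f - Ex p (edgesOf (Fin n)) f ^ 2 →
        (32 * v / 67584 ^ 2) * (Real.log n) ^ 2 ≤ inflTotal p (edgesOf (Fin n)) f := by
  obtain ⟨j₀, hj₀⟩ := pow_unbounded_of_one_lt (3320 / v) (by norm_num : (1 : ℝ) < 2)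
  have hj₀' : 830 / (2 : ℝ) ^ j₀ ≤ v / 4 := by
    rw [div_lt_iff₀ hv] at hj₀
    have h2 : (0 : ℝ) < (2 : ℝ) ^ j₀ := by positivity
    rw [div_le_iff₀ h2]
    linarith
  obtain ⟨a, ha⟩ : ∃ a : ℕ, a = 2 ^ j₀ * 33792 := ⟨_, rfl⟩
  obtain ⟨D₀, hD₀⟩ : ∃ D₀ : ℕ, D₀ = 64 * 4 ^ j₀ := ⟨_, rfl⟩
  obtain ⟨L1, hL1⟩ := eventually_poly_le_exp (C₁ ^ 2) 1810
  obtain ⟨L2, hL2⟩ := eventually_poly_le_exp ((4 / v) * 2 ^ (D₀ + 3)) (D₀ + 3)
  obtain ⟨L3, hL3⟩ := eventually_poly_le_exp (2 ^ a) a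
  obtain ⟨L₀, hL₀⟩ : ∃ L₀ : ℝ, L₀ = max (max (max L1 L2) L3) 1 := ⟨_, rfl⟩
  have hL₀1 : L1 ≤ L₀ := by
    rw [hL₀]
    exact (le_max_left _ _).trans ((le_max_left _ _).trans (le_max_left _ _))
  have hL₀2 : L2 ≤ L₀ := by
    rw [hL₀]
    exact (le_max_right _ _).trans ((le_max_left _ _).trans (le_max_left _ _))
  have hL₀3 : L3 ≤ L₀ := by
    rw [hL₀]
    exact (le_max_right _ _).trans (le_max_left _ _)
  have hL₀4 : 1 ≤ L₀ := by
    rw [hL₀]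
    exact le_max_right _ _
  refine ⟨⌈Real.exp L₀⌉₊ + 2, ?_⟩
  intro n hn p hp hp1 f hB hM hf hVar
  have hn2 : 2 ≤ n := by omega
  have hn0 : (0 : ℝ) < n := by
    have : 0 < n := by omega
    exact_mod_cast this
  obtain ⟨L, hL⟩ : ∃ L, L = Real.log n := ⟨_, rfl⟩
  have hLL₀ : L₀ ≤ L := by
    rw [hL, Real.le_log_iff_exp_le hn0]
    have h1 : Real.exp L₀ ≤ ⌈Real.exp L₀⌉₊ := Nat.le_ceil _
    have h2 : ((⌈Real.exp L₀⌉₊ : ℕ) : ℝ) ≤ n := by
      exact_mod_cast (by omega : ⌈Real.exp L₀⌉₊ ≤ n)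
    linarith
  have hL1' : 1 ≤ L := hL₀4.trans hLL₀
  have hL0 : 0 < L := by linarith
  rw [← hL]
  have hI0 := inflTotal_nonneg hp hp1 hB hM
  have hc1 : 32 * v / 67584 ^ 2 ≤ 1 := by
    rw [div_le_one (by positivity)]
    nlinarith
  have hLsq : 0 ≤ L ^ 2 := sq_nonneg L
  by_cases hσ : sg p ≤ 1 / L
  · -- small variance of a bit
    have h1 := var_le hp hp1 hB hM
    have h2 : sg p ^ 2 ≤ 1 / L ^ 2 := by
      have := pow_le_pow_left₀ (sg_pos hp hp1).le hσ 2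
      rwa [div_pow, one_pow] at this
    have h3 : v ≤ 1 / L ^ 2 * inflTotal p (edgesOf (Fin n)) f :=
      (hVar.trans h1).trans (mul_le_mul_of_nonneg_right h2 hI0)
    have h4 : v * L ^ 2 ≤ inflTotal p (edgesOf (Fin n)) f := by
      have h5 : 0 < L ^ 2 := by positivity
      have h6 := mul_le_mul_of_nonneg_right h3 h5.le
      have e : 1 / L ^ 2 * inflTotal p (edgesOf (Fin n)) f * L ^ 2 = inflTotal p (edgesOf (Fin n)) f := by
        field_simp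
      rwa [e] at h6
    refine le_trans ?_ h4
    apply mul_le_mul_of_nonneg_right _ hLsq
    rw [div_le_iff₀ (by positivity)]
    nlinarith
  · push Not at hσ
    by_cases hI : L ^ 2 ≤ inflTotal p (edgesOf (Fin n)) f
    · refine le_trans ?_ hI
      have := mul_le_mul_of_nonneg_right hc1 hLsq
      linarith
    · push Not at hI
      have E1 : (C₁ * L ^ 905) ^ 2 ≤ Real.exp L := by
        have h1 := hL1 L (hL₀1.trans hLL₀)
        have e : (C₁ * L ^ 905) ^ 2 = C₁ ^ 2 * L ^ 1810 := by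
          rw [mul_pow, ← pow_mul]
        rw [e]
        exact h1
      have E2 : (L ^ 2 + 1) * (2 * (L + 1)) * (2 * L) ^ (64 * 4 ^ j₀) ≤ (v / 4) * Real.exp L := by
        have h1 := hL2 L (hL₀2.trans hLL₀)
        have hLp : 1 ≤ L ^ 2 := one_le_pow₀ hL1'
        have h2 : (L ^ 2 + 1) * (2 * (L + 1)) ≤ (2 * L ^ 2) * (4 * L) :=
          mul_le_mul (by linarith) (by linarith) (by positivity) (by positivity)
        have h3 : (L ^ 2 + 1) * (2 * (L + 1)) * (2 * L) ^ (64 * 4 ^ j₀)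
            ≤ (2 * L ^ 2) * (4 * L) * (2 * L) ^ (64 * 4 ^ j₀) :=
          mul_le_mul_of_nonneg_right h2 (by positivity)
        refine h3.trans ?_
        rw [← hD₀]
        have e : (2 * L ^ 2) * (4 * L) * (2 * L) ^ D₀ = (v / 4) * ((4 / v) * 2 ^ (D₀ + 3) * L ^ (D₀ + 3)) := by
          field_simp
          ring
        rw [e]
        exact mul_le_mul_of_nonneg_left h1 (by positivity)
      have E3 : (2 : ℝ) ^ j₀ * 33792 * Real.log (2 * L) ≤ L := by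
        have h1 := hL3 L (hL₀3.trans hLL₀)
        have h2 : (2 * L) ^ a ≤ Real.exp L := by
          rw [mul_pow]
          exact h1
        have h3 := (Real.log_le_iff_le_exp (by positivity)).mpr h2
        rw [Real.log_pow, ha] at h3
        push_cast at h3
        exact h3
      exact hard_case hn2 hp hp1 hB hM hf hv hVar hj₀' hL hL1' E1 E2 E3 (by
        exact hσ) hI

end Vale.Agent.P063X
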