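/-
P063: the derivative formula and the bound on the width of the transition.
-/
import Vale.Agent.P063X.Main2

open Finset

namespace Vale.Agent.P063X

section russo
variable {α : Type*} [DecidableEq α]

lemma infl_insert_self {a : α} {V : Finset α} (ha : a ∉ V) (p : ℝ) (F : Finset α → ℝ) :
    infl p (insert a V) F a = Ex p V (fun x => F (insert a x)) - Ex p V F := by
  unfold infl
  rw [Finset.erase_insert ha, ← Ex_sub]
  rfl

lemma infl_insert_ne {a e : α} {V : Finset α} (ha : a ∉ V) (he : e ∈ V) (p : ℝ)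
    (F : Finset α → ℝ) :
    infl p (insert a V) F e
      = (1 - p) * infl p V F e + p * infl p V (fun x => F (insert a x)) e := by
  unfold infl
  have hne : a ≠ e := fun h => ha (h ▸ he)
  have h1 : (insert a V).erase e = insert a (V.erase e) := Finset.erase_insert_of_ne hne
  have h2 : a ∉ V.erase e := fun h => ha (Finset.mem_of_mem_erase h)
  rw [h1, Ex_insert p h2]
  congr 2
  apply Ex_congr
  intro x _
  unfold dd
  rw [Finset.insert_comm]

/-- The derivative of the expectation in the parameter. -/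
theorem Ex_hasDerivAt (U : Finset α) (F : Finset α → ℝ) (p : ℝ) :
    HasDerivAt (fun q => Ex q U F) (inflTotal p U F) p := by
  induction U using Finset.induction_on generalizing F with
  | empty =>
    have : (fun q => Ex q (∅ : Finset α) F) = fun _ => F ∅ := by
      funext q
      simp
    rw [this]
    simpa [inflTotal] using hasDerivAt_const p (F ∅)
  | insert a V ha ih =>
    have h1 : (fun q => Ex q (insert a V) F)
        = fun q => (1 - q) * Ex q V F + q * Ex q V (fun x => F (insert a x)) := by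
      funext q
      exact Ex_insert q ha F
    rw [h1]
    have h2 : HasDerivAt (fun q : ℝ => 1 - q) (-1) p := by
      simpa using (hasDerivAt_id p).const_sub 1
    have h3 := (h2.mul (ih F)).add ((hasDerivAt_id p).mul (ih (fun x => F (insert a x))))
    have h5 : inflTotal p (insert a V) F
        = -1 * Ex p V F + (1 - p) * inflTotal p V F
          + (1 * Ex p V (fun x => F (insert a x))
            + p * inflTotal p V (fun x => F (insert a x))) := by
      unfold inflTotal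
      rw [Finset.sum_insert ha, infl_insert_self ha]
      have h4 : ∑ e ∈ V, infl p (insert a V) F e
          = (1 - p) * ∑ e ∈ V, infl p V F e
            + p * ∑ e ∈ V, infl p V (fun x => F (insert a x)) e := by
        rw [Finset.mul_sum, Finset.mul_sum, ← Finset.sum_add_distrib]
        exact Finset.sum_congr rfl fun e he => infl_insert_ne ha he p F
      rw [h4]
      ring
    rw [h5]
    exact h3

lemma Ex_one (U : Finset α) (F : Finset α → ℝ) : Ex 1 U F = F U := by
  induction U using Finset.induction_on generalizing F with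
  | empty => simp
  | insert a V ha ih =>
    rw [Ex_insert 1 ha, ih (fun x => F (insert a x))]
    ring

end russo

/-- The bound on the width for Boolean functions. -/
theorem width_core {ε : ℝ} (h0 : 0 < ε) (h1 : ε < 1 / 2) :
    ∃ C : ℝ, 0 < C ∧ ∀ n : ℕ, 2 ≤ n → ∀ f : Finset (Finset (Fin n)) → ℝ,
      IsBoolOn (edgesOf (Fin n)) f → IsMonoOn (edgesOf (Fin n)) f → IsSymOn f →
      f (edgesOf (Fin n)) = 1 →
      sInf {q : ℝ | q ∈ Set.Icc (0 : ℝ) 1 ∧ 1 - ε ≤ Ex q (edgesOf (Fin n)) f}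
        - sInf {q : ℝ | q ∈ Set.Icc (0 : ℝ) 1 ∧ ε ≤ Ex q (edgesOf (Fin n)) f}
        ≤ C / (Real.log n) ^ 2 := by
  have hv : 0 < ε / 2 := by linarith
  have hv1 : ε / 2 ≤ 1 := by linarith
  obtain ⟨n₀, hn₀⟩ := main_influence hv hv1
  obtain ⟨c, hc⟩ : ∃ c : ℝ, c = 32 * (ε / 2) / 67584 ^ 2 := ⟨_, rfl⟩
  have hc0 : 0 < c := by
    rw [hc]
    positivity
  refine ⟨1 / c + (Real.log n₀) ^ 2 + 1, by positivity, ?_⟩
  intro n hn f hB hM hf hU
  obtain ⟨U, hUd⟩ : ∃ U, U = edgesOf (Fin n) := ⟨_, rfl⟩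
  rw [← hUd] at hB hM hU ⊢
  have hn0R : (1 : ℝ) < n := by
    have : 1 < n := by omega
    exact_mod_cast this
  have hlog : 0 < Real.log n := Real.log_pos hn0R
  have hlog2 : 0 < (Real.log n) ^ 2 := by positivity
  -- the function of the parameter
  have hderiv : ∀ q, HasDerivAt (fun q => Ex q U f) (inflTotal q U f) q :=
    fun q => Ex_hasDerivAt U f q
  have hcont : Continuous (fun q => Ex q U f) :=
    continuous_iff_continuousAt.mpr fun q => (hderiv q).continuousAt
  have hmono : MonotoneOn (fun q => Ex q U f) (Set.Icc (0 : ℝ) 1) := by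
    apply monotoneOn_of_deriv_nonneg (convex_Icc 0 1) hcont.continuousOn
    · intro q _
      exact (hderiv q).differentiableAt.differentiableWithinAt
    · intro q hq
      rw [interior_Icc] at hq
      rw [(hderiv q).deriv]
      exact inflTotal_nonneg hq.1 hq.2 hB hM
  have hg1 : Ex 1 U f = 1 := by
    rw [Ex_one, hU]
  have h01 : ∀ q ∈ Set.Icc (0 : ℝ) 1, 0 ≤ Ex q U f ∧ Ex q U f ≤ 1 := by
    intro q hq
    constructor
    · apply Ex_nonneg hq.1 hq.2
      intro x hx
      rcases hB x hx with h | h <;> rw [h] <;> norm_num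
    · apply Ex_le_const hq.1 hq.2
      intro x hx
      rcases hB x hx with h | h <;> rw [h] <;> norm_num
  -- the two sets
  obtain ⟨S₁, hS₁⟩ : ∃ S : Set ℝ, S = {q : ℝ | q ∈ Set.Icc (0 : ℝ) 1 ∧ 1 - ε ≤ Ex q U f} := ⟨_, rfl⟩
  obtain ⟨S₀, hS₀⟩ : ∃ S : Set ℝ, S = {q : ℝ | q ∈ Set.Icc (0 : ℝ) 1 ∧ ε ≤ Ex q U f} := ⟨_, rfl⟩
  rw [← hS₁, ← hS₀]
  have hbd1 : BddBelow S₁ := ⟨0, fun q hq => by rw [hS₁] at hq; exact hq.1.1⟩
  have hbd0 : BddBelow S₀ := ⟨0, fun q hq => by rw [hS₀] at hq; exact hq.1.1⟩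
  have hne1 : S₁.Nonempty := ⟨1, by
    rw [hS₁]
    exact ⟨⟨by norm_num, le_rfl⟩, by rw [hg1]; linarith⟩⟩
  have hne0 : S₀.Nonempty := ⟨1, by
    rw [hS₀]
    exact ⟨⟨by norm_num, le_rfl⟩, by rw [hg1]; linarith⟩⟩
  obtain ⟨p₁, hp₁⟩ : ∃ p, p = sInf S₁ := ⟨_, rfl⟩
  obtain ⟨p₀, hp₀⟩ : ∃ p, p = sInf S₀ := ⟨_, rfl⟩
  rw [← hp₁, ← hp₀]
  have hp₁1 : p₁ ≤ 1 := by
    rw [hp₁]
    apply csInf_le hbd1
    rw [hS₁]
    exact ⟨⟨by norm_num, le_rfl⟩, by rw [hg1]; linarith⟩
  have hp₀0 : 0 ≤ p₀ := by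
    rw [hp₀]
    apply le_csInf hne0
    intro q hq
    rw [hS₀] at hq
    exact hq.1.1
  have hp₀1 : p₀ ≤ 1 := by
    rw [hp₀]
    apply csInf_le hbd0
    rw [hS₀]
    exact ⟨⟨by norm_num, le_rfl⟩, by rw [hg1]; linarith⟩
  have hp₁0 : 0 ≤ p₁ := by
    rw [hp₁]
    apply le_csInf hne1
    intro q hq
    rw [hS₁] at hq
    exact hq.1.1
  have hCpos : 0 ≤ 1 / c + (Real.log n₀) ^ 2 + 1 := by positivity
  by_cases hle : p₁ ≤ p₀
  · have h2 : 0 ≤ (1 / c + (Real.log n₀) ^ 2 + 1) / (Real.log n) ^ 2 := by positivity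
    linarith
  push Not at hle
  by_cases hnn₀ : n₀ ≤ n
  · -- large `n`
    have hderiv_lower : ∀ q ∈ Set.Ioo p₀ p₁, c * (Real.log n) ^ 2 ≤ inflTotal q U f := by
      intro q hq
      have hq0 : 0 < q := lt_of_le_of_lt hp₀0 hq.1
      have hq1 : q < 1 := lt_of_lt_of_le hq.2 hp₁1
      have hqI : q ∈ Set.Icc (0 : ℝ) 1 := ⟨hq0.le, hq1.le⟩
      have hlow : ε ≤ Ex q U f := by
        have h2 : sInf S₀ < q := by
          rw [← hp₀]
          exact hq.1
        obtain ⟨q', hq'S, hq'q⟩ := exists_lt_of_csInf_lt hne0 h2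
        rw [hS₀] at hq'S
        exact hq'S.2.trans (hmono hq'S.1 hqI hq'q.le)
      have hup : Ex q U f ≤ 1 - ε := by
        have h2 : q < sInf S₁ := by
          rw [← hp₁]
          exact hq.2
        have h3 := notMem_of_lt_csInf h2 hbd1
        rw [hS₁] at h3
        have h4 : ¬ (1 - ε ≤ Ex q U f) := fun h5 => h3 ⟨hqI, h5⟩
        push Not at h4
        exact h4.le
      have hVar : ε / 2 ≤ Ex q U f - Ex q U f ^ 2 := by
        have h2 : 0 ≤ (Ex q U f - ε) * (1 - ε - Ex q U f) :=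
          mul_nonneg (by linarith) (by linarith)
        nlinarith
      have h5 := hn₀ n hnn₀ q hq0 hq1 f (by rw [← hUd]; exact hB) (by rw [← hUd]; exact hM) hf
        (by rw [← hUd]; exact hVar)
      rw [← hUd, ← hc] at h5
      exact h5
    obtain ⟨ξ, hξ, hslope⟩ := exists_hasDerivAt_eq_slope (fun q => Ex q U f)
      (fun q => inflTotal q U f) hle hcont.continuousOn (fun q _ => hderiv q)
    have hξ2 := hderiv_lower ξ hξ
    rw [hslope] at hξ2
    have hdiff : 0 < p₁ - p₀ := by linarith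
    rw [le_div_iff₀ hdiff] at hξ2
    have hg1le := (h01 p₁ ⟨hp₁0, hp₁1⟩).2
    have hg0ge := (h01 p₀ ⟨hp₀0, hp₀1⟩).1
    have h6 : c * (Real.log n) ^ 2 * (p₁ - p₀) ≤ 1 := by
      linarith
    rw [le_div_iff₀ hlog2]
    have h7 : (p₁ - p₀) * (Real.log n) ^ 2 ≤ 1 / c := by
      rw [le_div_iff₀ hc0]
      have e : (p₁ - p₀) * (Real.log n) ^ 2 * c = c * (Real.log n) ^ 2 * (p₁ - p₀) := by ring
      rw [e]
      exact h6
    have h8 : 0 ≤ (Real.log n₀) ^ 2 := sq_nonneg _
    linarith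
  · -- small `n`
    push Not at hnn₀
    rw [le_div_iff₀ hlog2]
    have h2 : p₁ - p₀ ≤ 1 := by linarith
    have h3 : Real.log n ≤ Real.log n₀ := by
      apply Real.log_le_log (by linarith)
      exact_mod_cast hnn₀.le
    have h4 : (Real.log n) ^ 2 ≤ (Real.log n₀) ^ 2 := pow_le_pow_left₀ hlog.le h3 2
    have h5 : (p₁ - p₀) * (Real.log n) ^ 2 ≤ 1 * (Real.log n) ^ 2 :=
      mul_le_mul_of_nonneg_right h2 hlog2.le
    have h6 : 0 < 1 / c := by positivity
    linarith

end Vale.Agent.P063X
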